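import Vale.Agent.P133.Nrm

/-! P133: the angle estimate. -/

namespace Vale.Agent.P133

variable {R : Type*} [CStarAlgebra R] [PartialOrder R] [StarOrderedRing R]

theorem angle_aux {D a b : R} (hD : IsSelfAdjoint D) (hn : ‖D‖ ≤ 2) {g : ℝ} (g0 : 0 < g)
    (h1 : g • (star a * a) ≤ star a * D * a) (h2 : g • (star b * b) ≤ -(star b * D * b)) :
    (64 : ℝ) • (star a * b + star b * a) ≤ (64 - 8 * g ^ 2) • (star a * a + star b * b) := by
  have h3 := star_mul_self_nonneg (g • (D * (a + b)) - (8 : ℝ) • (a - b))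
  have h4 : star (a + b) * (star D * D) * (a + b) ≤ (4 : ℝ) • (star (a + b) * (a + b)) :=
    (CStarAlgebra.star_left_conjugate_le_norm_smul (IsSelfAdjoint.star_mul_self D)).trans
      (smul_le_smul_of_nonneg_right (by
        rw [CStarRing.norm_star_mul_self]; nlinarith [norm_nonneg D]) (star_mul_self_nonneg _))
  have h5 := star_mul_self_nonneg (a - b)
  have h6 := add_nonneg (add_nonneg h3 (smul_nonneg (sq_nonneg g) (sub_nonneg.2 h4)))
    (add_nonneg (smul_nonneg (show (0 : ℝ) ≤ 16 * g by positivity)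
      (add_nonneg (sub_nonneg.2 h1) (sub_nonneg.2 h2)))
      (smul_nonneg (show (0 : ℝ) ≤ 4 * g ^ 2 by positivity) h5))
  refine sub_nonneg.1 (h6.trans_eq ?_)
  simp only [star_add, star_sub, star_mul, star_smul, star_trivial, hD.star_eq, mul_add, add_mul,
    mul_sub, sub_mul, smul_mul_assoc, mul_smul_comm, mul_assoc]
  module

/-- Hint: `w = U* V`, `λ = ‖w‖`, `a = U w`, `b = λ • V`, `s = a + b`, `δ = a - b`,
`N = a* a + b* b ≤ 2 λ ^ 2`. `g N ≤ a* D a - b* D b = (s* D δ + δ* D s) / 2`, and for `τ = 8 / g`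
`s* D δ + δ* D s ≤ τ⁻¹ s* D D s + τ δ* δ ≤ (4 / τ) s* s + τ δ* δ`, `s* s ≤ 2 N`. So
` (g ^ 2 / 8) N ≤ δ* δ = N - 2 λ w* w`, hence `2 λ w* w ≤ (1 - g ^ 2 / 8) 2 λ ^ 2`; take norms. -/
theorem angle {D U V : R} (hD : IsSelfAdjoint D) (hn : ‖D‖ ≤ 2) {g : ℝ} (g0 : 0 < g) (g1 : g ≤ 1)
    (hU : ‖U‖ ≤ 1) (hV : ‖V‖ ≤ 1) (h1 : g • (star U * U) ≤ star U * D * U)
    (h2 : g • (star V * V) ≤ -(star V * D * V)) : ‖star U * V‖ ≤ 1 - g ^ 2 / 8 := by
  set w := star U * V with hw
  have g2 : g ^ 2 ≤ 1 := pow_le_one₀ g0.le g1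
  rcases (norm_nonneg w).eq_or_lt with e | e
  · rw [← e]; linarith
  have h3 := angle_aux (a := U * w) (b := ‖w‖ • V) hD hn g0 ?_ ?_
  · have e1 : star (U * w) * ‖w‖ • V + star (‖w‖ • V) * (U * w) = (2 * ‖w‖) • (star w * w) := by
      simp only [hw, star_mul, star_smul, star_trivial, star_star, smul_mul_assoc, mul_smul_comm,
        mul_assoc]
      module
    rw [e1, smul_smul] at h3
    have h4 := CStarAlgebra.norm_le_norm_of_nonneg_of_le
      (smul_nonneg (by positivity) (star_mul_self_nonneg w)) h3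
    have h5 : ‖U * w‖ ≤ ‖w‖ := (norm_mul_le _ _).trans (mul_le_of_le_one_left e.le hU)
    have h6 : ‖‖w‖ • V‖ ≤ ‖w‖ := by
      rw [norm_smul, norm_norm]; exact mul_le_of_le_one_right e.le hV
    have h7 : ‖star (U * w) * (U * w) + star (‖w‖ • V) * ‖w‖ • V‖ ≤ ‖w‖ * ‖w‖ + ‖w‖ * ‖w‖ := by
      refine norm_add_le_of_le ?_ ?_ <;> rw [CStarRing.norm_star_mul_self]
      · exact mul_self_le_mul_self (norm_nonneg _) h5
      · exact mul_self_le_mul_self (norm_nonneg _) h6
    have h8 : (0 : ℝ) ≤ 64 - 8 * g ^ 2 := by linarith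
    rw [norm_smul, norm_smul, CStarRing.norm_star_mul_self, Real.norm_of_nonneg (by positivity),
      Real.norm_of_nonneg h8] at h4
    refine le_of_mul_le_mul_right ?_ (mul_pos e e)
    linarith [mul_le_mul_of_nonneg_left h7 h8]
  · simpa only [star_mul, smul_mul_assoc, mul_smul_comm, mul_assoc] using
      star_left_conjugate_le_conjugate h1 w
  · have h4 := smul_le_smul_of_nonneg_left h2 (mul_self_nonneg ‖w‖)
    simpa only [star_smul, star_trivial, smul_mul_assoc, mul_smul_comm, smul_smul, smul_neg,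
      mul_comm g] using h4

end Vale.Agent.P133
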