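import Vale.Agent.P133.Quot

/-! P133: the intersection lemma. -/

namespace Vale.Agent.P133

universe u
variable {R : Type u} [CStarAlgebra R] [PartialOrder R] [StarOrderedRing R]

theorem Intr_quot (P : R → Prop) (h0 : P 0) (ha : ∀ x y, P x → P y → P (x + y))
    (hl : ∀ r x, P x → P (r * x)) (hr : ∀ r x, P x → P (x * r)) (hc : IsClosed {x | P x}) :
    ∃ π : Rep R, ∀ x, π x = 0 ↔ P x := by
  obtain ⟨π, -, h⟩ := exists_quot (TwoSidedIdeal.mk' {x | P x} h0 (fun hx hy => ha _ _ hx hy)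
    (fun {x} hx => by simpa using hl (-1) x hx) (fun hx => hl _ _ hx) fun hx => hr _ _ hx)
    (by rwa [TwoSidedIdeal.coe_mk'])
  exact ⟨π, fun x => (h x).trans (TwoSidedIdeal.mem_mk' _ _ _ _ _ _ _)⟩

/-- the ideal of elements controlled by the compressions of killed elements -/
def IntrT (p b e x : R) : Prop := ∀ ε : ℝ, 0 < ε → ∃ (ι : R) (δ : ℝ),
  (∀ ρ : Rep R, ρ b = 0 → ρ ι = 0) ∧ 0 ≤ ι ∧ 0 < δ ∧
    ∀ ρ : Rep R, ρ p = 0 → ‖ρ (e * ι * e)‖ ≤ δ → ‖ρ x‖ ≤ ε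

variable {p b e x y : R}

omit [StarOrderedRing R] in
theorem Intr_p (h : ∀ ρ : Rep R, ρ p = 0 → ρ x = 0) : IntrT p b e x := fun ε hε =>
  ⟨0, 1, fun ρ _ => map_zero ρ.hom, le_rfl, one_pos, fun ρ h1 _ => by
    rw [h ρ h1, norm_zero]
    exact hε.le⟩

theorem Intr_add (he : IsSelfAdjoint e) (hx : IntrT p b e x) (hy : IntrT p b e y) :
    IntrT p b e (x + y) := by
  intro ε hε
  obtain ⟨ι, δ, h1, h2, h3, h4⟩ := hx (ε / 2) (half_pos hε)
  obtain ⟨ι', δ', h1', h2', h3', h4'⟩ := hy (ε / 2) (half_pos hε)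
  refine ⟨ι + ι', min δ δ', fun ρ h => by rw [map_add, h1 ρ h, h1' ρ h, add_zero],
    add_nonneg h2 h2', lt_min h3 h3', fun ρ h5 h6 => ?_⟩
  have h7 := map_nonneg' ρ.hom (he.conjugate_nonneg h2)
  have h8 := map_nonneg' ρ.hom (he.conjugate_nonneg h2')
  rw [mul_add, add_mul, map_add, le_min_iff] at h6
  have h9 := h4 ρ h5 ((CStarAlgebra.norm_le_norm_of_nonneg_of_le h7
    (le_add_of_nonneg_right h8)).trans h6.1)
  have h10 := h4' ρ h5 ((CStarAlgebra.norm_le_norm_of_nonneg_of_le h8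
    (le_add_of_nonneg_left h7)).trans h6.2)
  rw [map_add]
  linarith [norm_add_le (ρ x) (ρ y)]

omit [StarOrderedRing R] in
theorem Intr_dom (hx : IntrT p b e x) {C : ℝ} (hC : 0 ≤ C)
    (h : ∀ ρ : Rep R, ‖ρ y‖ ≤ C * ‖ρ x‖) : IntrT p b e y := by
  intro ε hε
  obtain ⟨ι, δ, h1, h2, h3, h4⟩ := hx (ε / (C + 1)) (by positivity)
  refine ⟨ι, δ, h1, h2, h3, fun ρ h5 h6 => (h ρ).trans ?_⟩
  have h7 := (le_div_iff₀ (by positivity)).1 (h4 ρ h5 h6)
  nlinarith [norm_nonneg (ρ x)]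

omit [StarOrderedRing R] in
theorem Intr_left (r : R) (hx : IntrT p b e x) : IntrT p b e (r * x) :=
  Intr_dom hx (norm_nonneg r) fun ρ => by
    rw [map_mul]
    exact (norm_mul_le _ _).trans
      (mul_le_mul_of_nonneg_right (norm_map_le ρ.hom r) (norm_nonneg _))

omit [StarOrderedRing R] in
theorem Intr_right (r : R) (hx : IntrT p b e x) : IntrT p b e (x * r) :=
  Intr_dom hx (norm_nonneg r) fun ρ => by
    rw [map_mul, mul_comm]
    exact (norm_mul_le _ _).trans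
      (mul_le_mul_of_nonneg_left (norm_map_le ρ.hom r) (norm_nonneg _))

omit [StarOrderedRing R] in
theorem Intr_closed (p b e : R) : IsClosed {x | IntrT p b e x} := by
  refine isClosed_of_closure_subset fun x hx ε hε => ?_
  obtain ⟨y, hy, h0⟩ := Metric.mem_closure_iff.1 hx (ε / 2) (half_pos hε)
  obtain ⟨ι, δ, h1, h2, h3, h4⟩ := hy (ε / 2) (half_pos hε)
  refine ⟨ι, δ, h1, h2, h3, fun ρ h5 h6 => ?_⟩
  have h7 := norm_map_le ρ.hom (x - y)
  rw [map_sub] at h7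
  rw [dist_eq_norm] at h0
  linarith [h4 ρ h5 h6, norm_sub_norm_le (ρ x) (ρ y)]

theorem Intr_e (he : IsSelfAdjoint e) (hx : ∀ ρ : Rep R, ρ b = 0 → ρ x = 0) :
    IntrT p b e (x * e) := fun ε hε =>
  ⟨star x * x, ε * ε, fun ρ h => by rw [map_mul, hx ρ h, mul_zero], star_mul_self_nonneg x,
    mul_pos hε hε, fun ρ _ h => by
      have h1 : e * (star x * x) * e = star (x * e) * (x * e) := by
        simp only [star_mul, he.star_eq, mul_assoc]
      rw [h1, map_mul, map_star, CStarRing.norm_star_mul_self] at h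
      exact (mul_self_le_mul_self_iff (norm_nonneg _) hε.le).2 h⟩

/-- Hint: call `x` killed if `∀ ρ : Rep R, ρ b = 0 → ρ x = 0`. `a' = rp α β a`.
`T = {x | ∀ ε > 0, ∃ ι δ, killed ι ∧ 0 ≤ ι ∧ 0 < δ ∧ ∀ ρ, ρ p = 0 → ‖ρ (e ι e)‖ ≤ δ → ‖ρ x‖ ≤ ε}`
is a closed two-sided ideal (sums: `ι₁ + ι₂`, norm monotone on positives); it contains `p` and
`x * e` for killed `x` (`ι = star x * x`). `K = {y | ∀ x killed, x * y ∈ T}` is a closed ideal
containing `e`; its quotient and `h2` give `a' ∈ K`. `K₂ = {y | ∀ r, y * r * a' ∈ T}` is a closed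
ideal containing `p` and `b`; its quotient and `h1` give `a' ∈ K₂`, so `a' * 1 * a' ∈ T`. Take
`ε = 1 / 2` and `θ = rp 0 δ (e * ι * e)`. -/
theorem intr {p b e a : R} (a0 : 0 ≤ a) (he : IsSelfAdjoint e) {α β : ℝ} (h0 : 0 ≤ α)
    (hαβ : α < β) (h1 : ∀ ρ : Rep R, ρ p = 0 → ρ b = 0 → ‖ρ a‖ ≤ α)
    (h2 : ∀ ρ : Rep R, ρ e = 0 → ‖ρ a‖ ≤ α) :
    ∃ θ : R, 0 ≤ θ ∧ θ ≤ 1 ∧ Sup e θ ∧ (∀ ρ : Rep R, ρ b = 0 → ρ θ = 0) ∧
      ∀ ρ : Rep R, ρ p = 0 → ‖ρ θ‖ < 1 → ‖ρ a‖ ≤ β := by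
  have ha := a0.isSelfAdjoint
  have hz : IntrT p b e 0 := Intr_p fun ρ _ => map_zero ρ.hom
  obtain ⟨π, hπ⟩ := Intr_quot
    (fun y => ∀ x, (∀ ρ : Rep R, ρ b = 0 → ρ x = 0) → IntrT p b e (x * y))
    (fun x _ => by rwa [mul_zero])
    (fun y y' hy hy' x hx => by
      rw [mul_add]
      exact Intr_add he (hy x hx) (hy' x hx))
    (fun r y hy x hx => by
      rw [← mul_assoc]
      exact hy _ fun ρ h => by rw [map_mul, hx ρ h, zero_mul])
    (fun r y hy x hx => by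
      rw [← mul_assoc]
      exact Intr_right r (hy x hx))
    (by
      simp only [Set.ofPred_forall]
      exact isClosed_iInter fun x => isClosed_iInter fun _ =>
        (Intr_closed p b e).preimage (continuous_const_mul x))
  have h3 := (hπ (rp α β a)).1 (by
    rw [map_rp π.hom α β ha]
    exact rp_eq_zero hαβ (h2 π ((hπ e).2 fun x hx => Intr_e he hx)))
  obtain ⟨π', hπ'⟩ := Intr_quot (fun y => ∀ r, IntrT p b e (y * r * rp α β a))
    (fun r => by rwa [zero_mul, zero_mul])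
    (fun y y' hy hy' r => by
      rw [add_mul, add_mul]
      exact Intr_add he (hy r) (hy' r))
    (fun s y hy r => by
      rw [mul_assoc s, mul_assoc s]
      exact Intr_left s (hy r))
    (fun s y hy r => by
      rw [mul_assoc y]
      exact hy _)
    (by
      simp only [Set.ofPred_forall]
      exact isClosed_iInter fun r =>
        (Intr_closed p b e).preimage (f := fun y => y * r * rp α β a) (by fun_prop))
  have h4 := (hπ' (rp α β a)).1 (by
    rw [map_rp π'.hom α β ha]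
    exact rp_eq_zero hαβ (h1 π'
      ((hπ' p).2 fun r => Intr_p fun ρ h => by rw [map_mul, map_mul, h, zero_mul, zero_mul])
      ((hπ' b).2 fun r => h3 _ fun ρ h => by rw [map_mul, h, zero_mul]))) 1
  obtain ⟨ι, δ, h5, h6, h7, h8⟩ := h4 (1 / 2) one_half_pos
  have h9 : 0 ≤ e * ι * e := he.conjugate_nonneg h6
  have h10 := sup_rp_self le_rfl h7 h9.isSelfAdjoint
  refine ⟨rp 0 δ (e * ι * e), rp_nonneg _ _ _, rp_le_one _ _ _,
    Sup.trans ((Sup.mul_self e ι).mul_right e) h10,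
    fun ρ h => h10.map_zero ρ.hom (by rw [map_mul, map_mul, h5 ρ h, mul_zero, zero_mul]),
    fun ρ h h11 => ?_⟩
  rw [map_rp ρ.hom 0 δ h9.isSelfAdjoint] at h11
  have h12 := h8 ρ h (norm_lt_of_norm_rp_lt le_rfl h7 (map_nonneg' ρ.hom h9) h11).le
  rw [mul_one, map_mul, map_rp ρ.hom α β ha, (rp_sa α β (ρ a)).norm_mul_self] at h12
  refine (norm_lt_of_norm_rp_lt h0 hαβ (map_nonneg' ρ.hom a0) ?_).le
  nlinarith [norm_nonneg (rp α β (ρ a))]

end Vale.Agent.P133
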