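import Vale.Agent.P133.Nrm

/-! P133: pushing the difference to definite signs. -/

namespace Vale.Agent.P133

universe u
variable {R : Type u} [CStarAlgebra R] [PartialOrder R] [StarOrderedRing R]


theorem push1_norm {t : R} (t0 : 0 ≤ t) (h : t * t * t ≤ (1 / 2 : ℝ) • (t * t)) : ‖t‖ < 1 := by
  have ts : IsSelfAdjoint t := IsSelfAdjoint.of_nonneg t0
  have h1 := (rt_sa t).conjugate_le_conjugate h
  have h2 := rt_mul_rt t0
  generalize rt t = r at h1 h2
  have h3 : r * (t * t * t) * r = t * t * (t * t) := by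
    rw [← h2]
    noncomm_ring
  have h4 : r * ((1 / 2 : ℝ) • (t * t)) * r = (1 / 2 : ℝ) • (t * t * t) := by
    rw [← h2, mul_smul_comm, smul_mul_assoc]
    congr 1
    noncomm_ring
  rw [h3, h4] at h1
  have h5 := h1.trans (rsmul_le_rsmul h (by norm_num : (0 : ℝ) ≤ 1 / 2))
  have h6 : IsSelfAdjoint (t * t) := by
    have := IsSelfAdjoint.star_mul_self t
    rwa [ts.star_eq] at this
  have h7 : 0 ≤ t * t * (t * t) := by
    have := star_mul_self_nonneg (t * t)
    rwa [h6.star_eq] at this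
  have h8 := CStarAlgebra.norm_le_norm_of_nonneg_of_le h7 h5
  have h9 : ‖t * t‖ = ‖t‖ * ‖t‖ := by
    have := CStarRing.norm_star_mul_self (x := t)
    rwa [ts.star_eq] at this
  have h10 : ‖t * t * (t * t)‖ = ‖t * t‖ * ‖t * t‖ := by
    have := CStarRing.norm_star_mul_self (x := t * t)
    rwa [h6.star_eq] at this
  rw [h10, norm_smul, norm_smul, h9, Real.norm_of_nonneg (by norm_num)] at h8
  by_contra hn
  have h11 : 1 ≤ ‖t‖ * ‖t‖ := by nlinarith [not_lt.1 hn]
  nlinarith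

theorem push1_sq {x : R} (x0 : 0 ≤ x) (x1 : x ≤ 1) : x * x ≤ 1 := by
  have := star_mul_self_le_one (norm_le_one_of_le_one x0 x1)
  rwa [(IsSelfAdjoint.of_nonneg x0).star_eq] at this

theorem push1_a {x d : R} (xs : IsSelfAdjoint x) (ds : IsSelfAdjoint d) {c : ℝ} (hc : 0 < c)
    (h : x * pp (x * d * x - c • (1 : R)) = 0) : x * d * x ≤ c • (1 : R) := by
  have ls : IsSelfAdjoint (x * d * x - c • (1 : R)) :=
    (ds.conjugate_self xs).sub ((IsSelfAdjoint.all c).smul (IsSelfAdjoint.one R))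
  have h1 := pp_conj_nonneg ls
  have h2 := nonpos_of_pp_eq_zero ls
  have h3 := pp_sa (x * d * x - c • (1 : R))
  generalize pp (x * d * x - c • (1 : R)) = q at h h1 h2 h3
  have h4 : q * (x * d * x - c • (1 : R)) * q = -(c • (star q * q)) := by
    rw [h3.star_eq, mul_sub, sub_mul, mul_assoc q, mul_assoc (x * d), h, mul_smul_comm,
      smul_mul_assoc]
    simp
  rw [h4, neg_nonneg] at h1
  have h5 := rsmul_le_rsmul h1 (inv_pos.2 hc).le
  rw [smul_smul, inv_mul_cancel₀ hc.ne', one_smul, smul_zero] at h5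
  exact sub_nonpos.1 (h2 (eq_zero_of_star_mul_self (le_antisymm h5 (star_mul_self_nonneg q))))

theorem push1_b {x y t s : R} (x0 : 0 ≤ x) (x1 : x ≤ 1) (t0 : 0 ≤ t) (s1 : s ≤ 1) {g : ℝ}
    (hg : 0 < g) (h : x * (x - y + (g / 4) • t - (g / 4) • s) * x ≤ (g / 8) • (1 : R)) :
    x * (x - y) * x ≤ (g / 2) • (1 : R) := by
  have xs := IsSelfAdjoint.of_nonneg x0
  have h1 : x * s * x ≤ 1 := by
    have := xs.conjugate_le_conjugate s1
    rw [mul_one] at this
    exact this.trans (push1_sq x0 x1)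
  have h2 : (0 : R) ≤ (g / 4) • (x * t * x) := by
    have := rsmul_le_rsmul (xs.conjugate_nonneg t0) (by positivity : 0 ≤ g / 4)
    rwa [smul_zero] at this
  have h3 := rsmul_le_rsmul h1 (by positivity : 0 ≤ g / 4)
  have h4 : (0 : R) ≤ (g / 8) • (1 : R) := by
    have := rsmul_le_rsmul (zero_le_one (α := R)) (by positivity : 0 ≤ g / 8)
    rwa [smul_zero] at this
  have h5 : x * (x - y) * x = x * (x - y + (g / 4) • t - (g / 4) • s) * x -
      (g / 4) • (x * t * x) + (g / 4) • (x * s * x) := by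
    simp only [mul_add, add_mul, mul_sub, sub_mul, mul_smul_comm, smul_mul_assoc]
    abel
  have h6 : (g / 2) • (1 : R) = (g / 8) • (1 : R) + (g / 8) • (1 : R) + (g / 4) • (1 : R) := by
    rw [← add_smul, ← add_smul]
    congr 1
    ring
  rw [h5, h6]
  refine add_le_add ((sub_le_self _ h2).trans (h.trans (le_add_of_nonneg_right h4))) h3

theorem push1_c {x y t : R} (x0 : 0 ≤ x) (y1 : y ≤ 1) (t0 : 0 ≤ t) (hx : x * t = t) {g : ℝ}
    (hg : 0 < g) (h : x * (x - y + (g / 4) • t - (g / 4) • 0) * x ≤ (g / 8) • (1 : R)) :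
    ‖t‖ < 1 := by
  have xs := IsSelfAdjoint.of_nonneg x0
  have ts := IsSelfAdjoint.of_nonneg t0
  have hx' : t * x = t := by
    have := congrArg star hx
    rwa [star_mul, xs.star_eq, ts.star_eq] at this
  have h1 := ts.conjugate_le_conjugate h
  have h2 := ts.conjugate_le_conjugate y1
  have h3 : t * (x * (x - y + (g / 4) • t - (g / 4) • (0 : R)) * x) * t =
      (t * 1 * t - t * y * t) + (g / 4) • (t * t * t) := by
    rw [smul_zero, sub_zero, ← mul_assoc, ← mul_assoc, hx', mul_assoc _ x, hx]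
    simp only [mul_add, add_mul, mul_sub, sub_mul, mul_smul_comm, smul_mul_assoc, hx', mul_one]
  rw [h3, mul_smul_comm, smul_mul_assoc, mul_one] at h1
  rw [mul_one] at h2
  have h4 := rsmul_le_rsmul ((le_add_of_nonneg_left (sub_nonneg.2 h2)).trans h1)
    (by positivity : 0 ≤ 4 / g)
  rw [smul_smul, smul_smul, show 4 / g * (g / 4) = 1 by field_simp, one_smul,
    show 4 / g * (g / 8) = 1 / 2 by field_simp; norm_num] at h4
  exact push1_norm t0 h4

/-- One side. Hint: `L = X D X - (g / 8) • 1`, `U = X * pp L`.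
`U* D U = pp L * L * pp L + (g / 8) • (pp L * pp L) ≥ (g / 8) • U* U` since `X X ≤ 1`.
If `ρ U = 0` then `pp L (X D X) pp L = 0` in `ρ`, so `0 ≤ pp L * L * pp L = -(g / 8) • (pp L) ^ 2`,
`ρ (pp L) = 0`, `ρ (X D X) ≤ g / 8`. Then `ρ (X (X - Y) X) ≤ g / 8 + g / 4` (drop `X θ X ≥ 0`, use
`X θ' X ≤ 1`), so `ρ P = 0` (spectrum below `g / 2`; for selfadjoint `a ≤ α • 1`, `rp α β a = 0`), so
`ρ θ' = 0`; conjugate `X (X - Y) X + (g / 4) • X θ X ≤ g / 8` by `θ` (`X θ = θ = θ X`):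
`θ θ - θ Y θ ≥ 0`, hence ` (g / 4) θ ^ 3 ≤ (g / 8) θ ^ 2` and `‖ρ θ‖ ≤ 1 / 2`. -/
theorem push1 {X Y θ θ' D : R} (X0 : 0 ≤ X) (X1 : X ≤ 1) (Y0 : 0 ≤ Y) (Y1 : Y ≤ 1) (t0 : 0 ≤ θ)
    (s0 : 0 ≤ θ') (s1 : θ' ≤ 1) (hX : X * θ = θ) {g : ℝ} (hg : 0 < g)
    (hD : D = X - Y + (g / 4) • θ - (g / 4) • θ')
    (hk : ∀ ρ : Rep R, ρ (rp (g / 2) g (X * (X - Y) * X)) = 0 → ρ θ' = 0) :
    ∃ U : R, Sup X U ∧ (g / 8) • (star U * U) ≤ star U * D * U ∧
      ∀ ρ : Rep R, ρ U = 0 → ρ (rp (g / 2) g (X * (X - Y) * X)) = 0 ∧ ‖ρ θ‖ < 1 := by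

  have xs := IsSelfAdjoint.of_nonneg X0
  have ds : IsSelfAdjoint D := by
    rw [hD]
    exact ((xs.sub (.of_nonneg Y0)).add ((IsSelfAdjoint.all _).smul (.of_nonneg t0))).sub
      ((IsSelfAdjoint.all _).smul (.of_nonneg s0))
  have ls : IsSelfAdjoint (X * D * X - (g / 8) • (1 : R)) :=
    (ds.conjugate_self xs).sub ((IsSelfAdjoint.all _).smul (IsSelfAdjoint.one R))
  refine ⟨X * pp (X * D * X - (g / 8) • (1 : R)), Sup.mul_self _ _, ?_, fun ρ hρ => ?_⟩
  · have h1 := pp_conj_nonneg ls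
    have h3 := pp_sa (X * D * X - (g / 8) • (1 : R))
    generalize pp (X * D * X - (g / 8) • (1 : R)) = q at h1 h3
    have h2 := rsmul_le_rsmul (h3.conjugate_le_conjugate (push1_sq X0 X1))
      (by positivity : 0 ≤ g / 8)
    have h4 : star (X * q) * D * (X * q) =
        (g / 8) • (q * 1 * q) + q * (X * D * X - (g / 8) • (1 : R)) * q := by
      rw [star_mul, h3.star_eq, xs.star_eq]
      simp only [mul_sub, sub_mul, mul_smul_comm, smul_mul_assoc, mul_assoc]
      abel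
    have h5 : star (X * q) * (X * q) = q * (X * X) * q := by
      rw [star_mul, h3.star_eq, xs.star_eq]
      simp only [mul_assoc]
    rw [h4, h5]
    exact h2.trans (le_add_of_nonneg_right h1)
  · have x0 := map_nonneg' ρ.hom X0
    have x1 := map_le' ρ.hom X1
    have y1 := map_le' ρ.hom Y1
    have s1' := map_le' ρ.hom s1
    have t0' := map_nonneg' ρ.hom t0
    rw [map_one] at x1 y1 s1'
    rw [map_mul, map_pp _ ls, map_sub, map_mul, map_mul, map_rsmul, map_one] at hρ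
    have h1 := push1_a (xs.map ρ.hom) (ds.map ρ.hom) (by positivity : 0 < g / 8) hρ
    rw [hD, map_sub, map_add, map_sub, map_rsmul, map_rsmul] at h1
    have h2 : ρ (rp (g / 2) g (X * (X - Y) * X)) = 0 := by
      rw [map_rp _ _ _ ((xs.sub (.of_nonneg Y0)).conjugate_self xs), map_mul, map_mul, map_sub]
      exact rp_eq_zero_of_le (by linarith) (push1_b x0 x1 t0' s1' hg h1)
    have h3 : ρ.hom θ' = 0 := hk ρ h2
    rw [h3] at h1
    exact ⟨h2, push1_c x0 y1 t0' (by rw [← map_mul, hX]) hg h1⟩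

end Vale.Agent.P133
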