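import Vale.Agent.P133.G2
import Vale.Agent.P133.Push1
import Vale.Agent.P133.Intr

/-! P133: pushing the difference to definite signs. -/

namespace Vale.Agent.P133

universe u
variable {R : Type u} [CStarAlgebra R] [PartialOrder R] [StarOrderedRing R]

theorem push_le {X Y : R} (X0 : 0 ≤ X) (Y0 : 0 ≤ Y) {g : ℝ} (hg : 0 < g) (ρ : Rep R)
    (h : ρ (rp (g / 2) g (X * (X - Y) * X)) = 0) :
    ρ X * (ρ X - ρ Y) * ρ X ≤ (g / 2) • (1 : ρ.M) := by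
  have hx := IsSelfAdjoint.of_nonneg X0
  have hy := IsSelfAdjoint.of_nonneg Y0
  have hs : IsSelfAdjoint (X * (X - Y) * X) := by
    have := (hx.sub hy).conjugate' X
    rwa [hx.star_eq] at this
  rw [map_rp _ _ _ hs] at h
  have := le_of_rp_eq_zero (by linarith) (hs.map ρ.hom) h
  simpa only [map_mul, map_sub] using this

theorem push_near {X Y : R} (X0 : 0 ≤ X) (Y0 : 0 ≤ Y) (ρ : Rep R)
    (h : ρ (rp (1 / 5000 / 2) (1 / 5000) (X * (X - Y) * X)) = 0)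
    (h' : ρ (rp (1 / 5000 / 2) (1 / 5000) (Y * (Y - X) * Y)) = 0) : ‖ρ (X - Y)‖ < 1 / 16 := by
  have := g2 (map_nonneg' ρ.hom X0) (map_nonneg' ρ.hom Y0) (by norm_num)
    (push_le X0 Y0 (by norm_num) ρ h) (push_le Y0 X0 (by norm_num) ρ h')
  rw [← map_sub] at this
  exact lt_of_pow_lt_pow_left₀ 3 (by norm_num) (this.trans_lt (by norm_num))

theorem push_norm {X Y : R} (X0 : 0 ≤ X) (X1 : X ≤ 1) (Y0 : 0 ≤ Y) (Y1 : Y ≤ 1) :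
    ‖X - Y‖ ≤ 1 := by
  have hs := (IsSelfAdjoint.of_nonneg X0).sub (IsSelfAdjoint.of_nonneg Y0)
  have h1 := (CFC.le_one_iff (R := ℝ) (X - Y) hs).1 ((sub_le_self X Y0).trans X1)
  have h2 := (algebraMap_le_iff_le_spectrum (r := (-1 : ℝ)) hs).1 (by
    rw [map_neg, map_one]
    exact (neg_le_neg Y1).trans ((zero_sub Y).ge.trans (sub_le_sub_right X0 Y)))
  rw [← cfc_id ℝ (X - Y) hs]
  exact norm_cfc_le zero_le_one fun t ht => abs_le.2 ⟨h2 t ht, h1 t ht⟩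

/-- Hint: `g = 1 / 5000`, `P = rp (g / 2) g (X (X - Y) X)`, `Q = rp (g / 2) g (Y (Y - X) Y)`.
If `ρ P = 0 = ρ Q` then `le_of_rp_eq_zero` and `g2` give `‖ρ (X - Y)‖ ^ 3 ≤ g < (1 / 16) ^ 3`.
`θ` from `intr` with `p := P, b := Q, e := e, a := a`; `θ'` from `intr` with `p := Q, b := P, e := f,
a := b`. `D = X - Y + (g / 4) • θ - (g / 4) • θ'`; `push1` for `X, Y, θ, θ', D` and for
`Y, X, θ', θ, -D`. `‖X - Y‖ ≤ 1` since `-1 ≤ X - Y ≤ 1`. -/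
theorem push {X Y e f a b : R} (X0 : 0 ≤ X) (X1 : X ≤ 1) (Y0 : 0 ≤ Y) (Y1 : Y ≤ 1) (e0 : 0 ≤ e)
    (f0 : 0 ≤ f) (hX : X * e = e) (hY : Y * f = f) (a0 : 0 ≤ a) (b0 : 0 ≤ b) {α β : ℝ}
    (h0 : 0 ≤ α) (hαβ : α < β) (h1 : ∀ ρ : Rep R, ρ e = 0 → ‖ρ a‖ ≤ α)
    (h2 : ∀ ρ : Rep R, ρ f = 0 → ‖ρ b‖ ≤ α)
    (h3 : ∀ ρ : Rep R, ‖ρ (X - Y)‖ < 1 / 16 → ‖ρ a‖ ≤ α ∧ ‖ρ b‖ ≤ α) :
    ∃ U V D : R, Sup X U ∧ Sup Y V ∧ IsSelfAdjoint D ∧ ‖D‖ ≤ 2 ∧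
      (1 / 40000 : ℝ) • (star U * U) ≤ star U * D * U ∧
      (1 / 40000 : ℝ) • (star V * V) ≤ -(star V * D * V) ∧
      (∀ ρ : Rep R, ρ U = 0 → ‖ρ a‖ ≤ β) ∧ ∀ ρ : Rep R, ρ V = 0 → ‖ρ b‖ ≤ β := by
  obtain ⟨θ, t0, t1, t2, t3, t4⟩ := intr a0 (IsSelfAdjoint.of_nonneg e0) h0 hαβ
    (fun ρ u v => (h3 ρ (push_near X0 Y0 ρ u v)).1) h1
  obtain ⟨θ', s0, s1, s2, s3, s4⟩ := intr b0 (IsSelfAdjoint.of_nonneg f0) h0 hαβ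
    (fun ρ u v => (h3 ρ (push_near X0 Y0 ρ v u)).2) h2
  obtain ⟨D, hD⟩ : ∃ D, D = X - Y + (1 / 5000 / 4 : ℝ) • θ - (1 / 5000 / 4 : ℝ) • θ' := ⟨_, rfl⟩
  obtain ⟨U, u1, u2, u3⟩ := push1 X0 X1 Y0 Y1 t0 s0 s1 (t2.plateau hX) (by norm_num) hD s3
  obtain ⟨V, v1, v2, v3⟩ := push1 (D := -D) Y0 Y1 X0 X1 s0 t0 t1 (s2.plateau hY) (by norm_num)
    (by rw [hD]; abel) t3
  refine ⟨U, V, D, u1, v1, ?_, ?_, ?_, ?_, fun ρ h => t4 ρ (u3 ρ h).1 (u3 ρ h).2,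
    fun ρ h => s4 ρ (v3 ρ h).1 (v3 ρ h).2⟩
  · rw [hD]
    exact (((IsSelfAdjoint.of_nonneg X0).sub (IsSelfAdjoint.of_nonneg Y0)).add
      ((IsSelfAdjoint.all _).smul (IsSelfAdjoint.of_nonneg t0))).sub
      ((IsSelfAdjoint.all _).smul (IsSelfAdjoint.of_nonneg s0))
  · have a1 := push_norm X0 X1 Y0 Y1
    have a2 := push_norm t0 t1 s0 s1
    rw [hD, add_sub_assoc, ← smul_sub]
    refine (norm_add_le _ _).trans ?_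
    rw [norm_smul, Real.norm_of_nonneg (by norm_num)]
    linarith
  · rwa [show (1 / 5000 / 8 : ℝ) = 1 / 40000 by norm_num] at u2
  · rwa [show (1 / 5000 / 8 : ℝ) = 1 / 40000 by norm_num, mul_neg, neg_mul] at v2

end Vale.Agent.P133
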