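import Vale.Agent.P133.Tw

/-! P133: realising a pairing as a product. -/

namespace Vale.Agent.P133

universe u
variable {R : Type u} [CStarAlgebra R] [PartialOrder R] [StarOrderedRing R]

/-- Realising a pairing. Hint: `tw` for `a + b` with levels `0, α / 4` gives `c₁, c₂`
(`‖ρ a‖, ‖ρ b‖ ≤ ‖ρ (a + b)‖`); `cmpx` gives `Z₁, Z₂` with `Z₁* Z₁ = p p`, `Z₂* Z₂ = p' p'`,
`Z₁* Z₂ = 0`, `p = rp (α / 2) (3α / 4) a`, `p'` the same for `b`. `m' = rp (3α / 4) α a * m *
rp (3α / 4) α b`, `s = rt (1 - m'* m')`, `E = Z₁`, `F = Z₁ m' + Z₂ s`. `p m' = m'`; `p'` commutes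
with `m'* m'`, hence with `s`; `F* F = m'* m' + s p' p' s`. -/
theorem realise {A : TwoSidedIdeal R} (hA : PI A) {a b : R} (ha : a ∈ A) (a0 : 0 ≤ a) (hb : b ∈ A)
    (b0 : 0 ≤ b) {m : R} (hm : ‖m‖ ≤ 1) {α β : ℝ} (h0 : 0 < α) (h1 : α < β) :
    ∃ E F : R, star E * E * rp α β a = rp α β a ∧ star F * F * rp α β b = rp α β b ∧
      ∀ u v, Sup (rp α β a) u → Sup (rp α β b) v → star u * (star E * F) * v = star u * m * v := by
  have hab : 0 ≤ a + b := add_nonneg a0 b0
  obtain ⟨c₁, c₂, c10, c20, c12, s1, s2, r1, r2⟩ :=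
    tw hA (A.add_mem ha hb) hab (le_refl (0 : ℝ)) (by linarith : 0 < α / 4)
  have hmem : rp 0 (α / 4) (a + b) ∈ A :=
    rp_mem le_rfl (by linarith) (IsSelfAdjoint.of_nonneg hab) hA.closed (A.add_mem ha hb)
  obtain ⟨Z₁, z1, t1⟩ := cmpx hA a0 (s1.mem hA.closed hmem) c10 (α := α / 4) (β := α / 2)
    (γ := 3 * α / 4) (fun ρ h => le_trans (CStarAlgebra.norm_le_norm_of_nonneg_of_le
      (map_nonneg' ρ.hom a0) (map_le' ρ.hom (le_add_of_nonneg_right b0))) (r1 ρ h))
    (by linarith) (by linarith)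
  obtain ⟨Z₂, z2, t2⟩ := cmpx hA b0 (s2.mem hA.closed hmem) c20 (α := α / 4) (β := α / 2)
    (γ := 3 * α / 4) (fun ρ h => le_trans (CStarAlgebra.norm_le_norm_of_nonneg_of_le
      (map_nonneg' ρ.hom b0) (map_le' ρ.hom (le_add_of_nonneg_left a0))) (r2 ρ h))
    (by linarith) (by linarith)
  have z12 : star Z₁ * Z₂ = 0 :=
    t1.orth t2 (by rw [(IsSelfAdjoint.of_nonneg c10).star_eq, c12])
  have z21 : star Z₂ * Z₁ = 0 := by
    rw [← star_star Z₁, ← star_mul, z12, star_zero]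
  have l1 : α / 2 < 3 * α / 4 := by linarith
  have l2 : 3 * α / 4 < α := by linarith
  have pq := rp_mul_rp l1 le_rfl l2 a
  have pq' := rp_mul_rp l1 le_rfl l2 b
  have qp' := rp_mul_rp' l1 le_rfl l2 b
  have pw := rp_mul_rp l1 l2.le h1 a
  have pw' := rp_mul_rp l1 l2.le h1 b
  have qw := rp_mul_rp l2 le_rfl h1 a
  have qw' := rp_mul_rp l2 le_rfl h1 b
  have sq := star_rp (3 * α / 4) α a
  have sq' := star_rp (3 * α / 4) α b
  have nq := norm_rp_le_one (3 * α / 4) α a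
  have nq' := norm_rp_le_one (3 * α / 4) α b
  generalize rp (α / 2) (3 * α / 4) a = p at *
  generalize rp (α / 2) (3 * α / 4) b = p' at *
  generalize rp (3 * α / 4) α a = q at *
  generalize rp (3 * α / 4) α b = q' at *
  generalize rp α β a = w at *
  generalize rp α β b = w' at *
  obtain ⟨n, hn⟩ : ∃ n, n = q * m * q' := ⟨_, rfl⟩
  have nn : ‖n‖ ≤ 1 := by
    rw [hn]
    exact (norm_mul_le _ _).trans (mul_le_one₀ ((norm_mul_le _ _).trans
      (mul_le_one₀ nq (norm_nonneg _) hm)) (norm_nonneg _) nq')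
  have pn : p * n = n := by rw [hn, ← mul_assoc, ← mul_assoc, pq]
  have np : n * p' = n := by rw [hn, mul_assoc, qp']
  have pn' : p' * star n = star n := by
    rw [hn, star_mul, sq', ← mul_assoc, pq']
  have hc : Commute (1 - star n * n) p' := by
    rw [Commute, SemiconjBy, sub_mul, mul_sub, mul_assoc, np, ← mul_assoc, pn', one_mul, mul_one]
  have hs := (commute_rt hc).eq
  have ss := rt_mul_rt (sub_nonneg.2 (star_mul_self_le_one nn))
  have st := (rt_sa (1 - star n * n)).star_eq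
  generalize rt (1 - star n * n) = s at *
  have EF : star Z₁ * (Z₁ * n + Z₂ * s) = n := by
    rw [mul_add, ← mul_assoc, ← mul_assoc, z1, z12, zero_mul, add_zero, mul_assoc, pn, pn]
  have EF' : star Z₂ * (Z₁ * n + Z₂ * s) = s * (p' * p') := by
    rw [mul_add, ← mul_assoc, ← mul_assoc, z2, z21, zero_mul, zero_add, mul_assoc, ← hs,
      ← mul_assoc, ← hs, mul_assoc]
  refine ⟨Z₁, Z₁ * n + Z₂ * s, by rw [z1, mul_assoc, pw, pw], ?_, fun u v hu hv => ?_⟩
  · rw [star_add, star_mul, star_mul, st, add_mul, mul_assoc (star n), EF, mul_assoc s, EF',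
      ← mul_assoc s, ss, add_mul, mul_assoc (1 - star n * n), mul_assoc p', pw', pw', ← add_mul,
      add_sub_cancel, one_mul]
  · have e1 : star u * q = star u := by rw [← sq, ← star_mul, hu.plateau qw]
    rw [EF, hn, ← mul_assoc, ← mul_assoc, e1, mul_assoc _ q', hv.plateau qw']

end Vale.Agent.P133
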