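import Vale.Agent.P133.Ne
import Vale.Agent.P133.Push
import Vale.Agent.P133.Angle
import Vale.Agent.P133.Real

/-! P133: the uniform angle lemma. -/

namespace Vale.Agent.P133

universe u
variable {R : Type u} [CStarAlgebra R] [PartialOrder R] [StarOrderedRing R]

/-- Hint: `ne`, then `push` with `Y = rp (2d) (3d) y`, `f = rp (3d) (4d) y`, levels `13d, 14d`; then
`angle` for `U r`, `V s` (conjugate the form inequalities by `r`, `s`). -/
theorem ang0 {A : TwoSidedIdeal R} (hA : PI A) {x y : R} (hx : x ∈ A) (x0 : 0 ≤ x) (y0 : 0 ≤ y)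
    {d : ℝ} (hd : 0 < d) :
    ∃ U V : R, Sup x U ∧ Sup y V ∧
      (∀ r s, ‖U * r‖ ≤ 1 → ‖V * s‖ ≤ 1 → ‖star (U * r) * (V * s)‖ ≤ c0) ∧
      (∀ ρ : Rep R, ρ U = 0 → ‖ρ x‖ ≤ 14 * d) ∧ ∀ ρ : Rep R, ρ V = 0 → ‖ρ y‖ ≤ 14 * d := by
  have xs := IsSelfAdjoint.of_nonneg x0
  have ys := IsSelfAdjoint.of_nonneg y0
  obtain ⟨X, e, X0, X1, sX, e0, hX, h1, h3⟩ := ne hA hx x0 y0 hd
  obtain ⟨U, V, D, sU, sV, hD, nD, k1, k2, r1, r2⟩ := push X0 X1 (rp_nonneg (2 * d) (3 * d) y)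
    (rp_le_one _ _ _) e0 (rp_nonneg (3 * d) (4 * d) y) hX
    (rp_mul_rp (by linarith) le_rfl (by linarith) y) x0 y0 (α := 13 * d) (β := 14 * d)
    (by linarith) (by linarith) h1
    (fun ρ h => by
      rw [map_rp ρ.hom _ _ ys] at h
      exact (norm_le_of_rp_eq_zero (by linarith) (by linarith) (map_nonneg' ρ.hom y0) h).trans
        (by linarith))
    (fun ρ h => ⟨(h3 ρ h).1.trans (by linarith), (h3 ρ h).2.trans (by linarith)⟩)
  refine ⟨U, V, ((sup_rp_self (by linarith) (by linarith) xs).trans sX).trans sU,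
    (sup_rp_self (by linarith) (by linarith) ys).trans sV, fun r s hr hs => ?_, r1, r2⟩
  refine angle hD nD (by norm_num) (by norm_num) hr hs ?_ ?_
  · have k3 := star_left_conjugate_le_conjugate k1 r
    simpa only [star_mul, mul_smul_comm, smul_mul_assoc, mul_assoc] using k3
  · have k3 := star_left_conjugate_le_conjugate k2 s
    simpa only [star_mul, mul_smul_comm, smul_mul_assoc, mul_assoc, mul_neg, neg_mul] using k3

theorem ang_side {A : TwoSidedIdeal R} (hA : PI A) {a E U : R} (ha : a ∈ A) (a0 : 0 ≤ a)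
    {α β₁ β γ : ℝ} (h0 : 0 < α) (h1 : α < β₁) (h1' : β₁ < β) (h2 : β < γ)
    (hE : star E * E * rp α β₁ a = rp α β₁ a)
    (hU : Sup (E * rp α β₁ a * star (E * rp α β₁ a)) U)
    (hρ : ∀ ρ : Rep R, ρ U = 0 → ‖ρ (E * rp α β₁ a * star (E * rp α β₁ a))‖ ≤ 14 * (1 / 20)) :
    ∃ r u : R, Sup (rp α β₁ a) u ∧ star u * u = rp β γ a * rp β γ a ∧ U * r = E * u ∧
      ‖U * r‖ ≤ 1 := by
  have sa := IsSelfAdjoint.of_nonneg a0
  have hU' : Sup (E * rp α β₁ a) U := (Sup.mul_self _ _).trans hU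
  have e1 : E * star E * U = U :=
    hU'.plateau (by rw [mul_assoc, ← mul_assoc (star E), hE])
  have s0 : Sup (rp α β₁ a) (star E * U) := by
    have h3 := hU'.mul_left (star E)
    rwa [← mul_assoc, hE] at h3
  have e2 : star (E * rp α β₁ a) * (E * rp α β₁ a) = star (rp α β₁ a) * rp α β₁ a := by
    rw [star_mul, mul_assoc, ← mul_assoc (star E), hE]
  obtain ⟨δ, hδ, h4⟩ := cpt1 (l := star E * U) (a := a) (α := β₁) (β := (β₁ + β) / 2)
    (fun ρ h => by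
      have h5 : ρ.hom U = 0 := by rw [← e1, mul_assoc, map_mul, h, mul_zero]
      have h6 := hρ ρ h5
      rw [map_mul, map_star, CStarRing.norm_self_mul_star] at h6
      have h7 : ‖ρ.hom (E * rp α β₁ a)‖ = ‖ρ.hom (rp α β₁ a)‖ :=
        norm_eq_of_star_mul_self (by rw [← map_star, ← map_star, ← map_mul, ← map_mul, e2])
      rw [h7, map_rp ρ.hom _ _ sa] at h6
      refine (norm_lt_of_norm_rp_lt h0.le h1 (map_nonneg' ρ.hom a0) ?_).le
      nlinarith [norm_nonneg (rp α β₁ (ρ.hom a))]) (by linarith)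
  obtain ⟨r, -, hr⟩ := norma hA a0 (s0.mem hA.closed (rp_mem h0.le h1 sa hA.closed ha)) hδ
    (fun ρ h => h4 ρ h.le) (by linarith : (β₁ + β) / 2 < β) h2
  refine ⟨r, star E * U * r, s0.mul_right r, hr, by rw [← mul_assoc, ← mul_assoc, e1], ?_⟩
  refine norm_le_one_of_star_mul_self (f := rp β γ a) ?_ (norm_rp_le_one _ _ _)
  rw [← hr, star_mul (star E * U), star_mul (star E), star_star, star_mul U]
  have e3 : E * (star E * (U * r)) = U * r := by rw [← mul_assoc, ← mul_assoc, e1]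
  simp only [mul_assoc, e3]

/-- Hint: `β₁ = α + (β - α) / 3`, `β₂ = α + 2 (β - α) / 3`, `a' = rp α β₁ a`, `b' = rp α β₁ b`, `E, F`
from `realise`, `e = E a'`, `f = F b'`, `e* e = a' a'`. `ang0` for `x = e e*`, `y = f f*`,
`d = 1 / 20` gives `U, V` with `Sup e U`; `E E* e = e` so `E E* U = U`; `u₀ = E* U` has
`Sup (E* e = a') u₀`, `E u₀ = U`, `‖u₀ r‖ = ‖U r‖`. `ρ u₀ = 0 → ρ U = 0 → ‖ρ a'‖ ^ 2 < 1 →
‖ρ a‖ ≤ β₁`; `cpt1` to level `β₂`, `norma` with levels `β₂, β, γ` gives `r`; `u = u₀ r`. Same for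
`v = v₀ s`; ` (U r)* (V s) = u* (E* F) v = u* m v`. -/
theorem ang {A : TwoSidedIdeal R} (hA : PI A) {a b : R} (ha : a ∈ A) (a0 : 0 ≤ a) (hb : b ∈ A)
    (b0 : 0 ≤ b) {m : R} (hm : ‖m‖ ≤ 1) {α β γ : ℝ} (h0 : 0 < α) (h1 : α < β) (h2 : β < γ) :
    ∃ u v : R, Sup (rp α β a) u ∧ Sup (rp α β b) v ∧ star u * u = rp β γ a * rp β γ a ∧
      star v * v = rp β γ b * rp β γ b ∧ ‖star u * m * v‖ ≤ c0 := by
  have sa := IsSelfAdjoint.of_nonneg a0
  have sb := IsSelfAdjoint.of_nonneg b0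
  have l1 : α < (α + β) / 2 := by linarith
  have l2 : (α + β) / 2 < β := by linarith
  obtain ⟨E, F, hE, hF, hEF⟩ := realise hA ha a0 hb b0 hm h0 l1
  obtain ⟨U, V, sU, sV, hc, r1, r2⟩ := ang0 hA
    (x := E * rp α ((α + β) / 2) a * star (E * rp α ((α + β) / 2) a))
    (y := F * rp α ((α + β) / 2) b * star (F * rp α ((α + β) / 2) b))
    (A.mul_mem_right _ _ (A.mul_mem_left _ _ (rp_mem h0.le l1 sa hA.closed ha)))
    (mul_star_self_nonneg _) (mul_star_self_nonneg _) (d := 1 / 20) (by norm_num)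
  obtain ⟨r, u, su, hu, eu, nu⟩ := ang_side hA ha a0 h0 l1 l2 h2 hE sU r1
  obtain ⟨s, v, sv, hv, ev, nv⟩ := ang_side hA hb b0 h0 l1 l2 h2 hF sV r2
  refine ⟨u, v, (sup_rp_rp h1 le_rfl l1 sa).trans su, (sup_rp_rp h1 le_rfl l1 sb).trans sv, hu, hv,
    ?_⟩
  have h3 := hc r s nu nv
  rw [eu, ev, star_mul] at h3
  rw [← hEF u v su sv]
  simpa only [mul_assoc] using h3

end Vale.Agent.P133
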