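import Vale.Agent.P133.Defs

/-! P133: star homomorphisms and the calculus of closed right ideals `Sup`. -/

namespace Vale.Agent.P133

section maps
variable {R M : Type*} [CStarAlgebra R] [CStarAlgebra M]

theorem Base_cont (φ : R →⋆ₐ[ℂ] M) : Continuous φ :=
  AddMonoidHomClass.continuous_of_bound φ 1 fun a => by
    simpa using NonUnitalStarAlgHom.norm_apply_le φ a

theorem map_cfcR (φ : R →⋆ₐ[ℂ] M) {f : ℝ → ℝ} (hf : Continuous f) {a : R}
    (ha : IsSelfAdjoint a) : φ (cfc f a) = cfc f (φ a) :=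
  StarAlgHomClass.map_cfc (S := ℂ) φ f a hf.continuousOn (Base_cont φ) ha (ha.map φ)

theorem map_rsmul (φ : R →⋆ₐ[ℂ] M) (r : ℝ) (a : R) : φ (r • a) = r • φ a := by
  rw [← Complex.coe_smul, ← Complex.coe_smul, map_smul]

theorem norm_map_le (φ : R →⋆ₐ[ℂ] M) (a : R) : ‖φ a‖ ≤ ‖a‖ :=
  NonUnitalStarAlgHom.norm_apply_le φ a

theorem continuous_hom (φ : R →⋆ₐ[ℂ] M) : Continuous φ :=
  Base_cont φ

variable [PartialOrder R] [StarOrderedRing R] [PartialOrder M] [StarOrderedRing M]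

theorem map_le' (φ : R →⋆ₐ[ℂ] M) {a b : R} (h : a ≤ b) : φ a ≤ φ b :=
  OrderHomClass.mono φ h

theorem map_nonneg' (φ : R →⋆ₐ[ℂ] M) {a : R} (h : 0 ≤ a) : 0 ≤ φ a :=
  (map_zero φ).symm.trans_le (map_le' φ h)

end maps

section sup
variable {R : Type*} [CStarAlgebra R] {a b c z w : R}

theorem Sup.mul_self (b r : R) : Sup b (b * r) :=
  subset_closure ⟨r, rfl⟩

theorem Sup.refl (b : R) : Sup b b :=
  subset_closure ⟨1, mul_one b⟩

theorem Sup.zero (b : R) : Sup b 0 :=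
  subset_closure ⟨0, mul_zero b⟩

theorem Sup.of_approx (h : ∀ ε : ℝ, 0 < ε → ∃ w, Sup b w ∧ ‖z - w‖ < ε) : Sup b z :=
  closure_closure.subset (Metric.mem_closure_iff.2 fun ε hε =>
    (h ε hε).imp fun _ hw => ⟨hw.1, (dist_eq_norm _ _).trans_lt hw.2⟩)

theorem Sup.add (h1 : Sup b z) (h2 : Sup b w) : Sup b (z + w) :=
  map_mem_closure₂ continuous_add h1 h2 (by
    rintro _ ⟨r, rfl⟩ _ ⟨s, rfl⟩
    exact ⟨r + s, mul_add _ _ _⟩)

theorem Sup.mul_right (h : Sup b z) (r : R) : Sup b (z * r) :=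
  map_mem_closure (f := (· * r)) (by fun_prop) h (by
    rintro _ ⟨s, rfl⟩
    exact ⟨s * r, (mul_assoc _ _ _).symm⟩)

theorem Sup.sub (h1 : Sup b z) (h2 : Sup b w) : Sup b (z - w) := by
  simpa [sub_eq_add_neg] using h1.add (h2.mul_right (-1))

theorem Sup.smul (h : Sup b z) (r : ℝ) : Sup b (r • z) := by
  simpa using h.mul_right (r • 1)

theorem Sup.mul_left (w : R) (h : Sup b z) : Sup (w * b) (w * z) :=
  map_mem_closure (f := (w * ·)) (by fun_prop) h (by
    rintro _ ⟨s, rfl⟩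
    exact ⟨s, mul_assoc _ _ _⟩)

theorem Sup.trans (h1 : Sup a b) (h2 : Sup b c) : Sup a c :=
  closure_minimal (by rintro _ ⟨s, rfl⟩; exact h1.mul_right s) isClosed_closure h2

theorem Sup.comm_left {s : R} (hc : Commute s b) (h : Sup b z) : Sup b (s * z) :=
  (hc.eq ▸ Sup.mul_self b s).trans (h.mul_left s)

theorem Sup.ann (h : Sup b z) {r : R} (hr : r * b = 0) : r * z = 0 :=
  closure_minimal (t := {z | r * z = 0}) (by
    rintro _ ⟨s, rfl⟩
    exact (mul_assoc _ _ _).symm.trans (by rw [hr, zero_mul]))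
    (isClosed_eq (by fun_prop) continuous_const) h

theorem Sup.plateau (h : Sup b z) {p : R} (hp : p * b = b) : p * z = z := by
  have := h.ann (r := p - 1) (by rw [sub_mul, hp, one_mul, sub_self])
  rwa [sub_mul, one_mul, sub_eq_zero] at this

theorem Sup.orth {c₁ c₂ z₁ z₂ : R} (h1 : Sup c₁ z₁) (h2 : Sup c₂ z₂) (h : star c₁ * c₂ = 0) :
    star z₁ * z₂ = 0 :=
  h2.ann (by
    simpa using congrArg star (h1.ann (r := star c₂) (by simpa using congrArg star h)))

theorem Sup.mem (h : Sup b z) {J : TwoSidedIdeal R} (hJ : IsClosed (J : Set R)) (hb : b ∈ J) :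
    z ∈ J :=
  closure_minimal (by rintro _ ⟨s, rfl⟩; exact J.mul_mem_right _ _ hb) hJ h

theorem Sup.map {M : Type*} [CStarAlgebra M] (φ : R →⋆ₐ[ℂ] M) (h : Sup b z) :
    Sup (φ b) (φ z) :=
  map_mem_closure (continuous_hom φ) h (by
    rintro _ ⟨s, rfl⟩
    exact ⟨φ s, (map_mul φ _ _).symm⟩)

theorem Sup.map_zero {M : Type*} [CStarAlgebra M] (φ : R →⋆ₐ[ℂ] M) (h : Sup b z)
    (hb : φ b = 0) : φ z = 0 := by
  simpa using (h.map φ).ann (r := 1) (by rw [hb, mul_zero])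

/-- Hint: `k = g f / (f ^ 2 + δ)`, `g - f k = g δ / (f ^ 2 + δ)` is uniformly small on the compact
spectrum (`f ^ 2` has a positive minimum on the compact set where `η ≤ |g|`). -/
theorem Sup.cfc_cfc (ha : IsSelfAdjoint a) {f g : ℝ → ℝ} (hf : Continuous f) (hg : Continuous g)
    (h : ∀ t ∈ spectrum ℝ a, f t = 0 → g t = 0) : Sup (cfc f a) (cfc g a) := by
  refine Sup.of_approx fun ε hε => ?_
  obtain ⟨m, hm, H⟩ := (spectrum.isCompact (𝕜 := ℝ) a).exists_forall_le'
    (f := fun t => (f t ^ 2 + max (ε / 2 - |g t|) 0) / (1 + |g t|))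
    (Continuous.div (by fun_prop) (by fun_prop) fun t => by positivity).continuousOn (a := 0)
    fun t ht => div_pos (by
      by_cases h0 : f t = 0
      · simpa [h0, h t ht h0] using hε
      · positivity) (by positivity)
  have hk : Continuous fun t => g t * f t / (f t ^ 2 + ε / 2 * m) :=
    Continuous.div (by fun_prop) (by fun_prop) fun t => by positivity
  refine ⟨_, Sup.mul_self _ (cfc (fun t => g t * f t / (f t ^ 2 + ε / 2 * m)) a), ?_⟩
  rw [← cfc_mul _ _ a hf.continuousOn hk.continuousOn,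
    ← cfc_sub _ _ a hg.continuousOn (hf.fun_mul hk).continuousOn]
  refine (norm_cfc_le (half_pos hε).le fun t ht => ?_).trans_lt (half_lt_self hε)
  have e : g t - f t * (g t * f t / (f t ^ 2 + ε / 2 * m)) =
      g t * (ε / 2 * m / (f t ^ 2 + ε / 2 * m)) := by
    field_simp
    ring
  have h1 := H t ht
  rw [le_div_iff₀ (by positivity)] at h1
  rw [e, Real.norm_eq_abs, abs_mul, abs_of_pos (a := _ / _) (by positivity), ← mul_div_assoc,
    div_le_iff₀ (by positivity)]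
  rcases le_total (ε / 2 - |g t|) 0 with h2 | h2
  · rw [max_eq_right h2] at h1
    nlinarith [mul_pos hε hm, mul_pos hε (mul_pos hε hm)]
  · nlinarith [mul_pos hε hm, mul_nonneg hε.le (sq_nonneg (f t))]

theorem Sup.cfc_self (ha : IsSelfAdjoint a) {g : ℝ → ℝ} (hg : Continuous g) (h : g 0 = 0) :
    Sup a (cfc g a) := by
  simpa [cfc_id' ℝ a] using Sup.cfc_cfc ha continuous_id' hg fun t _ ht => ht ▸ h

/-- Hint: `x = lim (x x*) k(x x*) x` with `k t = (|t| + δ)⁻¹`; the error `e = (1 - a k(a)) x`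
has `e e* = cfc (fun t => (1 - t k t) ^ 2 t) a`, of norm at most `δ`. -/
theorem Sup.mul_star (x : R) : Sup (x * star x) x := by
  refine Sup.of_approx fun ε hε => ?_
  have ha : IsSelfAdjoint (x * star x) := .mul_star_self x
  have hk : Continuous fun t : ℝ => (|t| + ε ^ 2 / 2)⁻¹ :=
    Continuous.inv₀ (by fun_prop) fun t => by positivity
  have hu : Continuous fun t : ℝ => 1 - t * (|t| + ε ^ 2 / 2)⁻¹ := by fun_prop
  refine ⟨_, Sup.mul_self _ (cfc (fun t : ℝ => (|t| + ε ^ 2 / 2)⁻¹) (x * star x) * x), ?_⟩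
  have e : x - x * star x * (cfc (fun t : ℝ => (|t| + ε ^ 2 / 2)⁻¹) (x * star x) * x) =
      cfc (fun t : ℝ => 1 - t * (|t| + ε ^ 2 / 2)⁻¹) (x * star x) * x := by
    rw [cfc_sub _ _ _ (by fun_prop) (continuous_id'.fun_mul hk).continuousOn,
      cfc_mul _ _ _ (by fun_prop) hk.continuousOn,
      cfc_id' ℝ _, cfc_const_one ℝ _, sub_mul, one_mul, mul_assoc (x * star x)]
  rw [e, ← sq_lt_sq₀ (norm_nonneg _) hε.le, sq, ← CStarRing.norm_self_mul_star, star_mul,
    (cfc_predicate _ _ : IsSelfAdjoint _).star_eq, mul_assoc, ← mul_assoc x]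
  nth_rw 2 [← cfc_id' ℝ (x * star x)]
  rw [← cfc_mul _ _ _ (by fun_prop) hu.continuousOn,
    ← cfc_mul _ _ _ hu.continuousOn (continuous_id'.fun_mul hu).continuousOn]
  refine (norm_cfc_le (by positivity) fun t ht => ?_).trans_lt (half_lt_self (by positivity))
  have h0 : 0 ≤ t := spectrum_star_mul_self_nonneg (b := star x) t (by rwa [star_star])
  have e1 : (1 - t * (t + ε ^ 2 / 2)⁻¹) * (t * (1 - t * (t + ε ^ 2 / 2)⁻¹)) =
      ε ^ 2 / 2 * (ε ^ 2 / 2 * t / (t + ε ^ 2 / 2) ^ 2) := by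
    field_simp
    ring
  rw [abs_of_nonneg h0, e1, Real.norm_of_nonneg (by positivity)]
  exact mul_le_of_le_one_right (by positivity)
    (div_le_one_of_le₀ (by nlinarith [sq_nonneg (ε ^ 2), mul_nonneg h0 (sq_nonneg ε)]) (by positivity))

theorem star_mem_of_closed {J : TwoSidedIdeal R} (hJ : IsClosed (J : Set R)) {x : R}
    (hx : x ∈ J) : star x ∈ J :=
  (Sup.mul_star (star x)).mem hJ (by rw [star_star]; exact J.mul_mem_left _ _ hx)

end sup

end Vale.Agent.P133
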