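import Vale.Agent.P133.Nrm

/-! P133: factorisation lemma. -/

namespace Vale.Agent.P133

variable {R : Type*} [CStarAlgebra R] [PartialOrder R] [StarOrderedRing R]

theorem Fac_conj {c : R} (hc : 0 ≤ c) {κ : ℝ → ℝ} (hκ : Continuous κ) :
    cfc κ c * c * cfc κ c = cfc (fun t => κ t ^ 2 * t) c := by
  have h := hc.isSelfAdjoint
  have h1 : cfc (fun t => κ t * t * κ t) c = cfc κ c * cfc (fun t : ℝ => t) c * cfc κ c := by
    rw [cfc_mul _ κ c, cfc_mul κ _ c]
  rw [cfc_id' ℝ c] at h1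
  rw [← h1]
  exact cfc_congr fun t _ => by ring

omit [PartialOrder R] [StarOrderedRing R] in
theorem Fac_sq (c : R) {κ : ℝ → ℝ} (hκ : Continuous κ) (f : R) :
    star (cfc κ c * f) * (cfc κ c * f) = star f * cfc (fun t => κ t * κ t) c * f := by
  rw [star_mul, (cfc_predicate κ c).star_eq, cfc_mul κ κ c]
  simp only [mul_assoc]

theorem Fac_sq' (y : R) {κ : ℝ → ℝ} (hκ : Continuous κ) (f : R) :
    star (y * (cfc κ (star y * y) * f)) * (y * (cfc κ (star y * y) * f)) =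
      star f * cfc (fun t => κ t ^ 2 * t) (star y * y) * f := by
  rw [← Fac_conj (star_mul_self_nonneg y) hκ, star_mul, star_mul,
    (cfc_predicate κ (star y * y)).star_eq]
  simp only [mul_assoc]

theorem Fac_key {c f : R} {C b : ℝ} (hc : 0 ≤ c) (hC : 0 ≤ C) (hb : 0 ≤ b)
    (h : f * star f ≤ C • c) {κ : ℝ → ℝ} (hκ : Continuous κ)
    (hk : ∀ t, 0 ≤ t → κ t ^ 2 * t ≤ b) :
    ‖star f * cfc (fun t => κ t * κ t) c * f‖ ≤ C * b := by
  have h1 := star_left_conjugate_le_conjugate h (cfc κ c)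
  have h2 := star_left_conjugate_nonneg (mul_star_self_nonneg f) (cfc κ c)
  have h3 := CStarAlgebra.norm_le_norm_of_nonneg_of_le h2 h1
  rw [(cfc_predicate κ c).star_eq, mul_smul_comm, smul_mul_assoc, Fac_conj hc hκ, norm_smul,
    Real.norm_of_nonneg hC] at h3
  rw [← Fac_sq c hκ, CStarRing.norm_star_mul_self, ← CStarRing.norm_self_mul_star, star_mul,
    (cfc_predicate κ c).star_eq, ← mul_assoc, mul_assoc _ f]
  refine h3.trans (mul_le_mul_of_nonneg_left (norm_cfc_le hb fun t ht => ?_) hC)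
  have h4 := spectrum_nonneg_of_nonneg hc ht
  rw [Real.norm_of_nonneg (by positivity)]
  exact hk t h4

/-- the approximate inverse of the square root -/
noncomputable def Fac_g (δ t : ℝ) : ℝ := (√(max t 0 + δ))⁻¹

theorem Fac_cont {δ : ℝ} (hδ : 0 < δ) : Continuous (Fac_g δ) :=
  Continuous.inv₀ (by fun_prop) fun t => (Real.sqrt_pos.2 (by positivity)).ne'

theorem Fac_g_sq {δ t : ℝ} (hδ : 0 < δ) (ht : 0 ≤ t) : Fac_g δ t ^ 2 = (t + δ)⁻¹ := by
  rw [Fac_g, inv_pow, max_eq_left ht, Real.sq_sqrt (by positivity)]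

theorem Fac_g_bd {δ t : ℝ} (hδ : 0 < δ) (ht : 0 ≤ t) :
    Fac_g δ t * t ≤ √t ∧ √t - √δ ≤ Fac_g δ t * t := by
  have h0 : 0 < √(t + δ) := Real.sqrt_pos.2 (by positivity)
  have h1 : √t ≤ √(t + δ) := Real.sqrt_le_sqrt (by linarith)
  have h2 := Real.mul_self_sqrt ht
  have h3 := Real.mul_self_sqrt hδ.le
  have h4 := Real.sqrt_nonneg t
  have h5 := Real.sqrt_nonneg δ
  have h6 : √(t + δ) ≤ √t + √δ := Real.sqrt_le_iff.2 ⟨by positivity, by nlinarith⟩
  rw [Fac_g, max_eq_left ht, inv_mul_le_iff₀ h0, le_inv_mul_iff₀ h0]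
  exact ⟨by nlinarith, by nlinarith⟩

/-- Hint: `c = star y * y`, `g δ = cfc (fun t => (√(max t 0 + δ))⁻¹) c`, `z δ = y * g δ * f`.
For `k = cfc κ c` one has `‖star f * (k * c * k) * f‖ = ‖(y k f)‖ ^ 2` and
`‖p * f‖ ^ 2 = ‖p * (f * star f) * p‖ ≤ C * ‖p * c * p‖` for selfadjoint `p`. With
`p = rt c * (g δ - g δ')` and `|t / √(t + δ) - √t| ≤ √δ` the sequence `δ = 1 / (n + 1)` is Cauchy;
`star f * f - star (z δ) * z δ = star f * (δ (c + δ)⁻¹) * f` has norm at most `C δ`. -/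
theorem fac {y f : R} {C : ℝ} (hC : 0 ≤ C) (h : f * star f ≤ C • (star y * y)) :
    ∃ z, star z * z = star f * f ∧ Sup y z := by
  have hc := star_mul_self_nonneg y
  have hs := hc.isSelfAdjoint
  let δ : ℕ → ℝ := fun n => 1 / ((n : ℝ) + 1)
  have hδ : ∀ n, 0 < δ n := fun n => Nat.one_div_pos_of_nat
  have hl : Filter.Tendsto (fun n => C * δ n) Filter.atTop (nhds 0) := by
    simpa only [mul_zero] using tendsto_one_div_add_atTop_nhds_zero_nat.const_mul C
  have h1 : CauchySeq fun n => y * (cfc (Fac_g (δ n)) (star y * y) * f) := by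
    refine cauchySeq_of_le_tendsto_0 (fun n => √(C * δ n)) (fun n m N hn hm => ?_)
      (by simpa using hl.sqrt)
    have k1 := (Fac_cont (hδ n)).fun_sub (Fac_cont (hδ m))
    have k2 := Fac_key hc hC (hδ N).le h (Real.continuous_sqrt.fun_mul k1) fun t ht => by
      obtain ⟨a1, a2⟩ := Fac_g_bd (hδ n) ht
      obtain ⟨a3, a4⟩ := Fac_g_bd (hδ m) ht
      have a5 : √(δ n) ≤ √(δ N) := Real.sqrt_le_sqrt (Nat.one_div_le_one_div hn)
      have a6 : √(δ m) ≤ √(δ N) := Real.sqrt_le_sqrt (Nat.one_div_le_one_div hm)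
      have a7 := sq_le_sq' (a := Fac_g (δ n) t * t - Fac_g (δ m) t * t) (b := √(δ N))
        (by linarith) (by linarith)
      rw [Real.sq_sqrt (hδ N).le] at a7
      refine le_of_eq_of_le ?_ a7
      rw [mul_pow, Real.sq_sqrt ht]
      ring
    rw [dist_eq_norm, ← mul_sub, ← sub_mul, ← cfc_sub _ _ _ (Fac_cont (hδ n)).continuousOn
      (Fac_cont (hδ m)).continuousOn]
    refine Real.le_sqrt_of_sq_le (le_of_eq_of_le ?_ k2)
    rw [sq, ← CStarRing.norm_star_mul_self, Fac_sq' y k1]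
    refine congrArg (fun x => ‖star f * x * f‖) (cfc_congr fun t ht => ?_)
    have := Real.mul_self_sqrt (spectrum_nonneg_of_nonneg hc ht)
    linear_combination (-(Fac_g (δ n) t - Fac_g (δ m) t) ^ 2) * this
  obtain ⟨z, hz⟩ := cauchySeq_tendsto_of_complete h1
  refine ⟨z, tendsto_nhds_unique (hz.star.mul hz) ?_,
    mem_closure_of_tendsto hz (Filter.Eventually.of_forall fun n => ⟨_, rfl⟩)⟩
  refine tendsto_iff_norm_sub_tendsto_zero.2 (squeeze_zero (fun _ => norm_nonneg _)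
    (fun n => ?_) hl)
  have k1 := Fac_cont (hδ n)
  have k2 := Fac_key hc hC (hδ n).le h (k1.const_mul √(δ n)) fun t ht => by
    have := hδ n
    rw [mul_pow, Real.sq_sqrt this.le, Fac_g_sq this ht, mul_assoc]
    exact mul_le_of_le_one_right this.le (inv_mul_le_one_of_le₀ (by linarith) (by positivity))
  refine le_of_eq_of_le ?_ k2
  rw [Fac_sq' y k1, norm_sub_rev]
  nth_rw 1 [← mul_one (star f)]
  rw [← sub_mul, ← mul_sub, ← cfc_const_one ℝ (star y * y), ← cfc_sub _ _ _]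
  refine congrArg (fun x => ‖star f * x * f‖) (cfc_congr fun t ht => ?_)
  have a1 := Real.mul_self_sqrt (hδ n).le
  have a2 := spectrum_nonneg_of_nonneg hc ht
  have a3 := Fac_g_sq (hδ n) a2
  have a4 : (t + δ n)⁻¹ * (t + δ n) = 1 := inv_mul_cancel₀ (add_pos_of_nonneg_of_pos a2 (hδ n)).ne'
  linear_combination (-Fac_g (δ n) t ^ 2) * a1 - (t + δ n) * a3 - a4

end Vale.Agent.P133
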