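import Vale.Agent.P133.Cz
import Vale.Agent.P133.Fac

/-! P133: exact comparison and normalisation. -/

namespace Vale.Agent.P133

universe u
variable {R : Type u} [CStarAlgebra R] [PartialOrder R] [StarOrderedRing R]

/-- Hint: `g = rp α β a`, `f = rp β γ a`, `g f = f`. `cz` gives `‖star r * b * r - g * g‖ < 1 / 2`;
`y = rt b * r * f` has `star y * y ≥ f (g g - 1 / 2) f = f f / 2`; apply `fac` with `C = 2`. -/
theorem cmpx {A : TwoSidedIdeal R} (hA : PI A) {a b : R} (a0 : 0 ≤ a) (hb : b ∈ A) (b0 : 0 ≤ b)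
    {α β γ : ℝ} (h : ∀ ρ : Rep R, ρ b = 0 → ‖ρ a‖ ≤ α) (h1 : α < β) (h2 : β < γ) :
    ∃ z, star z * z = rp β γ a * rp β γ a ∧ Sup b z := by
  have sa : IsSelfAdjoint a := IsSelfAdjoint.of_nonneg a0
  have sb : IsSelfAdjoint b := IsSelfAdjoint.of_nonneg b0
  obtain ⟨r, hr⟩ := cz hA hb b0 (g := rp α β a) (fun ρ hρ => by
    rw [map_rp ρ.hom α β sa]
    exact rp_eq_zero h1 (h ρ hρ)) (show (0 : ℝ) < 1 / 2 by norm_num)
  set g := rp α β a with hg
  set f := rp β γ a with hf
  have gf : g * f = f := rp_mul_rp h1 le_rfl h2 a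
  have fg : f * g = f := rp_mul_rp' h1 le_rfl h2 a
  have sf : star f = f := star_rp β γ a
  have sg : star g = g := star_rp α β a
  have se : IsSelfAdjoint (star r * b * r - star g * g) :=
    (sb.conjugate' r).sub (IsSelfAdjoint.star_mul_self g)
  have h3 := star_left_conjugate_le_conjugate (neg_norm_smul_one_le se hr.le) f
  have sr : star (rt b) = rt b := rt_sa b
  have e1 : star (rt b * r * f) * (rt b * r * f) =
      star f * (star r * b * r - star g * g) * f + f * f := by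
    have e : star (rt b * r * f) * (rt b * r * f) = star f * (star r * (rt b * rt b) * r) * f := by
      simp only [star_mul, sr, mul_assoc]
    have e' : star f * (star g * g) * f = f * f := by
      rw [sf, sg, ← mul_assoc, fg, fg]
    rw [e, rt_mul_rt b0, mul_sub, sub_mul, e', sub_add_cancel]
  have e2 : star f * -((1 / 2 : ℝ) • (1 : R)) * f = -((1 / 2 : ℝ) • (f * f)) := by
    rw [sf, mul_neg, neg_mul, mul_smul_comm, mul_one, smul_mul_assoc]
  rw [e2] at h3
  have h4 : f * star f ≤ (2 : ℝ) • (star (rt b * r * f) * (rt b * r * f)) := by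
    have h5 : (1 / 2 : ℝ) • (f * f) ≤ star (rt b * r * f) * (rt b * r * f) := by
      rw [e1]
      have e3 : (1 / 2 : ℝ) • (f * f) = -((1 / 2 : ℝ) • (f * f)) + f * f := by
        module
      rw [e3]
      exact add_le_add_left h3 _
    have h6 := rsmul_le_rsmul h5 (show (0 : ℝ) ≤ 2 by norm_num)
    rw [smul_smul, show (2 : ℝ) * (1 / 2) = 1 by norm_num, one_smul] at h6
    rwa [sf]
  obtain ⟨z, hz, hs⟩ := fac (show (0 : ℝ) ≤ 2 by norm_num) h4
  exact ⟨z, by rw [hz, sf], (((sup_rt sb).mul_right r).mul_right f).trans hs⟩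

/-- Hint: `k = star u * u`, `b = rp (c ^ 2 / 4) (c ^ 2 / 2) k`, `z` from `cmpx`,
`r = cfc (fun t => (√(max t (c ^ 2 / 4)))⁻¹) k * z`; with `g` that function,
` (g(k) k g(k) - 1) * b = 0`, so `g(k) k g(k) z = z` (`Sup.plateau`). -/
theorem norma {A : TwoSidedIdeal R} (hA : PI A) {a u : R} (a0 : 0 ≤ a) (hu : u ∈ A)
    {c α β γ : ℝ} (hc : 0 < c) (h : ∀ ρ : Rep R, ‖ρ u‖ < c → ‖ρ a‖ ≤ α) (h1 : α < β)
    (h2 : β < γ) :
    ∃ r, ‖r‖ ≤ 2 / c ∧ star (u * r) * (u * r) = rp β γ a * rp β γ a := by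
  have sk : IsSelfAdjoint (star u * u) := IsSelfAdjoint.star_mul_self u
  have c4 : 0 < c ^ 2 / 4 := by positivity
  have c42 : c ^ 2 / 4 < c ^ 2 / 2 := by linarith
  have hb : rp (c ^ 2 / 4) (c ^ 2 / 2) (star u * u) ∈ A :=
    rp_mem c4.le c42 sk hA.closed (A.mul_mem_left _ _ hu)
  obtain ⟨z, hz, hs⟩ := cmpx hA a0 hb (rp_nonneg _ _ _) (fun ρ hρ => h ρ (by
    change ρ.hom _ = 0 at hρ
    rw [map_rp ρ.hom _ _ sk, map_mul, map_star] at hρ
    have h3 := norm_le_of_rp_eq_zero c4.le c42 (star_mul_self_nonneg _) hρ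
    rw [CStarRing.norm_star_mul_self] at h3
    change ‖ρ.hom u‖ < c
    by_contra hn
    have h4 : c ≤ ‖ρ.hom u‖ := not_lt.1 hn
    nlinarith [mul_le_mul h4 h4 hc.le (norm_nonneg _)])) h1 h2
  set k := star u * u with hk
  set G : ℝ → ℝ := fun t => (Real.sqrt (max t (c ^ 2 / 4)))⁻¹ with hG
  have pos : ∀ t : ℝ, c / 2 ≤ Real.sqrt (max t (c ^ 2 / 4)) := fun t =>
    Real.le_sqrt_of_sq_le ((le_of_eq (by ring)).trans (le_max_right _ _))
  have cG : Continuous G :=
    (Real.continuous_sqrt.comp (continuous_id.max continuous_const)).inv₀ fun t =>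
      ((half_pos hc).trans_le (pos t)).ne'
  have nG : ‖cfc G k‖ ≤ 2 / c := by
    refine norm_cfc_le (by positivity) fun t _ => ?_
    have h3 : 0 < Real.sqrt (max t (c ^ 2 / 4)) := (half_pos hc).trans_le (pos t)
    rw [Real.norm_of_nonneg (inv_nonneg.2 h3.le), ← inv_div c 2]
    exact inv_anti₀ (half_pos hc) (pos t)
  have nz : ‖z‖ ≤ 1 := norm_le_one_of_star_mul_self hz (norm_rp_le_one _ _ _)
  have sG : star (cfc G k) = cfc G k := (cfc_predicate G k : IsSelfAdjoint (cfc G k))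
  have pl : cfc G k * k * cfc G k * rp (c ^ 2 / 4) (c ^ 2 / 2) k = rp (c ^ 2 / 4) (c ^ 2 / 2) k := by
    have cr := continuous_ramp (c ^ 2 / 4) (c ^ 2 / 2)
    have e : cfc (fun t => G t * t * G t * ramp (c ^ 2 / 4) (c ^ 2 / 2) t) k =
        cfc G k * k * cfc G k * rp (c ^ 2 / 4) (c ^ 2 / 2) k := by
      rw [cfc_mul (fun t => G t * t * G t) _ k ((cG.mul continuous_id).mul cG).continuousOn
        cr.continuousOn, cfc_mul (fun t => G t * t) _ k (cG.mul continuous_id).continuousOn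
        cG.continuousOn, cfc_mul G (fun t => t) k cG.continuousOn continuous_id.continuousOn,
        cfc_id' ℝ k sk]
      rfl
    rw [← e]
    refine cfc_congr fun t _ => ?_
    change G t * t * G t * ramp (c ^ 2 / 4) (c ^ 2 / 2) t = ramp (c ^ 2 / 4) (c ^ 2 / 2) t
    rcases le_or_gt t (c ^ 2 / 4) with ht | ht
    · rw [(ramp_eq_zero_iff c42).2 ht, mul_zero]
    · have t0 : 0 < t := c4.trans ht
      have e1 : G t = (Real.sqrt t)⁻¹ := by
        change (Real.sqrt (max t (c ^ 2 / 4)))⁻¹ = _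
        rw [max_eq_left ht.le]
      have e2 : G t * t * G t = 1 := by
        have h3 : Real.sqrt t ≠ 0 := (Real.sqrt_pos.2 t0).ne'
        have h4 := Real.mul_self_sqrt t0.le
        rw [e1]
        field_simp
        linarith
      rw [e2, one_mul]
  refine ⟨cfc G k * z, ?_, ?_⟩
  · calc ‖cfc G k * z‖ ≤ ‖cfc G k‖ * ‖z‖ := norm_mul_le _ _
      _ ≤ 2 / c * 1 := mul_le_mul nG nz (norm_nonneg _) (by positivity)
      _ = 2 / c := mul_one _
  · have e : star (u * (cfc G k * z)) * (u * (cfc G k * z)) =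
        star z * (cfc G k * k * cfc G k * z) := by
      have e1 : star u * (u * (cfc G k * z)) = k * (cfc G k * z) := (mul_assoc _ _ _).symm
      simp only [star_mul, sG, mul_assoc, e1]
    rw [e, hs.plateau pl, hz]

end Vale.Agent.P133
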