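import Vale.Agent.P133.Quot

/-! P133: compactness lemmas. -/

namespace Vale.Agent.P133

universe u
variable {R : Type u} [CStarAlgebra R] [PartialOrder R] [StarOrderedRing R]

/-- the elements that are uniformly small in representations killing `p` with `ρ l` small -/
def cptT (p l : R) : TwoSidedIdeal R :=
  TwoSidedIdeal.mk' {x | ∀ ε : ℝ, 0 < ε → ∃ δ : ℝ, 0 < δ ∧
      ∀ ρ : Rep R, ρ p = 0 → ‖ρ l‖ ≤ δ → ‖ρ x‖ ≤ ε}
    (fun ε hε => ⟨1, one_pos, fun ρ _ _ => by rw [map_zero, norm_zero]; exact hε.le⟩)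
    (fun {x y} hx hy ε hε => by
      obtain ⟨δ₁, h1, k1⟩ := hx (ε / 2) (half_pos hε)
      obtain ⟨δ₂, h2, k2⟩ := hy (ε / 2) (half_pos hε)
      refine ⟨min δ₁ δ₂, lt_min h1 h2, fun ρ hp hl => ?_⟩
      rw [map_add]
      have := k1 ρ hp (hl.trans (min_le_left _ _))
      have := k2 ρ hp (hl.trans (min_le_right _ _))
      exact (norm_add_le _ _).trans (by linarith))
    (fun {x} hx ε hε => by
      obtain ⟨δ, h1, k1⟩ := hx ε hε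
      exact ⟨δ, h1, fun ρ hp hl => by rw [map_neg, norm_neg]; exact k1 ρ hp hl⟩)
    (fun {x y} hy ε hε => by
      obtain ⟨δ, h1, k1⟩ := hy (ε / (‖x‖ + 1)) (by positivity)
      refine ⟨δ, h1, fun ρ hp hl => ?_⟩
      rw [map_mul]
      refine (norm_mul_le _ _).trans ?_
      calc _ ≤ (‖x‖ + 1) * (ε / (‖x‖ + 1)) :=
            mul_le_mul ((norm_map_le ρ.hom x).trans (by linarith)) (k1 ρ hp hl) (norm_nonneg _)
              (by positivity)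
        _ = ε := by field_simp)
    (fun {x y} hx ε hε => by
      obtain ⟨δ, h1, k1⟩ := hx (ε / (‖y‖ + 1)) (by positivity)
      refine ⟨δ, h1, fun ρ hp hl => ?_⟩
      rw [map_mul]
      refine (norm_mul_le _ _).trans ?_
      calc _ ≤ (ε / (‖y‖ + 1)) * (‖y‖ + 1) :=
            mul_le_mul (k1 ρ hp hl) ((norm_map_le ρ.hom y).trans (by linarith)) (norm_nonneg _)
              (by positivity)
        _ = ε := by field_simp)

theorem mem_cptT {p l x : R} : x ∈ cptT p l ↔ ∀ ε : ℝ, 0 < ε → ∃ δ : ℝ, 0 < δ ∧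
    ∀ ρ : Rep R, ρ p = 0 → ‖ρ l‖ ≤ δ → ‖ρ x‖ ≤ ε :=
  TwoSidedIdeal.mem_mk' _ _ _ _ _ _ _

theorem isClosed_cptT (p l : R) : IsClosed (cptT p l : Set R) := by
  refine isClosed_of_closure_subset fun x hx => mem_cptT.2 fun ε hε => ?_
  obtain ⟨y, hy, hxy⟩ := Metric.mem_closure_iff.1 hx (ε / 2) (half_pos hε)
  obtain ⟨δ, h1, k1⟩ := mem_cptT.1 hy (ε / 2) (half_pos hε)
  refine ⟨δ, h1, fun ρ hp hl => ?_⟩
  have h2 := k1 ρ hp hl
  have h3 := norm_map_le ρ.hom (x - y)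
  rw [dist_eq_norm] at hxy
  rw [map_sub] at h3
  have h4 := norm_add_le (ρ x - ρ y) (ρ y)
  rw [sub_add_cancel] at h4
  linarith

theorem cpt {p l a : R} {α β : ℝ} (h : ∀ ρ : Rep R, ρ p = 0 → ρ l = 0 → ‖ρ a‖ ≤ α)
    (hαβ : α < β) : ∃ δ : ℝ, 0 < δ ∧ ∀ ρ : Rep R, ρ p = 0 → ‖ρ l‖ ≤ δ → ‖ρ a‖ ≤ β := by
  obtain ⟨π, -, hπ⟩ := exists_quot (cptT p l) (isClosed_cptT p l)
  have hp : π p = 0 := (hπ p).2 (mem_cptT.2 fun ε hε =>
    ⟨1, one_pos, fun ρ h1 _ => by rw [h1, norm_zero]; exact hε.le⟩)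
  have hl : π l = 0 := (hπ l).2 (mem_cptT.2 fun ε hε => ⟨ε, hε, fun ρ _ h1 => h1⟩)
  obtain ⟨ι, -, -, h1, h2⟩ := absorb π.hom (W := a) (ε := (α + β) / 2)
    ((h π hp hl).trans_lt (by linarith))
  have h0 : a * ι ∈ cptT p l := TwoSidedIdeal.mul_mem_left _ a ι ((hπ ι).1 h1)
  obtain ⟨δ, h3, h4⟩ := mem_cptT.1 h0 ((β - α) / 2) (by linarith)
  refine ⟨δ, h3, fun ρ k1 k2 => ?_⟩
  have h5 := h4 ρ k1 k2
  have h6 := norm_map_le ρ.hom (a * (1 - ι))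
  have h7 := norm_add_le (ρ (a * (1 - ι))) (ρ (a * ι))
  rw [← map_add, ← mul_add, sub_add_cancel, mul_one] at h7
  linarith

theorem cpt1 {l a : R} {α β : ℝ} (h : ∀ ρ : Rep R, ρ l = 0 → ‖ρ a‖ ≤ α)
    (hαβ : α < β) : ∃ δ : ℝ, 0 < δ ∧ ∀ ρ : Rep R, ‖ρ l‖ ≤ δ → ‖ρ a‖ ≤ β := by
  obtain ⟨δ, h1, h2⟩ := cpt (p := 0) (fun ρ _ => h ρ) hαβ
  exact ⟨δ, h1, fun ρ => h2 ρ (map_zero _)⟩

end Vale.Agent.P133
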