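import Vale.Agent.P133.Quot
import Vale.Agent.P133.Fac

/-! P133: an element of the ideal of a properly infinite element is Cuntz below it. -/

namespace Vale.Agent.P133

universe u
variable {R : Type u} [CStarAlgebra R] [PartialOrder R] [StarOrderedRing R]

theorem Cz_quot (P : R → Prop) (h0 : P 0) (ha : ∀ x y, P x → P y → P (x + y))
    (hl : ∀ r x, P x → P (r * x)) (hr : ∀ r x, P x → P (x * r)) (hc : IsClosed {x | P x}) :
    ∃ π : Rep R, ∀ x, π x = 0 ↔ P x := by
  obtain ⟨π, -, h⟩ := exists_quot (TwoSidedIdeal.mk' {x | P x} h0 (fun hx hy => ha _ _ hx hy)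
    (fun {x} hx => by simpa using hl (-1) x hx) (fun hx => hl _ _ hx) fun hx => hr _ _ hx)
    (by rwa [TwoSidedIdeal.coe_mk'])
  exact ⟨π, fun x => (h x).trans (TwoSidedIdeal.mem_mk' _ _ _ _ _ _ _)⟩

/-- the elements Cuntz below `d` -/
def CzL (d : R) : Set R := closure (Set.range fun r : R => star r * d * r)

omit [PartialOrder R] [StarOrderedRing R] in
theorem Cz_conj {c d : R} (h : c ∈ CzL d) (s : R) : star s * c * s ∈ CzL d :=
  map_mem_closure (f := fun c => star s * c * s) (by fun_prop) h (by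
    rintro _ ⟨r, rfl⟩
    exact ⟨r * s, by simp only [star_mul, mul_assoc]⟩)

theorem Cz_le {b c x : R} {C : ℝ} (hC : 0 ≤ C) (c0 : 0 ≤ c) (h : c ≤ C • (star x * x))
    (hx : star x * x ∈ CzL b) : c ∈ CzL b := by
  obtain ⟨z, h1, h2⟩ := fac (f := rt c) (y := x) hC (by rwa [(rt_sa c).star_eq, rt_mul_rt c0])
  rw [(rt_sa c).star_eq, rt_mul_rt c0] at h1
  rw [← h1]
  refine isClosed_closure.closure_subset (map_mem_closure (f := fun z : R => star z * z)
    (t := CzL b) (by fun_prop) h2 ?_)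
  rintro _ ⟨r, rfl⟩
  simpa only [star_mul, mul_assoc] using Cz_conj hx r

theorem Cz_add {A : TwoSidedIdeal R} (hA : PI A) {b c d : R} (hb : b ∈ A) (b0 : 0 ≤ b)
    (hc : c ∈ CzL b) (hd : d ∈ CzL b) : c + d ∈ CzL b := by
  refine isClosed_closure.closure_subset (map_mem_closure₂ (f := fun c d : R => c + d)
    continuous_add hc hd ?_)
  rintro _ ⟨r, rfl⟩ _ ⟨r', rfl⟩
  have h1 : ((b, b, 0) : R × R × R) ∈ closure (Set.range fun q : R × R =>
      (star q.1 * b * q.1, star q.2 * b * q.2, star q.1 * b * q.2)) := by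
    refine Metric.mem_closure_iff.2 fun ε hε => ?_
    obtain ⟨s, t, h1, h2, h3⟩ := hA.twin b hb b0 ε hε
    refine ⟨_, ⟨(s, t), rfl⟩, ?_⟩
    rw [dist_comm, Prod.dist_eq, Prod.dist_eq, dist_eq_norm, dist_eq_norm, dist_zero_right]
    exact max_lt h1 (max_lt h2 h3)
  have h2 := map_mem_closure (f := fun q : R × R × R => star r * q.1 * r + star r' * q.2.1 * r' +
    star r * q.2.2 * r' + star r' * star q.2.2 * r) (t := Set.range fun r : R => star r * b * r)
    (by fun_prop) h1 (by
      rintro _ ⟨q, rfl⟩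
      refine ⟨q.1 * r + q.2 * r', ?_⟩
      simp only [star_add, star_mul, star_star, b0.isSelfAdjoint.star_eq]
      noncomm_ring)
  simpa only [star_zero, mul_zero, zero_mul, add_zero] using h2

/-- Hint: write `c ≲ d` for `∀ ε > 0, ∃ r, ‖star r * d * r - c‖ < ε`. It is transitive, closed in `c`,
`0 ≤ c ≤ d → c ≲ d` (use `fac`-like `r = cfc (fun t => (√(max t 0 + δ))⁻¹) d * rt c`), and
`c₁ ≲ b → c₂ ≲ b → c₁ + c₂ ≲ b` by twins `s, t` of `b` (`r = s r₁ + t r₂`). So
`N = {x | star x * x ≲ b}` is a closed two-sided ideal (` (x+y)*(x+y) ≤ 2 x*x + 2 y*y`,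
` (yx)*(yx) ≤ ‖y‖ ^ 2 x*x`) containing `b` (`r = rt b`); apply `exists_quot` to it. -/
theorem cz {A : TwoSidedIdeal R} (hA : PI A) {b g : R} (hb : b ∈ A) (b0 : 0 ≤ b)
    (h : ∀ ρ : Rep R, ρ b = 0 → ρ g = 0) {ε : ℝ} (hε : 0 < ε) :
    ∃ r, ‖star r * b * r - star g * g‖ < ε := by
  obtain ⟨π, hπ⟩ := Cz_quot (fun x : R => star x * x ∈ CzL b)
    (subset_closure ⟨0, by simp⟩)
    (fun x y hx hy => by
      have h0 : 0 ≤ star x * x + star y * y :=
        add_nonneg (star_mul_self_nonneg x) (star_mul_self_nonneg y)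
      refine Cz_le (x := rt (star x * x + star y * y)) zero_le_two (star_mul_self_nonneg _) ?_ ?_
      · rw [(rt_sa _).star_eq, rt_mul_rt h0, two_smul]
        refine (le_add_of_nonneg_right (star_mul_self_nonneg (x - y))).trans (le_of_eq ?_)
        simp only [star_add, star_sub]
        noncomm_ring
      · rw [(rt_sa _).star_eq, rt_mul_rt h0]
        exact Cz_add hA hb b0 hx hy)
    (fun r x hx => by
      refine Cz_le (norm_nonneg (star r * r)) (star_mul_self_nonneg _) ?_ hx
      have h1 := CStarAlgebra.star_left_conjugate_le_norm_smul (a := x) (b := star r * r)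
        (IsSelfAdjoint.star_mul_self r)
      simpa only [star_mul, mul_assoc] using h1)
    (fun r x hx => by simpa only [star_mul, mul_assoc] using Cz_conj hx r)
    (isClosed_closure.preimage (f := fun x : R => star x * x) (by fun_prop))
  have h1 : star b * b ∈ CzL b := subset_closure ⟨rt b, by
    have h2 := rt_mul_rt b0
    rw [b0.isSelfAdjoint.star_eq]
    calc star (rt b) * b * rt b = rt b * (rt b * rt b) * rt b := by rw [(rt_sa b).star_eq, h2]
      _ = (rt b * rt b) * (rt b * rt b) := by simp only [mul_assoc]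
      _ = b * b := by rw [h2]⟩
  obtain ⟨_, ⟨r, rfl⟩, h2⟩ := Metric.mem_closure_iff.1 ((hπ g).1 (h π ((hπ b).2 h1))) ε hε
  exact ⟨r, by rwa [dist_comm, dist_eq_norm] at h2⟩

end Vale.Agent.P133
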