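import Mathlib

/-! P133: definitions used in the proof that purely infinite implies strongly purely infinite. -/

namespace Vale.Agent.P133

universe u

/-- ramp function: `0` below `α`, `1` above `β`, affine in between -/
noncomputable def ramp (α β t : ℝ) : ℝ := max 0 (min 1 ((t - α) / (β - α)))

section
variable {R : Type*} [CStarAlgebra R]

/-- ramp of a selfadjoint element -/
noncomputable def rp (α β : ℝ) (a : R) : R := cfc (ramp α β) a

/-- positive part -/
noncomputable def pp (a : R) : R := cfc (fun t : ℝ => max t 0) a

/-- square root -/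
noncomputable def rt (a : R) : R := cfc Real.sqrt a

/-- normalisation of `w` above level `μ` of `w* w` -/
noncomputable def nrm (μ : ℝ) (w : R) : R :=
  w * cfc (fun t : ℝ => (Real.sqrt (max t μ))⁻¹) (star w * w)

/-- combination of two elements into one positive element with the joint left support -/
noncomputable def cmb (u v : R) : R := rt ((1 / 2 : ℝ) • (u * star u + v * star v))

/-- `z` lies in the closed right ideal generated by `b` -/
def Sup (b z : R) : Prop := z ∈ closure (Set.range fun r : R => b * r)

end

/-- a unital star homomorphism into an ordered C*-algebra of the same universe -/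
structure Rep (R : Type u) [CStarAlgebra R] where
  M : Type u
  [alg : CStarAlgebra M]
  [ord : PartialOrder M]
  [sor : StarOrderedRing M]
  hom : R →⋆ₐ[ℂ] M

attribute [instance] Rep.alg Rep.ord Rep.sor

instance {R : Type u} [CStarAlgebra R] : CoeFun (Rep R) (fun ρ => R → ρ.M) := ⟨fun ρ => ρ.hom⟩

/-- composition of representations -/
def Rep.comp {R : Type u} [CStarAlgebra R] {π : Rep R} (τ : Rep π.M) : Rep R :=
  ⟨τ.M, τ.hom.comp π.hom⟩

theorem Rep.comp_apply {R : Type u} [CStarAlgebra R] {π : Rep R} (τ : Rep π.M) (x : R) :
    (Rep.comp τ).hom x = τ (π x) := rfl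

/-- a closed ideal all of whose positive elements are properly infinite -/
structure PI {R : Type*} [CStarAlgebra R] [PartialOrder R] (A : TwoSidedIdeal R) : Prop where
  closed : IsClosed (A : Set R)
  twin : ∀ h ∈ A, 0 ≤ h → ∀ ε : ℝ, 0 < ε → ∃ s t : R, ‖star s * h * s - h‖ < ε ∧
    ‖star t * h * t - h‖ < ε ∧ ‖star s * h * t‖ < ε

/-- the absolute angle constant -/
noncomputable def c0 : ℝ := 1 - (1 / 40000) ^ 2 / 8

theorem c0_nonneg : 0 ≤ c0 := by unfold c0; norm_num

theorem c0_pos : 0 < c0 := by unfold c0; norm_num

theorem c0_lt_one : c0 < 1 := by unfold c0; norm_num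

end Vale.Agent.P133
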