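import Vale.Agent.P133.Nrm

/-! P133: the grazing estimate. -/

namespace Vale.Agent.P133

variable {R : Type*} [CStarAlgebra R] [PartialOrder R] [StarOrderedRing R]

omit [PartialOrder R] [StarOrderedRing R] in
/-- approximate eigenvectors -/
theorem G2_eig {D : R} (hD : IsSelfAdjoint D) {l η : ℝ} (hl : l ∈ spectrum ℝ D) (hη : 0 < η) :
    ∃ k : R, IsSelfAdjoint k ∧ ‖k‖ = 1 ∧ ‖D * k - l • k‖ ≤ η := by
  set f : ℝ → ℝ := fun t => max 0 (1 - |t - l| / η) with hf
  have hc : Continuous f := by fun_prop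
  have h0 : ∀ t, 0 ≤ f t := fun t => le_max_left _ _
  have h1 : ∀ t, f t ≤ 1 := fun t => max_le zero_le_one (sub_le_self _ (by positivity))
  refine ⟨cfc f D, cfc_predicate _ _, le_antisymm ?_ ?_, ?_⟩
  · exact norm_cfc_le zero_le_one fun t _ => by
      rw [Real.norm_of_nonneg (h0 t)]
      exact h1 t
  · have h := norm_apply_le_norm_cfc f D hl hc.continuousOn hD
    simpa [hf] using h
  · have e : D * cfc f D - l • cfc f D = cfc (fun t => t * f t - l * f t) D := by
      rw [cfc_sub _ _ D (by fun_prop) (by fun_prop), cfc_mul _ _ D (by fun_prop) (by fun_prop),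
        cfc_id' ℝ D hD, cfc_const_mul l f D (by fun_prop)]
    rw [e]
    refine norm_cfc_le hη.le fun t _ => ?_
    rw [← sub_mul, norm_mul, Real.norm_of_nonneg (h0 t), Real.norm_eq_abs]
    rcases le_total |t - l| η with h | h
    · exact (mul_le_of_le_one_right (abs_nonneg _) (h1 t)).trans h
    · have h2 : f t = 0 := max_eq_left (sub_nonpos.2 ((one_le_div hη).2 h))
      rw [h2, mul_zero]
      exact hη.le

theorem G2_aux {D Y : R} (hD : IsSelfAdjoint D) (Y0 : 0 ≤ Y) {c : ℝ} (hc : 0 ≤ c)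
    (h : D * D * D + D * D * Y + Y * D * D ≤ c • (1 : R)) {l : ℝ} (hl0 : 0 ≤ l)
    (hl : l ∈ spectrum ℝ D) : l ^ 3 ≤ c := by
  have hY : IsSelfAdjoint Y := .of_nonneg Y0
  set N := ‖D‖ + l with hN
  have hN0 : 0 ≤ N := by positivity
  set C := ‖D‖ * N + l ^ 2 + 2 * ‖Y‖ * N + 1 with hC
  have hC0 : 0 < C := by positivity
  refine le_of_forall_pos_le_add fun ε hε => ?_
  have hη : 0 < ε / C := div_pos hε hC0
  obtain ⟨k, hk, hk1, he⟩ := G2_eig hD hl hη
  set η := ε / C with hηd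
  set e₁ := D * k - l • k with he₁
  set e₂ := D * e₁ + l • e₁ with he₂
  set e₃ := D * e₂ + l ^ 2 • e₁ with he₃
  have n2 : ‖e₂‖ ≤ N * η := by
    refine (norm_add_le _ _).trans ?_
    rw [norm_smul, Real.norm_of_nonneg hl0, hN, add_mul]
    exact add_le_add ((norm_mul_le _ _).trans (by gcongr)) (by gcongr)
  have n3 : ‖e₃‖ ≤ (‖D‖ * N + l ^ 2) * η := by
    refine (norm_add_le _ _).trans ?_
    rw [norm_smul, Real.norm_of_nonneg (sq_nonneg l), add_mul, mul_assoc]
    exact add_le_add ((norm_mul_le _ _).trans (by gcongr)) (by gcongr)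
  have n4 : ‖k * Y * e₂‖ ≤ ‖Y‖ * (N * η) := by
    refine (norm_mul_le _ _).trans (mul_le_mul ?_ n2 (norm_nonneg _) (norm_nonneg _))
    exact (norm_mul_le _ _).trans (by rw [hk1, one_mul])
  set P := D * D * D + D * D * Y + Y * D * D with hP
  set E := k * e₃ + star (k * Y * e₂) + k * Y * e₂ with hE
  have nE : ‖E‖ ≤ ε := by
    have h1 : ‖k * e₃‖ ≤ (‖D‖ * N + l ^ 2) * η :=
      (norm_mul_le _ _).trans (by rw [hk1, one_mul]; exact n3)
    have h2 := norm_add₃_le (a := k * e₃) (b := star (k * Y * e₂)) (c := k * Y * e₂)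
    rw [norm_star] at h2
    have h3 : ε = C * η := by rw [hηd]; field_simp
    rw [h3, hC]
    nlinarith
  have id1 : E = k * P * k - l ^ 3 • (k * k) - (2 * l ^ 2) • (k * Y * k) := by
    simp only [hE, hP, he₃, he₂, he₁, star_mul, star_add, star_sub, star_smul, hk.star_eq,
      hD.star_eq, hY.star_eq, star_trivial, mul_add, add_mul, mul_sub, sub_mul, mul_smul_comm,
      smul_mul_assoc, mul_assoc, smul_sub, smul_add, smul_smul]
    module
  have hPs : IsSelfAdjoint P := by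
    simp only [IsSelfAdjoint, hP, star_mul, star_add, hD.star_eq, hY.star_eq, mul_assoc]
    abel
  have hkk : 0 ≤ k * k := by simpa [hk.star_eq] using star_mul_self_nonneg k
  have hkY : 0 ≤ k * Y * k := hk.conjugate_nonneg Y0
  have hEs : IsSelfAdjoint E := by
    rw [id1]
    exact ((hPs.conjugate_self hk).sub ((IsSelfAdjoint.all _).smul (.of_nonneg hkk))).sub
      ((IsSelfAdjoint.all _).smul (.of_nonneg hkY))
  have h1 : k * P * k ≤ c • (1 : R) := by
    refine (hk.conjugate_le_conjugate h).trans ?_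
    rw [mul_smul_comm, smul_mul_assoc, mul_one]
    refine rsmul_le_rsmul ?_ hc
    simpa [hk.star_eq] using star_mul_self_le_one hk1.le
  have h2 := neg_norm_smul_one_le hEs nE
  have h3 : 0 ≤ (2 * l ^ 2) • (k * Y * k) := smul_nonneg (by positivity) hkY
  have h4 : l ^ 3 • (k * k) ≤ (c + ε) • (1 : R) := by
    have e : l ^ 3 • (k * k) = k * P * k - (2 * l ^ 2) • (k * Y * k) - E := by
      rw [id1]
      abel
    rw [e, add_smul, sub_eq_add_neg]
    exact add_le_add ((sub_le_self _ h3).trans h1) (neg_le.1 h2)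
  have h5 := norm_le_of_le_smul_one (smul_nonneg (by positivity) hkk) (by positivity) h4
  rwa [norm_smul, Real.norm_of_nonneg (by positivity), hk.norm_mul_self, hk1, one_pow,
    mul_one] at h5

/-- Hint: `D = X - Y`, `m = (X + Y) / 2`, `X D X - Y D Y = m D D + D D m ≤ 2 g`, and `m ≥ D / 2`,
`m ≥ -D / 2`. By symmetry (swap `X, Y`) assume `λ = ‖D‖` lies in the spectrum of `D`
(`CStarAlgebra.norm_or_neg_norm_mem_spectrum`, trivial algebra separately). For `0 < η < λ` let
`k = rp (λ - η) λ D`, `‖k‖ = 1`, `‖k D D - λ ^ 2 k‖ ≤ 2 λ η`, `k D k ≥ (λ - η) k k`. Conjugating by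
`k`: `λ ^ 2 (λ - η) k k ≤ 2 λ ^ 2 k m k ≤ 2 g + 4 λ η ‖m‖`; take norms and let `η → 0`. -/
theorem g2 {X Y : R} (X0 : 0 ≤ X) (Y0 : 0 ≤ Y) {g : ℝ} (hg : 0 ≤ g)
    (h1 : X * (X - Y) * X ≤ g • (1 : R)) (h2 : Y * (Y - X) * Y ≤ g • (1 : R)) :
    ‖X - Y‖ ^ 3 ≤ 2 * g := by
  have hX : IsSelfAdjoint X := .of_nonneg X0
  have hY : IsSelfAdjoint Y := .of_nonneg Y0
  have h := add_le_add h1 h2
  rw [← add_smul, ← two_mul] at h
  rcases subsingleton_or_nontrivial R with hR | hR
  · rw [Subsingleton.elim (X - Y) 0, norm_zero]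
    linarith
  rcases CStarAlgebra.norm_or_neg_norm_mem_spectrum (hX.sub hY) with h3 | h3
  · refine G2_aux (hX.sub hY) Y0 (by positivity) (le_of_eq_of_le ?_ h) (norm_nonneg _) h3
    noncomm_ring
  · refine G2_aux (hY.sub hX) X0 (by positivity) (le_of_eq_of_le ?_ h) (norm_nonneg _) ?_
    · noncomm_ring
    · rw [← neg_sub X Y, ← spectrum.neg_eq]
      exact h3

end Vale.Agent.P133
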