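import Vale.Agent.P133.Ang

/-! P133: iteration and strong pure infiniteness of the ideal. -/

namespace Vale.Agent.P133

universe u
variable {R : Type u} [CStarAlgebra R] [PartialOrder R] [StarOrderedRing R]

theorem iter {A : TwoSidedIdeal R} (hA : PI A) {a b : R} (ha : a ∈ A) (a0 : 0 ≤ a) (hb : b ∈ A)
    (b0 : 0 ≤ b) (n : ℕ) : ∀ (m : R) (K α β γ : ℝ), 0 < K → ‖m‖ ≤ K → 0 < α → α < β → β < γ →
    ∃ u v : R, Sup (rp α β a) u ∧ Sup (rp α β b) v ∧ star u * u = rp β γ a * rp β γ a ∧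
      star v * v = rp β γ b * rp β γ b ∧ ‖star u * m * v‖ ≤ c0 ^ n * K := by
  have sa : IsSelfAdjoint a := .of_nonneg a0
  have sb : IsSelfAdjoint b := .of_nonneg b0
  induction n with
  | zero =>
    intro m K α β γ hK hm h0 h1 h2
    refine ⟨rp β γ a, rp β γ b, sup_rp_rp h1 h1.le h2 sa, sup_rp_rp h1 h1.le h2 sb,
      by rw [star_rp], by rw [star_rp], ?_⟩
    rw [star_rp, pow_zero, one_mul]
    calc _ ≤ ‖rp β γ a‖ * ‖m‖ * ‖rp β γ b‖ :=
          (norm_mul_le _ _).trans (mul_le_mul_of_nonneg_right (norm_mul_le _ _) (norm_nonneg _))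
      _ ≤ 1 * K * 1 := by
          gcongr
          · exact norm_rp_le_one _ _ _
          · exact norm_rp_le_one _ _ _
      _ = K := by ring
  | succ n ih =>
    intro m K α β γ hK hm h0 h1 h2
    set β₁ := α + (β - α) / 3 with e1
    set β₂ := α + 2 * (β - α) / 3 with e2
    have k1 : α < β₁ := by linarith
    have k2 : β₁ < β₂ := by linarith
    have k3 : β₂ < β := by linarith
    have hm' : ‖K⁻¹ • m‖ ≤ 1 := by
      rw [norm_smul, Real.norm_of_nonneg (inv_nonneg.2 hK.le), inv_mul_le_iff₀ hK, mul_one]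
      exact hm
    obtain ⟨u₁, v₁, s1, s2, e3, e4, hn⟩ := ang hA ha a0 hb b0 hm' h0 k1 k2
    have hn' : ‖star u₁ * m * v₁‖ ≤ c0 * K := by
      rw [mul_smul_comm, smul_mul_assoc, norm_smul, Real.norm_of_nonneg (inv_nonneg.2 hK.le),
        inv_mul_le_iff₀ hK] at hn
      linarith
    obtain ⟨u₂, v₂, s3, s4, e5, e6, hn2⟩ := ih (star u₁ * m * v₁) (c0 * K) β₂ β γ
      (mul_pos c0_pos hK) hn' (by linarith) k3 h2
    have p1 : rp β₁ β₂ a * u₂ = u₂ := s3.plateau (rp_mul_rp k2 le_rfl k3 a)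
    have p2 : rp β₁ β₂ b * v₂ = v₂ := s4.plateau (rp_mul_rp k2 le_rfl k3 b)
    refine ⟨u₁ * u₂, v₁ * v₂, ((sup_rp_rp h1 le_rfl k1 sa).trans s1).mul_right _,
      ((sup_rp_rp h1 le_rfl k1 sb).trans s2).mul_right _, ?_, ?_, ?_⟩
    · rw [star_mul, mul_assoc, ← mul_assoc (star u₁), e3, mul_assoc, p1, p1, e5]
    · rw [star_mul, mul_assoc, ← mul_assoc (star v₁), e4, mul_assoc, p2, p2, e6]
    · rw [star_mul, show star u₂ * star u₁ * m * (v₁ * v₂) = star u₂ * (star u₁ * m * v₁) * v₂ by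
        noncomm_ring]
      calc _ ≤ _ := hn2
        _ = _ := by ring

theorem spi {A : TwoSidedIdeal R} (hA : PI A) {x y : R} (hx : x ∈ A) (x0 : 0 ≤ x) (hy : y ∈ A)
    (y0 : 0 ≤ y) {ε : ℝ} (hε : 0 < ε) :
    ∃ s ∈ A, ∃ t ∈ A, ‖star s * x ^ 2 * s - x ^ 2‖ < ε ∧ ‖star t * y ^ 2 * t - y ^ 2‖ < ε ∧
      ‖star s * (x * y) * t‖ < ε := by
  have sx : IsSelfAdjoint x := .of_nonneg x0
  have sy : IsSelfAdjoint y := .of_nonneg y0
  obtain ⟨d, hd, hd2⟩ : ∃ d : ℝ, 0 < d ∧ (4 * d) ^ 2 < ε := by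
    refine ⟨√ε / 5, by positivity, ?_⟩
    have := Real.sq_sqrt hε.le
    nlinarith
  obtain ⟨n, hn⟩ := exists_pow_lt_of_lt_one (show 0 < ε / (‖x‖ * ‖y‖ + 1) by positivity) c0_lt_one
  have h1 : ‖(1 : R)‖ ≤ 1 := by
    rcases subsingleton_or_nontrivial R with h | h
    · simp [Subsingleton.elim (1 : R) 0]
    · simp
  obtain ⟨u, v, s1, s2, e1, e2, hb⟩ := iter hA hx x0 hy y0 n 1 1 (2 * d) (3 * d) (4 * d) one_pos h1
    (by linarith) (by linarith) (by linarith)
  obtain ⟨k, hk⟩ := rp_fac hd (show d < 2 * d by linarith) sx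
  obtain ⟨l, hl⟩ := rp_fac hd (show d < 2 * d by linarith) sy
  have p1 : x * (k * u * x) = u * x := by
    rw [← mul_assoc, ← mul_assoc, ← hk,
      s1.plateau (rp_mul_rp (by linarith) le_rfl (by linarith) x)]
  have p2 : y * (l * v * y) = v * y := by
    rw [← mul_assoc, ← mul_assoc, ← hl,
      s2.plateau (rp_mul_rp (by linarith) le_rfl (by linarith) y)]
  have key : ∀ a b s t : R, IsSelfAdjoint a → star s * (a * b) * t = star (a * s) * (b * t) :=
    fun a b s t ha => by rw [star_mul, ha.star_eq]; noncomm_ring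
  refine ⟨k * u * x, A.mul_mem_left _ _ hx, l * v * y, A.mul_mem_left _ _ hy, ?_, ?_, ?_⟩
  · refine lt_of_le_of_lt ?_ hd2
    have := norm_sq_cut_le (a := x) (show 0 ≤ 3 * d by linarith) (show 3 * d < 4 * d by linarith) x0
    rw [← e1] at this
    nth_rw 1 [sq x]
    rwa [key _ _ _ _ sx, p1, star_mul, sx.star_eq,
      show x * star u * (u * x) = x * (star u * u) * x by noncomm_ring]
  · refine lt_of_le_of_lt ?_ hd2
    have := norm_sq_cut_le (a := y) (show 0 ≤ 3 * d by linarith) (show 3 * d < 4 * d by linarith) y0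
    rw [← e2] at this
    nth_rw 1 [sq y]
    rwa [key _ _ _ _ sy, p2, star_mul, sy.star_eq,
      show y * star v * (v * y) = y * (star v * v) * y by noncomm_ring]
  · rw [key _ _ _ _ sx, p1, p2, star_mul, sx.star_eq,
      show x * star u * (v * y) = x * (star u * 1 * v) * y by noncomm_ring]
    rw [lt_div_iff₀ (by positivity)] at hn
    have c := pow_nonneg c0_nonneg n
    calc _ ≤ ‖x‖ * ‖star u * 1 * v‖ * ‖y‖ :=
          (norm_mul_le _ _).trans (mul_le_mul_of_nonneg_right (norm_mul_le _ _) (norm_nonneg _))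
      _ ≤ ‖x‖ * (c0 ^ n * 1) * ‖y‖ := by gcongr
      _ < ε := by nlinarith

end Vale.Agent.P133
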