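import Vale.Agent.P133.Mq
import Vale.Agent.P133.Intr

/-! P133: orthogonalisation of an arbitrary pairing inside one hereditary subalgebra. -/

namespace Vale.Agent.P133

universe u
variable {R : Type u} [CStarAlgebra R] [PartialOrder R] [StarOrderedRing R]

theorem mm_h (ρ : Rep R) {h : R} (h0 : 0 ≤ h) {α β : ℝ} (hα : 0 ≤ α) (hαβ : α < β)
    (hz : ρ (rp α β h) = 0) : ‖ρ h‖ ≤ α := by
  rw [map_rp ρ.hom α β (IsSelfAdjoint.of_nonneg h0)] at hz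
  exact norm_le_of_rp_eq_zero hα hαβ (map_nonneg' ρ.hom h0) hz

theorem mm_sq (ρ : Rep R) (x : R) : ‖ρ (star x * x)‖ = ‖ρ x‖ ^ 2 := by
  rw [map_mul, map_star, CStarRing.norm_star_mul_self, sq]

theorem mm_p1 (ρ : Rep R) {x : R} (hz : ρ (rp (1 / 9) (1 / 4) (star x * x)) = 0) :
    ‖ρ x‖ < 1 / 2 := by
  have h1 := mm_h ρ (star_mul_self_nonneg x) (by norm_num) (by norm_num) hz
  rw [mm_sq] at h1
  nlinarith [norm_nonneg (ρ x)]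

theorem mm_c (ρ : Rep R) {x y : R} (h : ‖ρ (cmb x y)‖ < 1 / 5) :
    ρ (rp (1 / 9) (1 / 4) (star x * x)) = 0 ∧ ‖ρ y‖ < 1 := by
  rw [map_cmb] at h
  have h1 := norm_left_le_cmb (ρ x) (ρ y)
  have h2 := norm_right_le_cmb (ρ x) (ρ y)
  have h3 : ‖cmb (ρ x) (ρ y)‖ ^ 2 ≤ 1 / 25 := by nlinarith [norm_nonneg (cmb (ρ x) (ρ y))]
  refine ⟨?_, by nlinarith [norm_nonneg (ρ y)]⟩
  rw [map_rp ρ.hom _ _ (IsSelfAdjoint.star_mul_self x)]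
  exact rp_eq_zero (by norm_num) (by rw [mm_sq]; linarith)

/-- Hint: `φ = rp b (b + d) h`, `X = rp (b + 2d) (b + 3d) h`, `e = rp (b + 4d) (b + 5d) h`. `l` from
`low φ X m ε`, `u₀, t₀` from `mq` with `ε / 2`. `intr` with `p = rp (1/9) (1/4) (u₀* u₀)`, `b := l`,
`e`, `a := h`, levels `b + 5d, b + 6d` gives `θ`; `u = cmb u₀ θ`, `X u = u`. With `π` from
`exists_quot_kill l`: `‖π (u* m t₀)‖ ≤ ε / 2` (`map_cmb`, `norm_cmb_mul_le`, `π θ = 0`), `absorb`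
gives `ι` with `π ι = 0` (so `ρ ι = 0` whenever `ρ l = 0`) and `t₁ = t₀ (1 - ι)`, `‖u* m t₁‖ < ε`.
`cpt` with `p' = rp (1/9) (1/4) (t₁* t₁)`, `l`, levels `b + d, b + 2d` gives `δ`; `ω = nrm (δ ^ 2) l`,
`‖u* m ω‖ = ‖u* X m ω‖ ≤ ε`; `v = cmb t₁ ω`. Largeness: `‖ρ (cmb x y)‖ < 1 / 5` gives
`‖ρ x‖ ^ 2, ‖ρ y‖ ^ 2 < 2 / 25 < 1 / 9`. -/
theorem mm {A : TwoSidedIdeal R} (hA : PI A) {h : R} (hh : h ∈ A) (h0 : 0 ≤ h) (m : R)
    {b d ε : ℝ} (hb : 0 ≤ b) (hd : 0 < d) (hε : 0 < ε) :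
    ∃ u v : R, ‖u‖ ≤ 1 ∧ ‖v‖ ≤ 1 ∧ Sup (rp b (b + d) h) u ∧ Sup (rp b (b + d) h) v ∧
      ‖star u * m * v‖ ≤ ε ∧ (∀ ρ : Rep R, ‖ρ u‖ < 1 / 5 → ‖ρ h‖ ≤ b + 6 * d) ∧
      ∀ ρ : Rep R, ‖ρ v‖ < 1 / 5 → ‖ρ h‖ ≤ b + 6 * d := by
  have hs : IsSelfAdjoint h := IsSelfAdjoint.of_nonneg h0
  obtain ⟨l, l1, l2, l3⟩ := low (rp_sa b (b + d) h) (rp_sa (b + 2 * d) (b + 3 * d) h) m hε
  obtain ⟨u₀, t₀, u1, t1, u2, t2, H⟩ := mq hA hh h0 m hb hd (half_pos hε) l fun ρ h1 h2 =>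
    mm_h ρ h0 hb (by linarith) (l3 ρ h1 h2)
  obtain ⟨θ, θ0, θ1, θ2, θ3, θ4⟩ := intr (p := rp (1 / 9) (1 / 4) (star u₀ * u₀)) (b := l) h0
    (rp_sa (b + 4 * d) (b + 5 * d) h) (α := b + 5 * d) (β := b + 6 * d) (by linarith) (by linarith)
    (fun ρ h1 h2 => (H ρ h2).2.1 (mm_p1 ρ h1))
    fun ρ h1 => (mm_h ρ h0 (by linarith) (by linarith) h1).trans (by linarith)
  have n1 : ‖cmb u₀ θ‖ ≤ 1 := norm_cmb_le u1 (norm_le_one_of_le_one θ0 θ1)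
  have s1 : Sup (rp (b + 3 * d) (b + 4 * d) h) (cmb u₀ θ) :=
    u2.cmb ((sup_rp_rp (by linarith) (by linarith) (by linarith) hs).trans θ2)
  have e1 : star (cmb u₀ θ) * rp (b + 2 * d) (b + 3 * d) h = star (cmb u₀ θ) := by
    have h1 := congrArg star (s1.plateau
      (rp_mul_rp (α := b + 2 * d) (by linarith) le_rfl (by linarith) h))
    rwa [star_mul, star_rp] at h1
  obtain ⟨π, -, π1, π2⟩ := exists_quot_kill l
  have n2 : ‖π (star (cmb u₀ θ) * m * t₀)‖ ≤ ε / 2 := by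
    have h1 := (H π π1).1
    rw [mul_assoc, map_mul, map_star] at h1 ⊢
    rw [map_cmb]
    refine norm_cmb_mul_le h1 ?_
    rw [θ3 π π1, star_zero, zero_mul, norm_zero]
    exact (half_pos hε).le
  obtain ⟨ι, ι0, ι1, ι2, ι3⟩ := absorb π.hom (n2.trans_lt (half_lt_self hε))
  have e2 : ∀ ρ : Rep R, ρ l = 0 → ρ (t₀ * (1 - ι)) = ρ t₀ := fun ρ h1 => by
    obtain ⟨τ, hτ⟩ := π2 ρ h1
    have h2 : ρ ι = 0 := norm_eq_zero.1 (by rw [← hτ, ι2, map_zero, norm_zero])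
    rw [map_mul, map_sub, h2, map_one, sub_zero, mul_one]
  obtain ⟨δ, δ0, δ1⟩ := cpt (p := rp (1 / 9) (1 / 4) (star (t₀ * (1 - ι)) * (t₀ * (1 - ι))))
    (l := l) (a := h) (α := b + d) (β := b + 2 * d) (fun ρ h1 h2 => (H ρ h2).2.2 (by
      rw [← e2 ρ h2]
      exact (mm_p1 ρ h1).trans (by norm_num))) (by linarith)
  have δ2 : 0 < δ ^ 2 := by positivity
  have n3 := norm_nrm_le δ2 l
  obtain ⟨r, hr, -⟩ := nrm_eq δ2 l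
  refine ⟨cmb u₀ θ, cmb (t₀ * (1 - ι)) (nrm (δ ^ 2) l), n1, norm_cmb_le ?_ n3,
    (sup_rp_rp (by linarith) (by linarith) (by linarith) hs).trans s1,
    (t2.mul_right _).cmb (hr ▸ l1.mul_right r), norm_mul_cmb_le ?_ ?_,
    fun ρ h1 => θ4 ρ (mm_c ρ h1).1 (mm_c ρ h1).2, fun ρ h1 => ?_⟩
  · exact (norm_mul_le _ _).trans (mul_le_one₀ t1 (norm_nonneg _) (norm_one_sub_le_one ι0 ι1))
  · rw [← mul_assoc]
    exact ι3.le
  · rw [hr] at n3 ⊢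
    rw [← e1, mul_assoc (star _), mul_assoc (star _)]
    refine (norm_mul_le _ _).trans ((mul_le_of_le_one_left (norm_nonneg _) ?_).trans
      ((l2 r).trans (mul_le_of_le_one_right hε.le n3)))
    rwa [norm_star]
  · obtain ⟨h2, h3⟩ := mm_c ρ h1
    refine (δ1 ρ h2 ?_).trans (by linarith)
    rw [map_nrm ρ.hom δ2] at h3
    by_contra h4
    exact h3.not_ge (one_le_norm_nrm δ2 (pow_le_pow_left₀ δ0.le (not_le.1 h4).le 2))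

end Vale.Agent.P133
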