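import Vale.Agent.P133.Tw

/-! P133: orthogonalisation when one side is a projection. -/

namespace Vale.Agent.P133

universe u
variable {R : Type u} [CStarAlgebra R] [PartialOrder R] [StarOrderedRing R]

omit [PartialOrder R] [StarOrderedRing R] in
theorem pc_zero {x y : R} (h : x * y = y) (hx : ‖x‖ < 1) : y = 0 := by
  have h1 := norm_mul_le x y
  rw [h] at h1
  exact norm_le_zero_iff.1 (by nlinarith [norm_nonneg y])

omit [PartialOrder R] [StarOrderedRing R] in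
theorem pc_norm {x : R} {c : ℝ} (hc : 0 ≤ c) (h : ‖x * star x‖ ≤ c ^ 2) : ‖x‖ ≤ c := by
  rw [CStarRing.norm_self_mul_star, ← sq] at h
  exact (abs_le_of_sq_le_sq' h hc).2

omit [PartialOrder R] [StarOrderedRing R] in
theorem pc_inv {H : R} (hH : IsSelfAdjoint H) {κ : ℝ} (hκ : 0 < κ) :
    ∃ k : R, star k = k ∧ k * H * k * rp κ (2 * κ) H = rp κ (2 * κ) H := by
  obtain ⟨g, hg'⟩ : ∃ g, g = fun t : ℝ => (Real.sqrt (max t κ))⁻¹ := ⟨_, rfl⟩
  have hg : Continuous g := hg' ▸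
    Continuous.inv₀ (by fun_prop) fun t => (Real.sqrt_pos.2 (hκ.trans_le (le_max_right _ _))).ne'
  have hr := continuous_ramp κ (2 * κ)
  refine ⟨cfc g H, (cfc_predicate _ _ : IsSelfAdjoint _), ?_⟩
  have e : cfc (fun t : ℝ => g t * t * g t * ramp κ (2 * κ) t) H =
      cfc g H * H * cfc g H * rp κ (2 * κ) H := by
    rw [cfc_mul _ _ H, cfc_mul _ _ H, cfc_mul _ _ H, cfc_id' ℝ H, rp]
  rw [← e, rp]
  congr 1
  funext t
  rcases le_total t κ with h | h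
  · rw [(ramp_eq_zero_iff (by linarith)).2 h, mul_zero]
  · have h1 := Real.mul_self_sqrt (hκ.le.trans h)
    have h2 := (Real.sqrt_pos.2 (hκ.trans_le h)).ne'
    simp only [hg']
    rw [max_eq_left h, show (√t)⁻¹ * t * (√t)⁻¹ = 1 by
      nth_rw 2 [← h1]
      field_simp, one_mul]

/-- Hint: `H = e m q m* e ≥ 0`, `H ∈ A`, `κ = ε ^ 2 / 4`. `tw2` for `H` with levels `κ, 2κ, 3κ` gives
`z₁, z₂`, `f = rp (2κ) (3κ) H`. `k = cfc (fun t => (√(max t κ))⁻¹) H`, `k H k * rp κ (2κ) H =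
rp κ (2κ) H`, so `yᵢ = k zᵢ` has `yᵢ* H yⱼ = zᵢ* zⱼ`. `aᵢ = q m* e yᵢ`, `aᵢ* aⱼ = zᵢ* zⱼ`.
`μ = ((‖m‖ + 1) ^ 2)⁻¹`, `u₁ = nrm μ (e y₁)`, `u₂ = e (1 - rp (3κ) (4κ) H)`, `u = cmb u₁ u₂`,
`χ = rp 0 η (a₁ a₁*)` with `η = ε ^ 2 μ`, `q χ = χ`, `t = q (1 - χ)`.
`u₁* m t = r* a₁* (1 - χ)`, norm at most `√η / √μ` (`norm_cut_le`); `‖u₂* m q‖ ^ 2 = ‖(1 - r) H (1 - r)‖ ≤ 4κ`.
`χ a₂ = 0` so `t a₂ = a₂`: if `‖ρ t‖ < 1` then `ρ a₂ = 0`, `ρ (f f) = 0`, `ρ a₁ = 0`, `ρ χ = 0`,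
`ρ t = ρ q` is a projection of norm `< 1`. If `‖ρ u‖ < 1 / 2` then `‖ρ u₁‖ < 1`, so
`‖ρ (e y₁)‖ ^ 2 < μ`, `‖ρ a₁‖ < 1`, `‖ρ f‖ < 1`, `‖ρ H‖ < 3κ`, `ρ u₂ = ρ e`, and `‖ρ u₂‖ < 1`. -/
theorem pc {A : TwoSidedIdeal R} (hA : PI A) {q e : R} (hq : IsStarProjection q) (he : e ∈ A)
    (e0 : 0 ≤ e) (e1 : e ≤ 1) (m : R) {ε : ℝ} (hε : 0 < ε) :
    ∃ u t : R, ‖u‖ ≤ 1 ∧ ‖t‖ ≤ 1 ∧ Sup e u ∧ q * t = t ∧ ‖star u * m * t‖ ≤ ε ∧
      (∀ ρ : Rep R, ‖ρ u‖ < 1 / 2 → ‖ρ e‖ < 1) ∧ ∀ ρ : Rep R, ‖ρ t‖ < 1 → ρ q = 0 := by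
  have es : star e = e := (IsSelfAdjoint.of_nonneg e0).star_eq
  have qs : star q = q := hq.isSelfAdjoint.star_eq
  have qq : q * q = q := hq.isIdempotentElem
  have nq : ‖q‖ ≤ 1 := hq.norm_le q
  obtain ⟨n, hn⟩ : ∃ n, n = e * m * q := ⟨_, rfl⟩
  have ns : star n = q * star m * e := by rw [hn, star_mul, star_mul, es, qs, mul_assoc]
  have H0 : 0 ≤ n * star n := mul_star_self_nonneg n
  have Hs : IsSelfAdjoint (n * star n) := .of_nonneg H0
  have HA : n * star n ∈ A := by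
    rw [hn, mul_assoc, mul_assoc]
    exact A.mul_mem_right _ _ he
  obtain ⟨κ, hκ⟩ : ∃ κ, κ = ε ^ 2 / 4 := ⟨_, rfl⟩
  have κ0 : 0 < κ := by rw [hκ]; positivity
  obtain ⟨z₁, z₂, s1, s2, z11, z22, z12⟩ :=
    tw2 hA HA H0 κ0.le (show κ < 2 * κ by linarith) (show 2 * κ < 3 * κ by linarith)
  obtain ⟨k, ks, hk⟩ := pc_inv Hs κ0
  have aa : ∀ z z', Sup (rp κ (2 * κ) (n * star n)) z' →
      star (star n * (k * z)) * (star n * (k * z')) = star z * z' := fun z z' h => by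
    rw [star_mul, star_mul, star_star, ks]
    conv_rhs => rw [← h.plateau hk]
    simp only [mul_assoc]
  obtain ⟨a₁, ha₁⟩ : ∃ a, a = star n * (k * z₁) := ⟨_, rfl⟩
  obtain ⟨a₂, ha₂⟩ : ∃ a, a = star n * (k * z₂) := ⟨_, rfl⟩
  have a11 := (aa z₁ z₁ s1).trans z11
  have a22 := (aa z₂ z₂ s2).trans z22
  have a12 := (aa z₁ z₂ s2).trans z12
  rw [← ha₁] at a11 a12
  rw [← ha₂] at a22 a12
  have qa : ∀ z, q * (star n * z) = star n * z := fun z => by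
    rw [ns]
    simp only [← mul_assoc, qq]
  obtain ⟨L, hL⟩ : ∃ L, L = ‖m‖ + 1 := ⟨_, rfl⟩
  have L0 : 0 < L := by rw [hL]; positivity
  have μ0 : 0 < (L⁻¹) ^ 2 := by positivity
  have η0 : 0 < (ε / L) ^ 2 := by positivity
  obtain ⟨r, hr, nr⟩ := nrm_eq μ0 (e * (k * z₁))
  rw [Real.sqrt_sq (by positivity), inv_inv] at nr
  have A0 : 0 ≤ a₁ * star a₁ := mul_star_self_nonneg a₁
  have As : IsSelfAdjoint (a₁ * star a₁) := .of_nonneg A0
  have sχ := sup_rp_self le_rfl η0 As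
  have cχ := norm_cut_le le_rfl η0 A0
  have nχ := norm_one_sub_rp_le 0 ((ε / L) ^ 2) As
  have χs := star_rp 0 ((ε / L) ^ 2) (a₁ * star a₁)
  generalize rp 0 ((ε / L) ^ 2) (a₁ * star a₁) = χ at sχ cχ nχ χs
  have cs := norm_cut_le (show 0 ≤ 3 * κ by linarith) (show 3 * κ < 4 * κ by linarith) H0
  have nS := norm_one_sub_rp_le (3 * κ) (4 * κ) Hs
  have ss := star_rp (3 * κ) (4 * κ) (n * star n)
  refine ⟨cmb (nrm (L⁻¹ ^ 2) (e * (k * z₁))) (e * (1 - rp (3 * κ) (4 * κ) (n * star n))),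
    q * (1 - χ), norm_cmb_le (norm_nrm_le μ0 _) ((norm_mul_le _ _).trans
      (mul_le_one₀ (norm_le_one_of_le_one e0 e1) (norm_nonneg _) nS)),
    (norm_mul_le _ _).trans (mul_le_one₀ nq (norm_nonneg _) nχ),
    Sup.cmb (by rw [hr, mul_assoc]; exact Sup.mul_self _ _) (Sup.mul_self _ _),
    by rw [← mul_assoc, qq], ?_, fun ρ h => ?_, fun ρ h => ?_⟩
  · rw [mul_assoc]
    refine norm_cmb_mul_le ?_ ?_
    · have e1 : star (e * (k * z₁) * r) * (m * (q * (1 - χ))) =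
          star r * star ((1 - χ) * a₁) := by
        simp only [ha₁, hn, star_mul, star_star, star_sub, star_one, χs, es, mul_assoc]
      have e2 : ‖(1 - χ) * a₁‖ ≤ ε / L := pc_norm (by positivity) (by
        simpa only [star_mul, star_sub, star_one, χs, mul_assoc] using cχ)
      rw [hr, e1]
      refine (norm_mul_le _ _).trans ?_
      rw [norm_star, norm_star]
      refine (mul_le_mul nr e2 (norm_nonneg _) L0.le).trans (le_of_eq ?_)
      field_simp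
    · have e1 : star (e * (1 - rp (3 * κ) (4 * κ) (n * star n))) * (m * (q * (1 - χ))) =
          (1 - rp (3 * κ) (4 * κ) (n * star n)) * n * (1 - χ) := by
        rw [star_mul, star_sub, star_one, ss, es]
        generalize 1 - rp (3 * κ) (4 * κ) (n * star n) = S
        simp only [hn, mul_assoc]
      have e2 : ‖(1 - rp (3 * κ) (4 * κ) (n * star n)) * n‖ ≤ ε := pc_norm hε.le (by
        rw [show ε ^ 2 = 4 * κ by linarith]
        simpa only [star_mul, star_sub, star_one, ss, mul_assoc] using cs)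
      rw [e1]
      exact (norm_mul_le _ _).trans ((mul_le_of_le_one_right (norm_nonneg _) nχ).trans e2)
  · rw [map_cmb] at h
    have h2 := pow_lt_pow_left₀ h (norm_nonneg _) two_ne_zero
    have h3 := norm_left_le_cmb (ρ (nrm (L⁻¹ ^ 2) (e * (k * z₁))))
      (ρ (e * (1 - rp (3 * κ) (4 * κ) (n * star n))))
    have h4 := norm_right_le_cmb (ρ (nrm (L⁻¹ ^ 2) (e * (k * z₁))))
      (ρ (e * (1 - rp (3 * κ) (4 * κ) (n * star n))))
    have h5 : ‖ρ (e * (k * z₁))‖ ≤ L⁻¹ := by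
      refine (abs_le_of_sq_le_sq' (le_of_not_ge fun g => ?_) (by positivity)).2
      have := one_le_norm_nrm μ0 g
      rw [← map_nrm ρ.hom μ0] at this
      nlinarith
    have h6 : ‖ρ a₁‖ < 1 := by
      have e1 : a₁ = q * star m * (e * (k * z₁)) := by rw [ha₁, ns, mul_assoc]
      have e2 : ‖ρ (q * star m)‖ ≤ ‖m‖ := (norm_map_le _ _).trans ((norm_mul_le _ _).trans
        ((mul_le_of_le_one_left (norm_nonneg _) nq).trans (norm_star m).le))
      rw [e1, map_mul]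
      refine ((norm_mul_le _ _).trans (mul_le_mul e2 h5 (norm_nonneg _) (norm_nonneg _))).trans_lt ?_
      rw [← div_eq_mul_inv, div_lt_one L0]
      linarith
    have h7 : ‖ρ (rp (2 * κ) (3 * κ) (n * star n))‖ = ‖ρ a₁‖ := norm_eq_of_star_mul_self (by
      rw [← map_star, ← map_star, ← map_mul, ← map_mul, a11, star_rp])
    rw [← h7, map_rp ρ.hom _ _ Hs] at h6
    have h8 := norm_lt_of_norm_rp_lt (by linarith) (by linarith) (map_nonneg' ρ.hom H0) h6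
    rw [map_mul ρ.hom e (1 - _), map_sub, map_one, map_rp ρ.hom _ _ Hs,
      rp_eq_zero (by linarith) h8.le, sub_zero, mul_one] at h2 h4
    nlinarith [norm_nonneg (ρ e)]
  · have a21 : star a₂ * a₁ = 0 := by
      rw [← star_star a₁, ← star_mul, a12, star_zero]
    have c1 : star a₂ * χ = 0 := sχ.ann (by rw [← mul_assoc, a21, zero_mul])
    have c2 : χ * a₂ = 0 := by rw [← χs, ← star_star a₂, ← star_mul, c1, star_zero]
    have c3 : q * (1 - χ) * a₂ = a₂ := by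
      rw [mul_assoc, sub_mul, c2, sub_zero, one_mul, ha₂, qa]
    have c4 : ρ a₂ = 0 := pc_zero (by rw [← map_mul, c3]) h
    have c5 : ‖ρ a₁‖ = ‖ρ a₂‖ := norm_eq_of_star_mul_self (by
      rw [← map_star, ← map_star, ← map_mul, ← map_mul, a11, a22])
    rw [c4, norm_zero, norm_eq_zero] at c5
    have c6 : ρ χ = 0 := sχ.map_zero ρ.hom (by rw [map_mul, c5, zero_mul])
    rw [map_mul, map_sub, map_one, c6, sub_zero, mul_one] at h
    exact pc_zero (by rw [← map_mul, qq]) h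

end Vale.Agent.P133
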