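import Vale.Agent.P133.Nrm

/-! P133: pure infiniteness passes to quotients. -/

namespace Vale.Agent.P133

universe u
variable {R : Type u} [CStarAlgebra R] [PartialOrder R] [StarOrderedRing R]

/-- the image of a closed ideal under a star homomorphism is closed -/
theorem isClosed_image_ideal {M : Type*} [CStarAlgebra M] [PartialOrder M] [StarOrderedRing M]
    (φ : R →⋆ₐ[ℂ] M) {A : TwoSidedIdeal R} (hA : IsClosed (A : Set R)) :
    IsClosed (φ '' (A : Set R)) := by
  let K : AddSubgroup R :=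
    { carrier := (A : Set R)
      add_mem' := fun hx hy => A.add_mem hx hy
      zero_mem' := A.zero_mem
      neg_mem' := fun hx => A.neg_mem hx }
  have hK : IsClosed (K : Set R) := hA
  haveI : CompleteSpace K := hK.completeSpace_coe
  let f₀ : K →+ M :=
    { toFun := fun x => φ (x : R)
      map_zero' := by simp
      map_add' := fun x y => by simp }
  let f : NormedAddGroupHom K M :=
    f₀.mkNormedAddGroupHom 1 (fun x => by
      have h := norm_map_le φ (x : R)
      simpa [f₀] using h)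
  let L : AddSubgroup M :=
    { carrier := φ '' (A : Set R)
      add_mem' := by
        rintro _ _ ⟨x, hx, rfl⟩ ⟨y, hy, rfl⟩
        exact ⟨x + y, A.add_mem hx hy, map_add φ x y⟩
      zero_mem' := ⟨0, A.zero_mem, map_zero φ⟩
      neg_mem' := by
        rintro _ ⟨x, hx, rfl⟩
        exact ⟨-x, A.neg_mem hx, map_neg φ x⟩ }
  have hsur : f.SurjectiveOnWith L 2 := by
    rintro _ ⟨a, ha, rfl⟩
    by_cases h0 : φ a = 0
    · refine ⟨0, ?_, ?_⟩
      · rw [h0]; exact map_zero f
      · rw [h0]; simp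
    · have hpos : 0 < ‖φ a‖ := norm_pos_iff.mpr h0
      obtain ⟨ι, -, -, hι, hn⟩ := absorb φ (W := a) (ε := 2 * ‖φ a‖) (by linarith)
      refine ⟨⟨a * (1 - ι), A.mul_mem_right _ _ ha⟩, ?_, ?_⟩
      · show φ (a * (1 - ι)) = φ a
        rw [map_mul, map_sub, map_one, hι, sub_zero, mul_one]
      · exact hn.le
  have hcl := controlled_closure_of_complete (C := 2) (ε := 1) (by norm_num) (by norm_num) hsur
  refine isClosed_of_closure_subset ?_
  intro y hy
  obtain ⟨g, hg, -⟩ := hcl y hy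
  exact ⟨(g : R), g.2, hg⟩

/-- Hint: the image ideal. Closed: `controlled_closure_of_complete` (or a telescoping series), using
that `π a` with `a ∈ A` has the lift `a * (1 - ι) ∈ A` of nearly the same norm (`absorb`).
A positive `h` in the image has `rt h = π x` with `x ∈ A` (`sup_rt`, `Sup.mem`), so
`h = π (star x * x)`. -/
theorem PI.quot {A : TwoSidedIdeal R} (hA : PI A) (π : Rep R) (hs : Function.Surjective π.hom) :
    ∃ B : TwoSidedIdeal π.M, PI B ∧ ∀ x ∈ A, π x ∈ B := by
  let B : TwoSidedIdeal π.M := TwoSidedIdeal.mk' (π.hom '' (A : Set R))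
    ⟨0, A.zero_mem, map_zero _⟩
    (by
      rintro _ _ ⟨x, hx, rfl⟩ ⟨y, hy, rfl⟩
      exact ⟨x + y, A.add_mem hx hy, map_add _ x y⟩)
    (by
      rintro _ ⟨x, hx, rfl⟩
      exact ⟨-x, A.neg_mem hx, map_neg _ x⟩)
    (by
      rintro x _ ⟨y, hy, rfl⟩
      obtain ⟨z, rfl⟩ := hs x
      exact ⟨z * y, A.mul_mem_left _ _ hy, map_mul _ z y⟩)
    (by
      rintro _ y ⟨x, hx, rfl⟩
      obtain ⟨z, rfl⟩ := hs y
      exact ⟨x * z, A.mul_mem_right _ _ hx, map_mul _ x z⟩)
  have hmem : ∀ y, y ∈ B ↔ y ∈ π.hom '' (A : Set R) := fun y => TwoSidedIdeal.mem_mk' _ _ _ _ _ _ y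
  have hBc : IsClosed (B : Set π.M) := by
    have : (B : Set π.M) = π.hom '' (A : Set R) := Set.ext hmem
    rw [this]
    exact isClosed_image_ideal π.hom hA.closed
  refine ⟨B, ⟨hBc, ?_⟩, fun x hx => (hmem _).mpr ⟨x, hx, rfl⟩⟩
  intro h hB h0 ε hε
  have hsa : IsSelfAdjoint h := IsSelfAdjoint.of_nonneg h0
  have hr : rt h ∈ B := (sup_rt hsa).mem hBc hB
  obtain ⟨x, hx, hxe⟩ := (hmem _).mp hr
  have hh : π.hom (star x * x) = h := by
    rw [map_mul, map_star, hxe, (rt_sa h).star_eq, rt_mul_rt h0]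
  obtain ⟨s, t, h1, h2, h3⟩ :=
    hA.twin (star x * x) (A.mul_mem_left _ _ hx) (star_mul_self_nonneg x) ε hε
  refine ⟨π.hom s, π.hom t, ?_, ?_, ?_⟩
  · have := (norm_map_le π.hom _).trans_lt h1
    rwa [map_sub, map_mul, map_mul, map_star, hh] at this
  · have := (norm_map_le π.hom _).trans_lt h2
    rwa [map_sub, map_mul, map_mul, map_star, hh] at this
  · have := (norm_map_le π.hom _).trans_lt h3
    rwa [map_mul, map_mul, map_star, hh] at this

end Vale.Agent.P133
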