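import Vale.Agent.P133.Proj
import Vale.Agent.P133.Pc
import Vale.Agent.P133.QuoP

/-! P133: the low part and the quotient step of the orthogonalisation lemma. -/

namespace Vale.Agent.P133

universe u
variable {R : Type u} [CStarAlgebra R] [PartialOrder R] [StarOrderedRing R]

/-- Hint: `L = ε ^ 2 • (φ φ) - φ m* X X m φ`, `l = φ * pp L`. Then
` (X m l)* (X m l) = ε ^ 2 • (l* l) - pp L * L * pp L ≤ ε ^ 2 • (l* l)`. If `ρ X = 0` then
`ρ l = ε ^ 2 • (ρ φ) ^ 3` (`pp_of_nonneg`). -/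
theorem low {φ X : R} (hφ : IsSelfAdjoint φ) (hX : IsSelfAdjoint X) (m : R) {ε : ℝ} (hε : 0 < ε) :
    ∃ l : R, Sup φ l ∧ (∀ r, ‖X * m * (l * r)‖ ≤ ε * ‖l * r‖) ∧
      ∀ ρ : Rep R, ρ l = 0 → ρ X = 0 → ρ φ = 0 := by
  have _ := hX
  obtain ⟨L, hL⟩ : ∃ L : R, L = (ε ^ 2) • (φ * φ) - star (X * m * φ) * (X * m * φ) := ⟨_, rfl⟩
  have hφφ : φ * φ = star φ * φ := by rw [hφ.star_eq]
  have hLs : IsSelfAdjoint L := by
    rw [hL, hφφ]
    exact (IsSelfAdjoint.smul (star_trivial _) (IsSelfAdjoint.star_mul_self φ)).sub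
      (IsSelfAdjoint.star_mul_self _)
  refine ⟨φ * pp L, Sup.mul_self _ _, fun r => ?_, fun ρ h1 h2 => ?_⟩
  · have e : star (X * m * (φ * pp L * r)) * (X * m * (φ * pp L * r))
        = (ε ^ 2) • (star (φ * pp L * r) * (φ * pp L * r))
          - star r * (pp L * L * pp L) * r := by
      have e1 : star (X * m * φ) * (X * m * φ) = (ε ^ 2) • (φ * φ) - L := by
        rw [hL, sub_sub_cancel]
      have e2 : X * m * (φ * pp L * r) = X * m * φ * (pp L * r) := by simp only [mul_assoc]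
      rw [e2, star_mul (X * m * φ), mul_assoc, ← mul_assoc (star (X * m * φ)), e1]
      simp only [star_mul, hφ.star_eq, (pp_sa L).star_eq, mul_sub, sub_mul, mul_assoc,
        smul_mul_assoc, mul_smul_comm]
    have h1 : star (X * m * (φ * pp L * r)) * (X * m * (φ * pp L * r))
        ≤ (ε ^ 2) • (star (φ * pp L * r) * (φ * pp L * r)) := by
      rw [e]
      exact sub_le_self _ (star_left_conjugate_nonneg (pp_conj_nonneg hLs) r)
    have h2 := CStarAlgebra.norm_le_norm_of_nonneg_of_le (star_mul_self_nonneg _) h1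
    rw [norm_smul, CStarRing.norm_star_mul_self, CStarRing.norm_star_mul_self,
      Real.norm_of_nonneg (sq_nonneg ε)] at h2
    refine abs_le_of_sq_le_sq' ?_ (by positivity) |>.2
    rw [mul_pow, pow_two ‖X * m * (φ * pp L * r)‖, pow_two ‖φ * pp L * r‖]
    exact h2
  · have hs : star (ρ.hom φ) = ρ.hom φ := by rw [← map_star, hφ.star_eq]
    have e1 : ρ.hom L = (ε ^ 2) • (ρ.hom φ * ρ.hom φ) := by
      have h3 : ρ.hom X = 0 := h2
      rw [hL, map_sub, map_rsmul, map_mul, map_mul, map_mul ρ.hom (X * m), map_mul ρ.hom X, h3,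
        zero_mul, zero_mul, mul_zero, sub_zero]
    have e2 : 0 ≤ ρ.hom L := by
      rw [e1]
      nth_rewrite 1 [← hs]
      exact smul_nonneg (sq_nonneg ε) (star_mul_self_nonneg _)
    have h3 : ρ.hom (φ * pp L) = 0 := h1
    rw [map_mul, map_pp ρ.hom hLs, pp_of_nonneg e2, e1, mul_smul_comm,
      smul_eq_zero_iff_right (pow_ne_zero 2 hε.ne')] at h3
    have h4 : ρ.hom φ * ρ.hom φ = 0 := eq_zero_of_star_mul_self (by
      rw [star_mul, hs, mul_assoc, h3, mul_zero])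
    exact eq_zero_of_star_mul_self (by rw [hs]; exact h4)

/-- Hint: `π` from `exists_quot_kill l`, `B` from `PI.quot`. In `π.M` apply `proj` to `π h`,
`X = rp (b + 2d) (b + 3d) (π h)`, levels `b, b + d, b + 2d` (hypothesis via `Rep.comp τ`), then `pc`
to `q`, `e = rp (b + 4d) (b + 5d) (π h)`, `π m`. Lift `u', t'` by `lift_contr` to `u'', t''` and put
`u = rp (b + 3d) (b + 4d) h * u''`, `t = rp b (b + d) h * t''`; then `π u = u'`, `π t = t'`
(`Sup.plateau`). For `ρ l = 0` use the `τ` of `exists_quot_kill` and `norm_map_le`. -/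
theorem mq {A : TwoSidedIdeal R} (hA : PI A) {h : R} (hh : h ∈ A) (h0 : 0 ≤ h) (m : R)
    {b d ε : ℝ} (hb : 0 ≤ b) (hd : 0 < d) (hε : 0 < ε) (l : R)
    (hl : ∀ ρ : Rep R, ρ l = 0 → ρ (rp (b + 2 * d) (b + 3 * d) h) = 0 → ‖ρ h‖ ≤ b) :
    ∃ u t : R, ‖u‖ ≤ 1 ∧ ‖t‖ ≤ 1 ∧ Sup (rp (b + 3 * d) (b + 4 * d) h) u ∧ Sup (rp b (b + d) h) t ∧
      ∀ ρ : Rep R, ρ l = 0 → ‖ρ (star u * m * t)‖ ≤ ε ∧ (‖ρ u‖ < 1 / 2 → ‖ρ h‖ ≤ b + 5 * d) ∧
        (‖ρ t‖ < 1 → ‖ρ h‖ ≤ b + d) := by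
  obtain ⟨π, hs, hπ, hk⟩ := exists_quot_kill l
  obtain ⟨B, hB, hAB⟩ := hA.quot π hs
  have hsa : IsSelfAdjoint h := IsSelfAdjoint.of_nonneg h0
  have g0 : 0 ≤ π.hom h := map_nonneg' π.hom h0
  have gsa : IsSelfAdjoint (π.hom h) := IsSelfAdjoint.of_nonneg g0
  have gB : π.hom h ∈ B := hAB h hh
  obtain ⟨q, hq, hq1, hq2⟩ := proj hB (X := rp (b + 2 * d) (b + 3 * d) (π.hom h)) g0
    (rp_mem (by linarith) (by linarith) gsa hB.closed gB) (rp_nonneg _ _ _)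
    (α := b) (β := b + d) (γ := b + 2 * d) (by linarith) (by linarith)
    (rp_mul_rp (by linarith) le_rfl (by linarith) _) fun τ hτ =>
      hl (Rep.comp τ) (by
        have h1 : π.hom l = 0 := hπ
        show τ.hom (π.hom l) = 0
        rw [h1, map_zero]) (by
        show τ.hom (π.hom _) = 0
        rw [map_rp π.hom _ _ hsa]
        exact hτ)
  obtain ⟨u', t', hu', ht', su, qt, hm, lu, lt⟩ := pc hB hq
    (e := rp (b + 4 * d) (b + 5 * d) (π.hom h))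
    (rp_mem (by linarith) (by linarith) gsa hB.closed gB) (rp_nonneg _ _ _) (rp_le_one _ _ _)
    (π.hom m) hε
  obtain ⟨u, eu, nu⟩ := lift_contr π.hom hs hu'
  obtain ⟨t, et, nt⟩ := lift_contr π.hom hs ht'
  have e1 : π.hom (rp (b + 3 * d) (b + 4 * d) h * u) = u' := by
    rw [map_mul, map_rp π.hom _ _ hsa, eu]
    exact su.plateau (rp_mul_rp (by linarith) le_rfl (by linarith) _)
  have e2 : π.hom (rp b (b + d) h * t) = t' := by
    rw [map_mul, map_rp π.hom _ _ hsa, et]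
    have s1 := hq1.mul_right t'
    rw [qt] at s1
    exact s1.plateau (rp_mul_rp (by linarith) le_rfl (by linarith) _)
  have nn : ∀ (α β : ℝ) (x : R), ‖x‖ ≤ 1 → ‖rp α β h * x‖ ≤ 1 := fun α β x hx =>
    (norm_mul_le _ _).trans (mul_le_one₀ (norm_rp_le_one _ _ _) (norm_nonneg _) hx)
  refine ⟨_, _, nn _ _ u nu, nn _ _ t nt, Sup.mul_self _ _, Sup.mul_self _ _, fun ρ hρ => ?_⟩
  obtain ⟨τ, hτ⟩ := hk ρ hρ
  have t0 : 0 ≤ τ.hom (π.hom h) := map_nonneg' τ.hom g0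
  refine ⟨?_, fun h1 => ?_, fun h1 => ?_⟩
  · rw [← hτ]
    refine (norm_map_le τ.hom _).trans ?_
    show ‖π.hom _‖ ≤ ε
    rw [map_mul, map_mul, map_star, e1, e2]
    exact hm
  · rw [← hτ] at h1 ⊢
    have h2 : ‖τ.hom (rp (b + 4 * d) (b + 5 * d) (π.hom h))‖ < 1 := lu τ (e1 ▸ h1)
    rw [map_rp τ.hom _ _ gsa] at h2
    exact (norm_lt_of_norm_rp_lt (by linarith) (by linarith) t0 h2).le
  · rw [← hτ] at h1 ⊢
    have h2 : τ.hom (rp (b + d) (b + 2 * d) (π.hom h)) = 0 := hq2 τ (lt τ (e2 ▸ h1))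
    rw [map_rp τ.hom _ _ gsa] at h2
    exact norm_le_of_rp_eq_zero (by linarith) (by linarith) t0 h2

end Vale.Agent.P133
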