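import Vale.Agent.P133.Mm

/-! P133: the not-equal lemma. -/

namespace Vale.Agent.P133

universe u
variable {R : Type u} [CStarAlgebra R] [PartialOrder R] [StarOrderedRing R]

/-- The two normalised elements with a small pairing. -/
theorem ne_uv {A : TwoSidedIdeal R} (hA : PI A) {x : R} (hx : x ∈ A) (x0 : 0 ≤ x) (m : R)
    {d : ℝ} (hd : 0 < d) : ∃ u v : R, rp (3 * d) (4 * d) x * u = u ∧ rp (3 * d) (4 * d) x * v = v ∧
      star u * u = rp (11 * d) (12 * d) x * rp (11 * d) (12 * d) x ∧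
      star v * v = rp (11 * d) (12 * d) x * rp (11 * d) (12 * d) x ∧ ‖star u * m * v‖ ≤ 1 / 16 := by
  obtain ⟨u, v, -, -, s1, s2, h, l1, l2⟩ := mm hA hx x0 m (b := 4 * d) (by linarith) hd
    (show (0 : ℝ) < 1 / 1600 by norm_num)
  have hm := rp_mem (show 0 ≤ 4 * d by linarith) (show 4 * d < 4 * d + d by linarith)
    (IsSelfAdjoint.of_nonneg x0) hA.closed hx
  have hp := rp_mul_rp (show 3 * d < 4 * d by linarith) le_rfl
    (show 4 * d < 4 * d + d by linarith) x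
  obtain ⟨r, nr, hr⟩ := norma hA x0 (s1.mem hA.closed hm) (by norm_num) l1
    (show 4 * d + 6 * d < 11 * d by linarith) (show 11 * d < 12 * d by linarith)
  obtain ⟨r', nr', hr'⟩ := norma hA x0 (s2.mem hA.closed hm) (by norm_num) l2
    (show 4 * d + 6 * d < 11 * d by linarith) (show 11 * d < 12 * d by linarith)
  refine ⟨u * r, v * r', (s1.mul_right r).plateau hp, (s2.mul_right r').plateau hp, hr, hr', ?_⟩
  have e : star (u * r) * m * (v * r') = star r * (star u * m * v) * r' := by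
    simp only [star_mul, mul_assoc]
  rw [e]
  refine (norm_mul₃_le).trans ?_
  rw [norm_star]
  refine (mul_le_mul (mul_le_mul nr h (norm_nonneg _) (by norm_num)) nr' (norm_nonneg _)
    (by norm_num)).trans ?_
  norm_num

omit [PartialOrder R] [StarOrderedRing R] in
theorem ne_iso {Z P u : R} (hZ : star Z * Z = P * P) (hu : P * u = u) :
    star (Z * u) * (Z * u) = star u * u := by
  rw [star_mul, mul_assoc, ← mul_assoc (star Z), hZ, mul_assoc, hu, hu]

omit [PartialOrder R] [StarOrderedRing R] in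
theorem ne_orth {Z Z' : R} (hZ : star Z * Z' = 0) (u v : R) : star (Z * u) * (Z' * v) = 0 := by
  rw [star_mul, mul_assoc, ← mul_assoc (star Z), hZ, zero_mul, mul_zero]

omit [PartialOrder R] [StarOrderedRing R] in
theorem ne_flip {a b : R} (h : star a * b = 0) : star b * a = 0 := by
  rw [← star_star a, ← star_mul, h, star_zero]

/-- Hint: `Z₁, Z₂, Z₃` from `tw3` for `x` with levels `2d, 3d, 4d`, `P = rp (3d) (4d) x`,
`Y = rp (2d) (3d) y`. `mm` for `x` with base `4d`, step `d`, `m = Z₂* Y Z₃`, `ε = 1 / 1600` gives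
`u₀, v₀` (`P u₀ = u₀`, `P v₀ = v₀`); `norma` with `c = 1 / 5`, levels `10d, 11d, 12d` gives `r, r'`
of norm `≤ 10`; `H = rp (11d) (12d) x`. `u = Z₂ u₀ r`, `v = Z₃ v₀ r'`: `u* u = v* v = H H`,
`u* v = 0`, `Z₁* u = Z₁* v = 0`, `‖u* Y v‖ ≤ 1 / 16`. `F = rp (12d) (13d) x`, `G = rp (13d) (14d) x`,
`X₁ = Z₁ F F Z₁*`, `T = (1 / 8) • (u + v) (u + v)*`, `X = X₁ + T`, `e = Z₁ G G Z₁*`. `‖T‖ ≤ 1 / 4`,
`X₁ T = 0` so `X X = X₁ X₁ + T T ≤ X` and `‖X‖ ≤ 1`. `u* X v = (1 / 8) • H ^ 4`. If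
`‖ρ (X - Y)‖ < 1 / 16` then `‖ρ H‖ ^ 4 / 8 < 1 / 8`, so `‖ρ x‖ < 12d`, `ρ F = 0`, `ρ X = ρ T`,
`‖ρ Y‖ < 1`. If `ρ e = 0` then `ρ (Z₁ G) = 0` and `ρ (G G) = 0`. -/
theorem ne {A : TwoSidedIdeal R} (hA : PI A) {x y : R} (hx : x ∈ A) (x0 : 0 ≤ x) (y0 : 0 ≤ y)
    {d : ℝ} (hd : 0 < d) :
    ∃ X e : R, 0 ≤ X ∧ X ≤ 1 ∧ Sup (rp (2 * d) (3 * d) x) X ∧ 0 ≤ e ∧ X * e = e ∧
      (∀ ρ : Rep R, ρ e = 0 → ‖ρ x‖ ≤ 13 * d) ∧
      ∀ ρ : Rep R, ‖ρ (X - rp (2 * d) (3 * d) y)‖ < 1 / 16 → ‖ρ x‖ ≤ 12 * d ∧ ‖ρ y‖ ≤ 3 * d := by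
  have xs : IsSelfAdjoint x := .of_nonneg x0
  have ys : IsSelfAdjoint y := .of_nonneg y0
  obtain ⟨Z₁, Z₂, Z₃, s1, s2, s3, z1, z2, z3, z12, z13, z23⟩ := tw3 hA hx x0
    (show 0 ≤ 2 * d by linarith) (show 2 * d < 3 * d by linarith) (show 3 * d < 4 * d by linarith)
  obtain ⟨Y, hY⟩ : ∃ Y, Y = rp (2 * d) (3 * d) y := ⟨_, rfl⟩
  obtain ⟨u₀, v₀, pu, pv, uu, vv, uv⟩ := ne_uv hA hx x0 (star Z₂ * Y * Z₃) hd
  have pF := rp_mul_rp (show 3 * d < 4 * d by linarith) (show 4 * d ≤ 12 * d by linarith)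
    (show 12 * d < 13 * d by linarith) x
  have pG := rp_mul_rp (show 3 * d < 4 * d by linarith) (show 4 * d ≤ 13 * d by linarith)
    (show 13 * d < 14 * d by linarith) x
  have FG := rp_mul_rp (show 12 * d < 13 * d by linarith) le_rfl
    (show 13 * d < 14 * d by linarith) x
  obtain ⟨F, hF⟩ : ∃ F, F = rp (12 * d) (13 * d) x := ⟨_, rfl⟩
  obtain ⟨G, hG⟩ : ∃ G, G = rp (13 * d) (14 * d) x := ⟨_, rfl⟩
  obtain ⟨H, hH⟩ : ∃ H, H = rp (11 * d) (12 * d) x := ⟨_, rfl⟩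
  have Fs : star F = F := hF ▸ star_rp _ _ _
  have Hs : star H = H := hH ▸ star_rp _ _ _
  have nF : ‖F‖ ≤ 1 := hF ▸ norm_rp_le_one _ _ _
  have nH : ‖H‖ ≤ 1 := hH ▸ norm_rp_le_one _ _ _
  rw [← hF] at pF FG
  rw [← hG] at pG FG
  rw [← hH] at uu vv
  rw [← hY]
  have a1 := (ne_iso z2 pu).trans uu
  have a2 := (ne_iso z3 pv).trans vv
  have a3 := ne_orth z23 u₀ v₀
  have a4 : ∀ c, star (Z₁ * c) * (Z₂ * u₀) = 0 := fun c => ne_orth z12 c u₀
  have a5 : ∀ c, star (Z₁ * c) * (Z₃ * v₀) = 0 := fun c => ne_orth z13 c v₀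
  have a6 : ‖star (Z₂ * u₀) * Y * (Z₃ * v₀)‖ ≤ 1 / 16 := by
    simpa only [star_mul, mul_assoc] using uv
  have su := s2.mul_right u₀
  have sv := s3.mul_right v₀
  generalize Z₂ * u₀ = u at a1 a3 a4 a6 su
  generalize Z₃ * v₀ = v at a2 a3 a5 a6 sv
  have a7 : ∀ c, star (Z₁ * c) * (u + v) = 0 := fun c => by rw [mul_add, a4, a5, add_zero]
  have b1 : star (Z₁ * F) * (Z₁ * F) = F * F := by rw [ne_iso z1 pF, Fs]
  have b2 : star (Z₁ * F) * (Z₁ * G) = G := by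
    rw [star_mul, Fs, mul_assoc, ← mul_assoc (star Z₁), z1, mul_assoc, pG, pG, FG]
  have nu := norm_le_one_of_star_mul_self a1 nH
  have nv := norm_le_one_of_star_mul_self a2 nH
  have nZ := norm_le_one_of_star_mul_self b1 nF
  obtain ⟨T, hT⟩ : ∃ T, T = (1 / 8 : ℝ) • ((u + v) * star (u + v)) := ⟨_, rfl⟩
  have T0 : 0 ≤ T := hT ▸ smul_nonneg (by norm_num) (mul_star_self_nonneg _)
  have nT : ‖T‖ ≤ 1 / 2 := by
    have h1 : ‖u + v‖ ≤ 2 := (norm_add_le _ _).trans (by linarith)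
    rw [hT, norm_smul, CStarRing.norm_self_mul_star, Real.norm_of_nonneg (by norm_num)]
    nlinarith [norm_nonneg (u + v)]
  have X0 : 0 ≤ Z₁ * F * star (Z₁ * F) := mul_star_self_nonneg _
  have nX : ‖Z₁ * F * star (Z₁ * F) + T‖ ≤ 1 := by
    rw [(IsSelfAdjoint.of_nonneg X0).norm_add_eq_max (.of_nonneg T0) (by
      rw [hT, mul_smul_comm, mul_assoc, ← mul_assoc (star (Z₁ * F)), a7, zero_mul, mul_zero,
        smul_zero]), CStarRing.norm_self_mul_star]
    exact max_le (mul_le_one₀ nZ (norm_nonneg _) nZ) (by linarith)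
  refine ⟨Z₁ * F * star (Z₁ * F) + T, Z₁ * G * star (Z₁ * G), add_nonneg X0 T0, ?_,
    ((s1.mul_right F).mul_right _).add (hT ▸ ((su.add sv).mul_right _).smul _),
    mul_star_self_nonneg _, ?_, fun ρ h => ?_, fun ρ h => ?_⟩
  · have := le_norm_smul_one (IsSelfAdjoint.of_nonneg (add_nonneg X0 T0)) nX
    rwa [one_smul] at this
  · rw [← mul_assoc, add_mul, mul_assoc (Z₁ * F), b2, hT, smul_mul_assoc, mul_assoc (u + v),
      ne_flip (a7 G), mul_zero, smul_zero, add_zero, mul_assoc Z₁ F, FG]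
  · have h1 : ρ (star (Z₁ * G)) = 0 := eq_zero_of_star_mul_self (by
      rw [← map_star, ← map_mul, star_star, h])
    have h2 : ρ G = 0 := eq_zero_of_star_mul_self (by
      rw [← map_star, ← map_mul, ← ne_iso z1 pG, map_mul, h1, zero_mul])
    rw [hG, map_rp ρ.hom _ _ xs] at h2
    exact norm_le_of_rp_eq_zero (by linarith) (by linarith) (map_nonneg' ρ.hom x0) h2
  · have c1 : star u * (Z₁ * F * star (Z₁ * F) + T) * v =
        (1 / 8 : ℝ) • (star (star H * H) * (star H * H)) := by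
      have d1 : star u * (u + v) = H * H := by rw [mul_add, a1, a3, add_zero]
      have d2 : star (u + v) * v = H * H := by rw [star_add, add_mul, a2, a3, zero_add]
      rw [mul_add, ← mul_assoc, ne_flip (a4 F), zero_mul, zero_add, hT, mul_smul_comm,
        smul_mul_assoc, ← mul_assoc, d1, mul_assoc (H * H), d2, Hs, star_mul, Hs]
    have c2 : star u * (Z₁ * F * star (Z₁ * F) + T) * v =
        star u * (Z₁ * F * star (Z₁ * F) + T - Y) * v + star u * Y * v := by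
      rw [← add_mul, ← mul_add, sub_add_cancel]
    have c3 : ‖ρ (star u * (Z₁ * F * star (Z₁ * F) + T - Y) * v)‖ < 1 / 16 := by
      refine lt_of_le_of_lt ?_ h
      rw [map_mul, map_mul]
      refine (norm_mul_le _ _).trans ((mul_le_of_le_one_right (norm_nonneg _)
        ((norm_map_le _ _).trans nv)).trans ((norm_mul_le _ _).trans
          (mul_le_of_le_one_left (norm_nonneg _) ((norm_map_le _ _).trans ?_))))
      rwa [norm_star]
    have c4 := (norm_map_le ρ.hom _).trans a6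
    have c5 := norm_add_le (ρ (star u * (Z₁ * F * star (Z₁ * F) + T - Y) * v))
      (ρ (star u * Y * v))
    rw [← map_add, ← c2, c1, map_rsmul, norm_smul, map_mul, map_star, CStarRing.norm_star_mul_self,
      map_mul, map_star, CStarRing.norm_star_mul_self, Real.norm_of_nonneg (by norm_num)] at c5
    have c6 : ‖ρ H‖ < 1 := by
      by_contra g
      have g1 := one_le_mul_of_one_le_of_one_le (not_lt.1 g) (not_lt.1 g)
      have g2 := one_le_mul_of_one_le_of_one_le g1 g1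
      linarith
    rw [hH, map_rp ρ.hom _ _ xs] at c6
    have c7 := norm_lt_of_norm_rp_lt (by linarith) (by linarith) (map_nonneg' ρ.hom x0) c6
    have c8 : ρ F = 0 := by
      rw [hF, map_rp ρ.hom _ _ xs]
      exact rp_eq_zero (by linarith) c7.le
    rw [map_sub, map_add, map_mul, map_mul, c8, mul_zero, zero_mul, zero_add] at h
    have c9 : ‖ρ Y‖ < 1 := by
      have g1 := norm_sub_norm_le (ρ Y) (ρ T)
      rw [norm_sub_rev] at g1
      linarith [norm_map_le ρ.hom T]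
    rw [hY, map_rp ρ.hom _ _ ys] at c9
    exact ⟨c7.le,
      (norm_lt_of_norm_rp_lt (by linarith) (by linarith) (map_nonneg' ρ.hom y0) c9).le⟩

end Vale.Agent.P133
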