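import Vale.Agent.P133.Ro

/-! P133: normalisation `nrm`, combination `cmb`, absorption and contractive lifts. -/

set_option linter.unusedSectionVars false

namespace Vale.Agent.P133

variable {R M : Type*} [CStarAlgebra R] [CStarAlgebra M] [PartialOrder R] [StarOrderedRing R]
  [PartialOrder M] [StarOrderedRing M]

theorem Nrm_cont {μ : ℝ} (hμ : 0 < μ) : Continuous fun t : ℝ => (Real.sqrt (max t μ))⁻¹ :=
  ((continuous_id.max continuous_const).sqrt).inv₀ fun t =>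
    (Real.sqrt_pos.2 (hμ.trans_le (le_max_right t μ))).ne'

theorem Nrm_sq {μ : ℝ} (hμ : 0 < μ) (w : R) :
    star (nrm μ w) * nrm μ w = cfc (fun t : ℝ => t / max t μ) (star w * w) := by
  have ha : IsSelfAdjoint (star w * w) := IsSelfAdjoint.star_mul_self w
  have hc := (Nrm_cont hμ).continuousOn (s := spectrum ℝ (star w * w))
  have e : (fun t : ℝ => t / max t μ) =
      fun t : ℝ => (Real.sqrt (max t μ))⁻¹ * (t * (Real.sqrt (max t μ))⁻¹) := by
    funext t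
    rw [mul_left_comm, ← mul_inv, Real.mul_self_sqrt (hμ.le.trans (le_max_right t μ)),
      div_eq_mul_inv]
  rw [e, cfc_mul _ (fun t : ℝ => t * (Real.sqrt (max t μ))⁻¹) _ hc (continuousOn_id.mul hc),
    cfc_mul (fun t : ℝ => t) _ _ continuousOn_id hc, cfc_id' ℝ _ ha, nrm, star_mul, (cfc_predicate _ _ : IsSelfAdjoint _).star_eq]
  simp only [mul_assoc]

theorem Nrm_nn (u v : R) : 0 ≤ (1 / 2 : ℝ) • (u * star u + v * star v) := by
  have := rsmul_le_rsmul (add_nonneg (mul_star_self_nonneg u) (mul_star_self_nonneg v))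
    (c := 1 / 2) (by norm_num)
  rwa [smul_zero] at this

theorem norm_nrm_le {μ : ℝ} (hμ : 0 < μ) (w : R) : ‖nrm μ w‖ ≤ 1 := by
  have h : ‖nrm μ w‖ * ‖nrm μ w‖ ≤ 1 := by
    rw [← CStarRing.norm_star_mul_self, Nrm_sq hμ]
    refine norm_cfc_le zero_le_one fun t ht => ?_
    have h0 : 0 ≤ t := spectrum_nonneg_of_nonneg (star_mul_self_nonneg w) ht
    have h1 : 0 < max t μ := hμ.trans_le (le_max_right t μ)
    rw [Real.norm_of_nonneg (div_nonneg h0 h1.le), div_le_one h1]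
    exact le_max_left t μ
  nlinarith [norm_nonneg (nrm μ w)]

theorem nrm_eq {μ : ℝ} (hμ : 0 < μ) (w : R) :
    ∃ r, nrm μ w = w * r ∧ ‖r‖ ≤ (Real.sqrt μ)⁻¹ := by
  refine ⟨_, rfl, norm_cfc_le (by positivity) fun t _ => ?_⟩
  rw [Real.norm_of_nonneg (by positivity)]
  exact inv_anti₀ (Real.sqrt_pos.2 hμ) (Real.sqrt_le_sqrt (le_max_right t μ))

theorem one_le_norm_nrm {μ : ℝ} (hμ : 0 < μ) {w : R} (h : μ ≤ ‖w‖ ^ 2) : 1 ≤ ‖nrm μ w‖ := by
  rcases subsingleton_or_nontrivial R with hR | hR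
  · rw [Subsingleton.elim w 0, norm_zero] at h
    linarith
  have e : ‖star w * w‖ = ‖w‖ ^ 2 := by rw [CStarRing.norm_star_mul_self, pow_two]
  have h1 := norm_apply_le_norm_cfc (fun t : ℝ => t / max t μ) (star w * w)
    (CStarAlgebra.norm_mem_spectrum_of_nonneg (star_mul_self_nonneg w))
    ((continuous_id.div (continuous_id.max continuous_const) fun t =>
      (hμ.trans_le (le_max_right t μ)).ne').continuousOn) (IsSelfAdjoint.star_mul_self w)
  rw [← Nrm_sq hμ, CStarRing.norm_star_mul_self (x := nrm μ w), e, max_eq_left h,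
    div_self (hμ.trans_le h).ne', norm_one] at h1
  nlinarith [norm_nonneg (nrm μ w)]

theorem map_nrm (φ : R →⋆ₐ[ℂ] M) {μ : ℝ} (hμ : 0 < μ) (w : R) : φ (nrm μ w) = nrm μ (φ w) := by
  rw [nrm, nrm, map_mul, map_cfcR φ (Nrm_cont hμ) (IsSelfAdjoint.star_mul_self w), map_mul,
    map_star]

theorem nrm_one {w : R} (h : ‖w‖ ≤ 1) : nrm 1 w = w := by
  have ha : IsSelfAdjoint (star w * w) := IsSelfAdjoint.star_mul_self w
  have h1 := (CFC.le_one_iff (R := ℝ) (star w * w) ha).1 (star_mul_self_le_one h)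
  rw [nrm, cfc_congr (g := fun _ : ℝ => (1 : ℝ)) fun t ht => by
    simp only [max_eq_right (h1 t ht), Real.sqrt_one, inv_one], cfc_const_one ℝ _ ha, mul_one]

theorem star_cmb (u v : R) : star (cmb u v) = cmb u v := by
  exact (rt_sa _).star_eq

theorem cmb_mul_cmb (u v : R) :
    cmb u v * cmb u v = (1 / 2 : ℝ) • (u * star u + v * star v) := by
  exact rt_mul_rt (Nrm_nn u v)

theorem map_cmb (φ : R →⋆ₐ[ℂ] M) (u v : R) : φ (cmb u v) = cmb (φ u) (φ v) := by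
  rw [cmb, cmb, map_rt φ (IsSelfAdjoint.of_nonneg (Nrm_nn u v)), map_rsmul, map_add, map_mul,
    map_mul, map_star, map_star]

theorem norm_cmb_mul_le {u v W : R} {ε : ℝ} (h1 : ‖star u * W‖ ≤ ε) (h2 : ‖star v * W‖ ≤ ε) :
    ‖star (cmb u v) * W‖ ≤ ε := by
  have h0 : 0 ≤ ε := (norm_nonneg _).trans h1
  have e : star (star (cmb u v) * W) * (star (cmb u v) * W) = (1 / 2 : ℝ) •
      (star (star u * W) * (star u * W) + star (star v * W) * (star v * W)) := by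
    rw [star_cmb, star_mul, star_cmb, mul_assoc, ← mul_assoc (cmb u v), cmb_mul_cmb]
    simp only [star_mul, star_star, smul_mul_assoc, mul_smul_comm, add_mul, mul_add, mul_assoc]
  have h3 : ‖star (cmb u v) * W‖ * ‖star (cmb u v) * W‖ ≤ ε * ε := by
    rw [← CStarRing.norm_star_mul_self, e, norm_smul, Real.norm_of_nonneg (by norm_num)]
    have h4 := norm_add_le (star (star u * W) * (star u * W)) (star (star v * W) * (star v * W))
    rw [CStarRing.norm_star_mul_self, CStarRing.norm_star_mul_self] at h4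
    have h5 := mul_self_le_mul_self (norm_nonneg _) h1
    have h6 := mul_self_le_mul_self (norm_nonneg _) h2
    linarith
  exact (mul_self_le_mul_self_iff (norm_nonneg _) h0).2 h3

theorem norm_mul_cmb_le {u v W : R} {ε : ℝ} (h1 : ‖W * u‖ ≤ ε) (h2 : ‖W * v‖ ≤ ε) :
    ‖W * cmb u v‖ ≤ ε := by
  rw [← norm_star, star_mul] at h1 h2 ⊢
  exact norm_cmb_mul_le h1 h2

theorem norm_cmb_le {u v : R} (h1 : ‖u‖ ≤ 1) (h2 : ‖v‖ ≤ 1) : ‖cmb u v‖ ≤ 1 := by
  simpa using norm_mul_cmb_le (W := 1) (u := u) (v := v) (ε := 1) (by simpa) (by simpa)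

theorem Nrm_two (u v : R) : ‖u * star u + v * star v‖ = 2 * ‖cmb u v‖ ^ 2 := by
  have h := CStarRing.norm_star_mul_self (x := cmb u v)
  rw [star_cmb, cmb_mul_cmb, norm_smul, Real.norm_of_nonneg (by norm_num)] at h
  rw [pow_two, ← h]
  ring

theorem norm_left_le_cmb (u v : R) : ‖u‖ ^ 2 ≤ 2 * ‖cmb u v‖ ^ 2 := by
  rw [← Nrm_two, pow_two, ← CStarRing.norm_self_mul_star]
  exact CStarAlgebra.norm_le_norm_of_nonneg_of_le (mul_star_self_nonneg u)
    (le_add_of_nonneg_right (mul_star_self_nonneg v))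

theorem norm_right_le_cmb (u v : R) : ‖v‖ ^ 2 ≤ 2 * ‖cmb u v‖ ^ 2 := by
  rw [← Nrm_two, pow_two, ← CStarRing.norm_self_mul_star]
  exact CStarAlgebra.norm_le_norm_of_nonneg_of_le (mul_star_self_nonneg v)
    (le_add_of_nonneg_left (mul_star_self_nonneg u))

theorem Sup.cmb {b u v : R} (h1 : Sup b u) (h2 : Sup b v) : Sup b (cmb u v) := by
  exact (((h1.mul_right _).add (h2.mul_right _)).smul _).trans
    (sup_rt (IsSelfAdjoint.of_nonneg (Nrm_nn u v)))

/-- Hint: `ι = rp s t (star W * W)` with `‖φ W‖ ^ 2 ≤ s < t < ε ^ 2`, then `norm_cut_le`. -/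
theorem absorb (φ : R →⋆ₐ[ℂ] M) {W : R} {ε : ℝ} (h : ‖φ W‖ < ε) :
    ∃ ι : R, 0 ≤ ι ∧ ι ≤ 1 ∧ φ ι = 0 ∧ ‖W * (1 - ι)‖ < ε := by
  have h0 := norm_nonneg (φ W)
  have h1 : ‖φ W‖ * ‖φ W‖ < ε * ε := mul_self_lt_mul_self h0 h
  have h2 : ‖φ W‖ * ‖φ W‖ < (‖φ W‖ * ‖φ W‖ + ε * ε) / 2 := by linarith
  refine ⟨rp (‖φ W‖ * ‖φ W‖) ((‖φ W‖ * ‖φ W‖ + ε * ε) / 2) (star W * W), rp_nonneg _ _ _,
    rp_le_one _ _ _, ?_, ?_⟩
  · rw [map_rp φ _ _ (IsSelfAdjoint.star_mul_self W), map_mul, map_star]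
    exact rp_eq_zero h2 CStarRing.norm_star_mul_self.le
  · have h3 := norm_cut_le (mul_self_nonneg _) h2 (star_mul_self_nonneg W)
    refine (mul_self_lt_mul_self_iff (norm_nonneg _) (h0.trans h.le)).2 ?_
    rw [← CStarRing.norm_star_mul_self, star_mul, star_sub, star_one, star_rp, mul_assoc,
      ← mul_assoc (star W), ← mul_assoc]
    linarith

/-- Hint: `nrm 1` of any lift. -/
theorem lift_contr (φ : R →⋆ₐ[ℂ] M) (hs : Function.Surjective φ) {y : M} (hy : ‖y‖ ≤ 1) :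
    ∃ x, φ x = y ∧ ‖x‖ ≤ 1 := by
  obtain ⟨x, rfl⟩ := hs y
  exact ⟨nrm 1 x, by rw [map_nrm φ one_pos, nrm_one hy], norm_nrm_le one_pos x⟩

end Vale.Agent.P133
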