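import Vale.Agent.P133.Tw
import Vale.Agent.P133.Cpt

/-! P133: a compact ideal contains a full projection. -/

namespace Vale.Agent.P133

universe u
variable {R : Type u} [CStarAlgebra R] [PartialOrder R] [StarOrderedRing R]

/-- Hint: `p = rp β γ h`. `cpt1` gives `δ` with `‖ρ X‖ ≤ δ → ‖ρ h‖ ≤ (α + β) / 2`; `tw` for `X` with
levels `0, δ` gives `c₁, c₂`; `cmpx` gives `w₁, w₂` with `wᵢ* wᵢ = p p`, `Sup cᵢ wᵢ`, hence
`Sup X wᵢ`, `p wᵢ = wᵢ`, `w₁* w₂ = 0`. `s = rt (1 - p p)` has `s wᵢ = 0`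
(` (s w)* (s w) = w* (1 - p p) w = 0`). `v = w₁ + s` is an isometry, `q = 1 - v v*`, `q w₂ = w₂`.
`q = p p - w₁ w₁* - w₁ s - s w₁*`; `Sup p w₁` (`w₁ = p w₁`), `Sup p (star w₁)` by `Sup.mul_star`,
and `Sup.comm_left` for `s w₁*`. -/
theorem proj {A : TwoSidedIdeal R} (hA : PI A) {h X : R} (h0 : 0 ≤ h) (hX : X ∈ A) (X0 : 0 ≤ X)
    {α β γ : ℝ} (h1 : α < β) (h2 : β < γ) (hp : rp β γ h * X = X)
    (hl : ∀ ρ : Rep R, ρ X = 0 → ‖ρ h‖ ≤ α) :
    ∃ q : R, IsStarProjection q ∧ Sup (rp β γ h) q ∧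
      ∀ ρ : Rep R, ρ q = 0 → ρ (rp β γ h) = 0 := by
  obtain ⟨δ, hδ, h3⟩ := cpt1 hl (show α < (α + β) / 2 by linarith)
  obtain ⟨c₁, c₂, p1, p2, h12, s1, s2, l1, l2⟩ := tw hA hX X0 le_rfl hδ
  have hm := rp_mem le_rfl hδ X0.isSelfAdjoint hA.closed hX
  have hs := sup_rp_self le_rfl hδ X0.isSelfAdjoint
  have h4 : (α + β) / 2 < β := by linarith
  obtain ⟨w₁, e1, t1⟩ := cmpx hA h0 (s1.mem hA.closed hm) p1 (fun ρ h => h3 ρ (l1 ρ h)) h4 h2
  obtain ⟨w₂, e2, t2⟩ := cmpx hA h0 (s2.mem hA.closed hm) p2 (fun ρ h => h3 ρ (l2 ρ h)) h4 h2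
  have hps : star (rp β γ h) = rp β γ h := star_rp _ _ _
  have hp1 : ‖rp β γ h‖ ≤ 1 := norm_rp_le_one _ _ _
  generalize rp β γ h = p at *
  have f1 : p * w₁ = w₁ := ((hs.trans s1).trans t1).plateau hp
  have f2 : p * w₂ = w₂ := ((hs.trans s2).trans t2).plateau hp
  have o12 : star w₁ * w₂ = 0 := t1.orth t2 (by rw [p1.isSelfAdjoint.star_eq, h12])
  have hpp : 0 ≤ 1 - p * p := by
    have h5 := star_mul_self_le_one hp1
    rw [hps] at h5
    exact sub_nonneg.2 h5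
  have hss : rt (1 - p * p) * rt (1 - p * p) = 1 - p * p := rt_mul_rt hpp
  have hst : star (rt (1 - p * p)) = rt (1 - p * p) := (rt_sa _).star_eq
  have hc : Commute (rt (1 - p * p)) p :=
    commute_rt ((Commute.one_left p).sub_left ((Commute.refl p).mul_left (Commute.refl p)))
  generalize rt (1 - p * p) = s at *
  have k : ∀ w, p * w = w → s * w = 0 := fun w hw => by
    refine eq_zero_of_star_mul_self ?_
    rw [star_mul, hst, mul_assoc, ← mul_assoc s, hss, sub_mul, one_mul, mul_assoc, hw, hw,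
      sub_self, mul_zero]
  have k1 := k w₁ f1
  have k2 := k w₂ f2
  have k1' : star w₁ * s = 0 := by rw [← hst, ← star_mul, k1, star_zero]
  have hv : star (w₁ + s) * (w₁ + s) = 1 := by
    rw [star_add, hst, add_mul, mul_add, mul_add, e1, k1, k1', hss]
    abel
  refine ⟨1 - (w₁ + s) * star (w₁ + s), IsStarProjection.one_sub ⟨?_, ?_⟩, ?_, fun ρ hq => ?_⟩
  · show _ * _ = _
    rw [mul_assoc, ← mul_assoc (star _), hv, one_mul]
  · exact IsSelfAdjoint.mul_star_self _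
  · have e : 1 - (w₁ + s) * star (w₁ + s) = p * p - w₁ * star w₁ - w₁ * s - s * star w₁ := by
      rw [star_add, hst, add_mul, mul_add, mul_add, hss]
      abel
    have u1 : Sup p w₁ := f1 ▸ Sup.mul_self p w₁
    have u2 : Sup p (star w₁) := by
      have h5 := Sup.mul_star (star w₁)
      rw [star_star, e1] at h5
      exact (Sup.mul_self p p).trans h5
    rw [e]
    exact (((Sup.mul_self p p).sub (u1.mul_right _)).sub (u1.mul_right _)).sub (u2.comm_left hc)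
  · have e : (1 - (w₁ + s) * star (w₁ + s)) * w₂ = w₂ := by
      rw [sub_mul, one_mul, mul_assoc, star_add, hst, add_mul (star w₁), o12, k2, add_zero,
        mul_zero, sub_zero]
    have h5 : ρ.hom w₂ = 0 := by rw [← e, map_mul, hq, zero_mul]
    refine eq_zero_of_star_mul_self ?_
    rw [← map_star, ← map_mul, hps, ← e2, map_mul, h5, mul_zero]

end Vale.Agent.P133
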