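import Vale.Agent.P133.Rp

/-! P133: order properties of ramps, positive parts and square roots. -/

namespace Vale.Agent.P133

section order
variable {R : Type*} [CStarAlgebra R] [PartialOrder R] [StarOrderedRing R] {a : R} {α β : ℝ}

theorem rp_nonneg (α β : ℝ) (a : R) : 0 ≤ rp α β a :=
  cfc_nonneg fun _ _ => ramp_nonneg _ _ _

theorem rp_le_one (α β : ℝ) (a : R) : rp α β a ≤ 1 :=
  cfc_le_one _ _ fun _ _ => ramp_le_one _ _ _

theorem le_of_rp_eq_zero (h : α < β) (ha : IsSelfAdjoint a) (h0 : rp α β a = 0) :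
    a ≤ α • (1 : R) := by
  rw [← Algebra.algebraMap_eq_smul_one, le_algebraMap_iff_spectrum_le ha]
  intro x hx
  have := (cfc_nonpos_iff (ramp α β) a (continuous_ramp α β).continuousOn ha).1 h0.le x hx
  exact (ramp_eq_zero_iff h).1 (this.antisymm (ramp_nonneg _ _ _))

theorem rp_eq_zero_of_le (h : α < β) (ha : a ≤ α • (1 : R)) : rp α β a = 0 := by
  have hs : IsSelfAdjoint a := by
    have h1 : IsSelfAdjoint (α • (1 : R) - a) := IsSelfAdjoint.of_nonneg (sub_nonneg.2 ha)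
    have h2 : IsSelfAdjoint (α • (1 : R)) := (IsSelfAdjoint.all α).smul (IsSelfAdjoint.one R)
    simpa using h2.sub h1
  rw [← Algebra.algebraMap_eq_smul_one, le_algebraMap_iff_spectrum_le hs] at ha
  rw [rp, ← cfc_zero ℝ a]
  exact cfc_congr fun x hx => (ramp_eq_zero_iff h).2 (ha x hx)

theorem norm_le_of_rp_eq_zero (h0 : 0 ≤ α) (h : α < β) (ha : 0 ≤ a) (hz : rp α β a = 0) :
    ‖a‖ ≤ α := by
  rw [CStarAlgebra.norm_le_iff_le_algebraMap a h0 ha, Algebra.algebraMap_eq_smul_one]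
  exact le_of_rp_eq_zero h (IsSelfAdjoint.of_nonneg ha) hz

theorem norm_lt_of_norm_rp_lt (h0 : 0 ≤ α) (h : α < β) (ha : 0 ≤ a) (hz : ‖rp α β a‖ < 1) :
    ‖a‖ < β := by
  obtain hR | hR := subsingleton_or_nontrivial R
  · rw [Subsingleton.elim a 0, norm_zero]
    exact h0.trans_lt h
  have h1 := norm_apply_le_norm_cfc (ramp α β) a (CStarAlgebra.norm_mem_spectrum_of_nonneg ha)
    (continuous_ramp α β).continuousOn (IsSelfAdjoint.of_nonneg ha)
  by_contra hc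
  rw [(ramp_eq_one_iff h).2 (not_lt.1 hc), norm_one] at h1
  exact absurd hz (not_lt.2 h1)

theorem norm_cut_le (h0 : 0 ≤ α) (h : α < β) (ha : 0 ≤ a) :
    ‖(1 - rp α β a) * a * (1 - rp α β a)‖ ≤ β := by
  have hs := IsSelfAdjoint.of_nonneg ha
  have hc := continuous_ramp α β
  have e : (1 - rp α β a) * a * (1 - rp α β a) =
      cfc (fun t => (1 - ramp α β t) * t * (1 - ramp α β t)) a := by
    rw [cfc_mul _ _ a, cfc_mul _ _ a, cfc_sub _ _ a, cfc_const_one ℝ a, cfc_id' ℝ a, rp]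
  rw [e]
  refine norm_cfc_le (h0.trans h.le) fun t ht => ?_
  have t0 := spectrum_nonneg_of_nonneg ha ht
  have r0 := ramp_nonneg α β t
  have r1 := sub_nonneg.2 (ramp_le_one α β t)
  rw [Real.norm_of_nonneg (by positivity)]
  rcases le_total β t with hb | hb
  · rw [(ramp_eq_one_iff h).2 hb]
    simpa using h0.trans h.le
  · nlinarith [mul_nonneg r0 t0, mul_nonneg (mul_nonneg r1 t0) r0]

theorem norm_sq_cut_le (h0 : 0 ≤ α) (h : α < β) (ha : 0 ≤ a) :
    ‖a * (rp α β a * rp α β a) * a - a ^ 2‖ ≤ β ^ 2 := by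
  have hs := IsSelfAdjoint.of_nonneg ha
  have hc := continuous_ramp α β
  have e : a * (rp α β a * rp α β a) * a - a ^ 2 =
      cfc (fun t => t * (ramp α β t * ramp α β t) * t - t ^ 2) a := by
    rw [cfc_sub _ _ a, cfc_mul _ _ a, cfc_mul _ _ a, cfc_mul _ _ a, cfc_pow_id a 2, cfc_id' ℝ a, rp]
  rw [e]
  refine norm_cfc_le (sq_nonneg _) fun t ht => ?_
  have t0 := spectrum_nonneg_of_nonneg ha ht
  have r0 := ramp_nonneg α β t
  have r1 := ramp_le_one α β t
  have r2 : ramp α β t * ramp α β t ≤ 1 := by nlinarith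
  rw [Real.norm_of_nonpos (by nlinarith [sq_nonneg t])]
  rcases le_total β t with hb | hb
  · rw [(ramp_eq_one_iff h).2 hb]
    nlinarith [sq_nonneg β]
  · nlinarith [sq_nonneg (ramp α β t * t)]

theorem pp_nonneg (a : R) : 0 ≤ pp a :=
  cfc_nonneg fun _ _ => le_max_right _ _

theorem pp_of_nonneg (ha : 0 ≤ a) : pp a = a := by
  have hs := IsSelfAdjoint.of_nonneg ha
  exact (cfc_congr fun t ht => max_eq_left (spectrum_nonneg_of_nonneg ha ht)).trans (cfc_id' ℝ a)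

theorem pp_conj_nonneg (ha : IsSelfAdjoint a) : 0 ≤ pp a * a * pp a := by
  have e : pp a * a * pp a = cfc (fun t : ℝ => max t 0 * t * max t 0) a := by
    rw [cfc_mul _ _ a, cfc_mul _ _ a, cfc_id' ℝ a, pp]
  rw [e]
  refine cfc_nonneg fun t _ => ?_
  rcases le_total 0 t with h | h
  · positivity
  · simp [max_eq_right h]

theorem nonpos_of_pp_eq_zero (ha : IsSelfAdjoint a) (h : pp a = 0) : a ≤ 0 := by
  have := (cfc_nonpos_iff (fun t : ℝ => max t 0) a (by fun_prop) ha).1 h.le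
  rw [← cfc_id' ℝ a]
  exact cfc_nonpos _ _ fun t ht => (le_max_left _ _).trans (this t ht)

theorem rt_nonneg (a : R) : 0 ≤ rt a :=
  cfc_nonneg fun _ _ => Real.sqrt_nonneg _

theorem rt_mul_rt (ha : 0 ≤ a) : rt a * rt a = a := by
  have hs := IsSelfAdjoint.of_nonneg ha
  rw [rt, ← cfc_mul _ _ a]
  exact (cfc_congr fun t ht => Real.mul_self_sqrt (spectrum_nonneg_of_nonneg ha ht)).trans
    (cfc_id' ℝ a)

theorem norm_le_one_of_le_one (h0 : 0 ≤ a) (h1 : a ≤ 1) : ‖a‖ ≤ 1 :=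
  (CStarAlgebra.norm_le_one_iff_of_nonneg a h0).2 h1

theorem norm_one_sub_le_one (h0 : 0 ≤ a) (h1 : a ≤ 1) : ‖1 - a‖ ≤ 1 :=
  norm_le_one_of_le_one (sub_nonneg.2 h1) (sub_le_self _ h0)

theorem star_mul_self_le_one {x : R} (h : ‖x‖ ≤ 1) : star x * x ≤ 1 := by
  refine (CStarAlgebra.norm_le_one_iff_of_nonneg _ (star_mul_self_nonneg x)).1 ?_
  rw [CStarRing.norm_star_mul_self]
  exact mul_le_one₀ h (norm_nonneg _) h

theorem le_norm_smul_one (ha : IsSelfAdjoint a) {c : ℝ} (h : ‖a‖ ≤ c) : a ≤ c • (1 : R) := by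
  rw [← Algebra.algebraMap_eq_smul_one, le_algebraMap_iff_spectrum_le ha]
  exact fun x hx => ((le_algebraMap_iff_spectrum_le ha).1 ha.le_algebraMap_norm_self x hx).trans h

theorem neg_norm_smul_one_le (ha : IsSelfAdjoint a) {c : ℝ} (h : ‖a‖ ≤ c) :
    -(c • (1 : R)) ≤ a :=
  neg_le.1 (le_norm_smul_one ha.neg (by rwa [norm_neg]))

theorem norm_le_of_le_smul_one (ha : 0 ≤ a) {c : ℝ} (hc : 0 ≤ c) (h : a ≤ c • (1 : R)) :
    ‖a‖ ≤ c := by
  rwa [CStarAlgebra.norm_le_iff_le_algebraMap a hc ha, Algebra.algebraMap_eq_smul_one]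

theorem rsmul_le_rsmul {b : R} (h : a ≤ b) {c : ℝ} (hc : 0 ≤ c) : c • a ≤ c • b :=
  smul_le_smul_of_nonneg_left h hc

end order

end Vale.Agent.P133
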