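import Vale.Agent.P133.Base

/-! P133: calculus of ramps, positive parts and square roots. -/

namespace Vale.Agent.P133

section scalar
variable {α β t : ℝ}

theorem continuous_ramp (α β : ℝ) : Continuous (ramp α β) := by
  unfold ramp
  fun_prop

theorem ramp_nonneg (α β t : ℝ) : 0 ≤ ramp α β t := by
  exact le_max_left _ _

theorem ramp_le_one (α β t : ℝ) : ramp α β t ≤ 1 := by
  exact max_le zero_le_one (min_le_left _ _)

theorem ramp_eq_zero_iff (h : α < β) : ramp α β t = 0 ↔ t ≤ α := by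
  rw [ramp, max_eq_left_iff, min_le_iff, div_nonpos_iff, or_iff_right (not_le.2 zero_lt_one),
    or_iff_right fun h1 => absurd h1.2 (by linarith), and_iff_left (by linarith), sub_nonpos]

theorem ramp_eq_one_iff (h : α < β) : ramp α β t = 1 ↔ β ≤ t := by
  rw [ramp, max_eq_iff, or_iff_right fun h1 => zero_ne_one h1.1, min_eq_left_iff,
    one_le_div (sub_pos.2 h), sub_le_sub_iff_right]
  exact and_iff_left_of_imp fun h1 =>
    le_min zero_le_one (div_nonneg (by linarith) (sub_pos.2 h).le)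

end scalar

section noorder
variable {R M : Type*} [CStarAlgebra R] [CStarAlgebra M] {a : R} {α β γ δ : ℝ}

theorem rp_sa (α β : ℝ) (a : R) : IsSelfAdjoint (rp α β a) := by
  exact cfc_predicate _ _

theorem star_rp (α β : ℝ) (a : R) : star (rp α β a) = rp α β a := by
  exact (rp_sa α β a).star_eq

theorem norm_rp_le_one (α β : ℝ) (a : R) : ‖rp α β a‖ ≤ 1 := by
  refine norm_cfc_le zero_le_one fun t _ => ?_
  rw [Real.norm_of_nonneg (ramp_nonneg α β t)]
  exact ramp_le_one α β t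

theorem norm_one_sub_rp_le (α β : ℝ) (ha : IsSelfAdjoint a) : ‖1 - rp α β a‖ ≤ 1 := by
  rw [rp, ← cfc_const_one ℝ a, ← cfc_sub _ _ a (by fun_prop) (continuous_ramp α β).continuousOn]
  refine norm_cfc_le zero_le_one fun t _ => ?_
  rw [Real.norm_of_nonneg (sub_nonneg.2 (ramp_le_one α β t))]
  linarith [ramp_nonneg α β t]

theorem rp_mul_rp (h1 : α < β) (h2 : β ≤ γ) (h3 : γ < δ) (a : R) :
    rp α β a * rp γ δ a = rp γ δ a := by
  rw [rp, rp, ← cfc_mul _ _ a (continuous_ramp α β).continuousOn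
    (continuous_ramp γ δ).continuousOn]
  refine cfc_congr fun t _ => ?_
  rcases le_total t γ with h | h
  · simp only [(ramp_eq_zero_iff h3).2 h, mul_zero]
  · simp only [(ramp_eq_one_iff h1).2 (h2.trans h), one_mul]

theorem rp_mul_rp' (h1 : α < β) (h2 : β ≤ γ) (h3 : γ < δ) (a : R) :
    rp γ δ a * rp α β a = rp γ δ a := by
  rw [← star_rp γ δ a, ← star_rp α β a, ← star_mul, rp_mul_rp h1 h2 h3]

theorem map_rp (φ : R →⋆ₐ[ℂ] M) (α β : ℝ) (ha : IsSelfAdjoint a) :
    φ (rp α β a) = rp α β (φ a) := by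
  exact map_cfcR φ (continuous_ramp α β) ha

theorem rp_eq_zero (h : α < β) (ha : ‖a‖ ≤ α) : rp α β a = 0 := by
  rw [rp, ← cfc_zero ℝ a]
  refine cfc_congr fun t ht => (ramp_eq_zero_iff h).2 ?_
  cases subsingleton_or_nontrivial R
  · simp at ht
  · exact (le_abs_self t).trans ((spectrum.norm_le_norm_of_mem ht).trans ha)

theorem sup_rp_self (h0 : 0 ≤ α) (h : α < β) (ha : IsSelfAdjoint a) : Sup a (rp α β a) := by
  exact Sup.cfc_self ha (continuous_ramp α β) ((ramp_eq_zero_iff h).2 h0)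

theorem sup_rp_rp (h1 : α < β) (h2 : α ≤ γ) (h3 : γ < δ) (ha : IsSelfAdjoint a) :
    Sup (rp α β a) (rp γ δ a) := by
  exact Sup.cfc_cfc ha (continuous_ramp α β) (continuous_ramp γ δ) fun t _ ht =>
    (ramp_eq_zero_iff h3).2 (((ramp_eq_zero_iff h1).1 ht).trans h2)

theorem rp_mem (h0 : 0 ≤ α) (h : α < β) (ha : IsSelfAdjoint a) {J : TwoSidedIdeal R}
    (hJ : IsClosed (J : Set R)) (hm : a ∈ J) : rp α β a ∈ J := by
  exact (sup_rp_self h0 h ha).mem hJ hm

/-- Hint: `k = cfc (fun t => ramp α β t / max t α) a`. -/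
theorem rp_fac (h0 : 0 < α) (h : α < β) (ha : IsSelfAdjoint a) : ∃ k, rp α β a = a * k := by
  have hc : Continuous fun t => ramp α β t / max t α :=
    (continuous_ramp α β).div (by fun_prop) fun t => (h0.trans_le (le_max_right _ _)).ne'
  refine ⟨cfc (fun t => ramp α β t / max t α) a, ?_⟩
  nth_rewrite 2 [← cfc_id' ℝ a]
  rw [← cfc_mul _ _ a (by fun_prop) hc.continuousOn]
  refine cfc_congr fun t _ => ?_
  rcases le_total t α with h1 | h1
  · simp only [(ramp_eq_zero_iff h).2 h1, zero_div, mul_zero]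
  · simp only [max_eq_left h1, mul_div_cancel₀ _ (h0.trans_le h1).ne']

theorem pp_sa (a : R) : IsSelfAdjoint (pp a) := by
  exact cfc_predicate _ _

theorem map_pp (φ : R →⋆ₐ[ℂ] M) (ha : IsSelfAdjoint a) : φ (pp a) = pp (φ a) := by
  exact map_cfcR φ (by fun_prop) ha

theorem sup_pp (ha : IsSelfAdjoint a) : Sup a (pp a) := by
  exact Sup.cfc_self ha (by fun_prop) (max_self 0)

theorem pp_mul_pp_neg (ha : IsSelfAdjoint a) : pp a * pp (-a) = 0 := by
  rw [pp, pp, ← cfc_comp_neg _ a, ← cfc_mul _ _ a, ← cfc_zero ℝ a]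
  refine cfc_congr fun t _ => ?_
  rcases le_total t 0 with h | h
  · simp [h]
  · simp [h]

theorem rt_sa (a : R) : IsSelfAdjoint (rt a) := by
  exact cfc_predicate _ _

theorem map_rt (φ : R →⋆ₐ[ℂ] M) (ha : IsSelfAdjoint a) : φ (rt a) = rt (φ a) := by
  exact map_cfcR φ Real.continuous_sqrt ha

theorem sup_rt (ha : IsSelfAdjoint a) : Sup a (rt a) := by
  exact Sup.cfc_self ha Real.continuous_sqrt Real.sqrt_zero

theorem commute_rt {b : R} (h : Commute a b) : Commute (rt a) b := by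
  exact h.cfc_real _

theorem eq_zero_of_star_mul_self {x : R} (h : star x * x = 0) : x = 0 := by
  exact (CStarRing.star_mul_self_eq_zero_iff x).1 h

theorem norm_le_one_of_star_mul_self {x f : R} (h : star x * x = f * f) (hf : ‖f‖ ≤ 1) :
    ‖x‖ ≤ 1 := by
  have h1 := CStarRing.norm_star_mul_self (x := x)
  have h2 := norm_mul_le f f
  rw [← h, h1] at h2
  nlinarith [norm_nonneg x, norm_nonneg f]

theorem norm_eq_of_star_mul_self {x y : R} (h : star x * x = star y * y) : ‖x‖ = ‖y‖ := by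
  refine mul_self_inj_of_nonneg (norm_nonneg x) (norm_nonneg y) |>.1 ?_
  rw [← CStarRing.norm_star_mul_self, h, CStarRing.norm_star_mul_self]

end noorder

end Vale.Agent.P133
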