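import Vale.Agent.P133.Cmp

/-! P133: exact twins. -/

namespace Vale.Agent.P133

universe u
variable {R : Type u} [CStarAlgebra R] [PartialOrder R] [StarOrderedRing R]

theorem tw_sa (u v : R) : IsSelfAdjoint (u * star u - v * star v) :=
  (IsSelfAdjoint.mul_star_self u).sub (IsSelfAdjoint.mul_star_self v)

theorem tw_key {u v : R} (h : pp (u * star u - v * star v) = 0) :
    ‖star u * u‖ ≤ ‖star u * v‖ := by
  have h1 := star_left_conjugate_le_conjugate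
    (sub_nonpos.1 (nonpos_of_pp_eq_zero (tw_sa u v) h)) u
  have e : ∀ w : R, star u * (w * star w) * u = star u * w * star (star u * w) := fun w => by
    simp only [star_mul, star_star, mul_assoc]
  rw [e, e] at h1
  have h2 := CStarAlgebra.norm_le_norm_of_nonneg_of_le (mul_star_self_nonneg _) h1
  rw [CStarRing.norm_self_mul_star, CStarRing.norm_self_mul_star] at h2
  exact (mul_self_le_mul_self_iff (norm_nonneg _) (norm_nonneg _)).2 h2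

theorem tw_half {h u v : R} (h0 : 0 ≤ h) {α β : ℝ} (h1 : 0 ≤ α) (h2 : α < β)
    (hu : ‖star u * u - rp α β h * rp α β h‖ < 1 / 4) (hv : ‖star u * v‖ < 1 / 4) (ρ : Rep R)
    (hρ : ρ (pp (u * star u - v * star v)) = 0) : ‖ρ h‖ ≤ β := by
  rw [map_pp _ (tw_sa u v), map_sub, map_mul, map_mul, map_star, map_star] at hρ
  have a1 := tw_key hρ
  have a2 := norm_map_le ρ.hom (star u * v)
  have a3 := norm_map_le ρ.hom (star u * u - rp α β h * rp α β h)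
  rw [map_mul, map_star] at a2
  rw [map_sub, map_mul, map_mul, map_star, map_rp _ _ _ h0.isSelfAdjoint] at a3
  have a4 := CStarRing.norm_star_mul_self (x := rp α β (ρ h))
  rw [star_rp] at a4
  have a5 := norm_sub_norm_le (rp α β (ρ h) * rp α β (ρ h)) (star (ρ u) * ρ u)
  rw [norm_sub_rev] at a5
  refine (norm_lt_of_norm_rp_lt h1 h2 (map_nonneg' _ h0) ?_).le
  nlinarith [norm_nonneg (rp α β (ρ h))]

/-- Hint: `g = rp α β h`, twins `s, t` of `g * g` with `ε = 1 / 4`, `w₁ = g s`, `w₂ = g t`,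
`c = w₁ w₁* - w₂ w₂*`, `c₁ = pp c`, `c₂ = pp (-c)`. If `ρ c₁ = 0` then `ρ c ≤ 0`, conjugating by
`w₁`: ` (w₁* w₁) ^ 2 ≤ (w₁* w₂)(w₁* w₂)*` in `ρ`, so `‖ρ (w₁* w₁)‖ ≤ ε`, `‖ρ g‖ ^ 2 ≤ 2 ε < 1`. -/
theorem tw {A : TwoSidedIdeal R} (hA : PI A) {h : R} (hh : h ∈ A) (h0 : 0 ≤ h) {α β : ℝ}
    (h1 : 0 ≤ α) (h2 : α < β) :
    ∃ c₁ c₂ : R, 0 ≤ c₁ ∧ 0 ≤ c₂ ∧ c₁ * c₂ = 0 ∧ Sup (rp α β h) c₁ ∧ Sup (rp α β h) c₂ ∧
      (∀ ρ : Rep R, ρ c₁ = 0 → ‖ρ h‖ ≤ β) ∧ ∀ ρ : Rep R, ρ c₂ = 0 → ‖ρ h‖ ≤ β := by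
  have hg := rp_mem h1 h2 h0.isSelfAdjoint hA.closed hh
  have g0 := star_mul_self_nonneg (rp α β h)
  rw [star_rp] at g0
  obtain ⟨s, t, e1, e2, e3⟩ := hA.twin _ (A.mul_mem_left _ _ hg) g0 (1 / 4) (by norm_num)
  have e : ∀ a b : R, star a * (rp α β h * rp α β h) * b =
      star (rp α β h * a) * (rp α β h * b) := fun a b => by
    simp only [star_mul, star_rp, mul_assoc]
  rw [e] at e1 e2 e3
  have s1 : ∀ a b : R, Sup (rp α β h) (pp (rp α β h * a * star (rp α β h * a) -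
      rp α β h * b * star (rp α β h * b))) := fun a b =>
    (((Sup.mul_self _ _).mul_right _).sub ((Sup.mul_self _ _).mul_right _)).trans
      (sup_pp (tw_sa _ _))
  refine ⟨_, _, pp_nonneg _, pp_nonneg _, ?_, s1 s t, s1 t s, tw_half h0 h1 h2 e1 e3,
    tw_half h0 h1 h2 e2 ?_⟩
  · rw [← neg_sub (rp α β h * s * _)]
    exact pp_mul_pp_neg (tw_sa _ _)
  · rwa [← norm_star, star_mul, star_star] at e3

/-- Hint: `tw` with `α < (α + β) / 2`, then `cmpx` twice, `Sup.orth`, `sup_rp_rp`. -/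
theorem tw2 {A : TwoSidedIdeal R} (hA : PI A) {h : R} (hh : h ∈ A) (h0 : 0 ≤ h) {α β γ : ℝ}
    (h1 : 0 ≤ α) (h2 : α < β) (h3 : β < γ) :
    ∃ z₁ z₂ : R, Sup (rp α β h) z₁ ∧ Sup (rp α β h) z₂ ∧
      star z₁ * z₁ = rp β γ h * rp β γ h ∧ star z₂ * z₂ = rp β γ h * rp β γ h ∧
      star z₁ * z₂ = 0 := by
  have h4 : α < (α + β) / 2 := by linarith
  have h5 : (α + β) / 2 < β := by linarith
  obtain ⟨c₁, c₂, a1, a2, a3, a4, a5, a6, a7⟩ := tw hA hh h0 h1 h4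
  have hg := rp_mem h1 h4 h0.isSelfAdjoint hA.closed hh
  have hs := sup_rp_rp h2 le_rfl h4 h0.isSelfAdjoint
  obtain ⟨z₁, b1, b2⟩ := cmpx hA h0 (a4.mem hA.closed hg) a1 a6 h5 h3
  obtain ⟨z₂, b3, b4⟩ := cmpx hA h0 (a5.mem hA.closed hg) a2 a7 h5 h3
  exact ⟨z₁, z₂, (hs.trans a4).trans b2, (hs.trans a5).trans b4, b1, b3,
    b2.orth b4 (by rw [a1.isSelfAdjoint.star_eq, a3])⟩

/-- Hint: `α < β₁ < β₂ < β`; `z₁, z₂` from `tw2 α β₁ β₂`, `y₁, y₂` from `tw2 β₂ β γ`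
(so `rp β₁ β₂ h * y = y`); take `z₁ y₁, z₁ y₂, z₂ y₁`. -/
theorem tw3 {A : TwoSidedIdeal R} (hA : PI A) {h : R} (hh : h ∈ A) (h0 : 0 ≤ h) {α β γ : ℝ}
    (h1 : 0 ≤ α) (h2 : α < β) (h3 : β < γ) :
    ∃ z₁ z₂ z₃ : R, Sup (rp α β h) z₁ ∧ Sup (rp α β h) z₂ ∧ Sup (rp α β h) z₃ ∧
      star z₁ * z₁ = rp β γ h * rp β γ h ∧ star z₂ * z₂ = rp β γ h * rp β γ h ∧
      star z₃ * z₃ = rp β γ h * rp β γ h ∧
      star z₁ * z₂ = 0 ∧ star z₁ * z₃ = 0 ∧ star z₂ * z₃ = 0 := by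
  have h4 : α < (2 * α + β) / 3 := by linarith
  have h5 : (2 * α + β) / 3 < (α + 2 * β) / 3 := by linarith
  have h6 : (α + 2 * β) / 3 < β := by linarith
  obtain ⟨z₁, z₂, a1, a2, a3, a4, a5⟩ := tw2 hA hh h0 h1 h4 h5
  obtain ⟨y₁, y₂, b1, b2, b3, b4, b5⟩ := tw2 hA hh h0 (by linarith) h6 h3
  have hs := sup_rp_rp h2 le_rfl h4 h0.isSelfAdjoint
  have c1 := b1.plateau (rp_mul_rp h5 le_rfl h6 h)
  have c2 := b2.plateau (rp_mul_rp h5 le_rfl h6 h)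
  have e : ∀ a b c d : R, star (a * b) * (c * d) = star b * (star a * c * d) := fun a b c d => by
    simp only [star_mul, mul_assoc]
  refine ⟨z₁ * y₁, z₁ * y₂, z₂ * y₁, (hs.trans a1).mul_right _, (hs.trans a1).mul_right _,
    (hs.trans a2).mul_right _, ?_, ?_, ?_, ?_, ?_, ?_⟩
  · rw [e, a3, mul_assoc, c1, c1, b3]
  · rw [e, a3, mul_assoc, c2, c2, b4]
  · rw [e, a4, mul_assoc, c1, c1, b3]
  · rw [e, a3, mul_assoc, c2, c2, b5]
  · rw [e, a5, zero_mul, mul_zero]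
  · rw [e, a5, zero_mul, mul_zero]

end Vale.Agent.P133
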