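import Vale.Agent.P133.Iter

/-! P133: passage to the non-unital algebra and extraction of matrix entries. -/

namespace Vale.Agent.P133

universe u v

theorem core {C : Type u} [NonUnitalCStarAlgebra C] [PartialOrder C] [StarOrderedRing C]
    (H : ∀ h : C, 0 ≤ h → ∀ ε : ℝ, 0 < ε → ∃ s t : C, ‖star s * h * s - h‖ < ε ∧
      ‖star t * h * t - h‖ < ε ∧ ‖star s * h * t‖ < ε)
    (x y : C) (x0 : 0 ≤ x) (y0 : 0 ≤ y) (ε : ℝ) (hε : 0 < ε) :
    ∃ s t : C, ‖star s * (x * x) * s - x * x‖ < ε ∧ ‖star t * (y * y) * t - y * y‖ < ε ∧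
      ‖star s * (x * y) * t‖ < ε := by
  let A : TwoSidedIdeal (Unitization ℂ C) := TwoSidedIdeal.ker (Unitization.fstHom ℂ C)
  have hm : ∀ z : Unitization ℂ C, z ∈ A ↔ z.fst = 0 := fun z => TwoSidedIdeal.mem_ker _
  have hr : ∀ z ∈ A, ∃ c : C, (c : Unitization ℂ C) = z := fun z hz =>
    ⟨z.snd, Unitization.ext (by simpa using ((hm z).1 hz).symm) (by simp)⟩
  have hA : PI A := by
    refine ⟨?_, fun h hh h0 δ hδ => ?_⟩
    · have : (A : Set (Unitization ℂ C)) = {z | z.fst = 0} := Set.ext hm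
      rw [this]
      exact isClosed_eq Unitization.continuous_fst continuous_const
    · obtain ⟨c, rfl⟩ := hr h hh
      obtain ⟨s, t, h1, h2, h3⟩ := H c (Unitization.inr_nonneg_iff.1 h0) δ hδ
      refine ⟨s, t, ?_, ?_, ?_⟩
      · rw [← Unitization.norm_inr (𝕜 := ℂ)] at h1; simpa using h1
      · rw [← Unitization.norm_inr (𝕜 := ℂ)] at h2; simpa using h2
      · rw [← Unitization.norm_inr (𝕜 := ℂ)] at h3; simpa using h3
  obtain ⟨s, hs, t, ht, h1, h2, h3⟩ := spi hA (x := (x : Unitization ℂ C)) ((hm _).2 (by simp))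
    (Unitization.inr_nonneg_iff.2 x0) (y := (y : Unitization ℂ C)) ((hm _).2 (by simp))
    (Unitization.inr_nonneg_iff.2 y0) hε
  obtain ⟨s, rfl⟩ := hr s hs
  obtain ⟨t, rfl⟩ := hr t ht
  refine ⟨s, t, ?_, ?_, ?_⟩ <;> rw [← Unitization.norm_inr (𝕜 := ℂ)]
  · simpa [sq] using h1
  · simpa [sq] using h2
  · simpa using h3

theorem entries {C : Type u} {P : Type v} [NonUnitalCStarAlgebra C] [NonUnitalCStarAlgebra P]
    [PartialOrder C] [StarOrderedRing C] (E : ℕ → ℕ → C →ₗ[ℂ] P)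
    (hmul : ∀ i j k l a b, E i j a * E k l b = if j = k then E i l (a * b) else 0)
    (hstar : ∀ i j a, star (E i j a) = E j i (star a)) (hinj : Function.Injective (E 0 0))
    (hd : Dense (Submodule.span ℂ {z : P | ∃ i j a, z = E i j a} : Set P)) {h : C} (h0 : 0 ≤ h)
    {ε : ℝ} {x : P} (hx : ‖star x * E 0 0 h * x - (E 0 0 h + E 1 1 h)‖ < ε) :
    ∃ s t : C, ‖star s * h * s - h‖ < ε ∧ ‖star t * h * t - h‖ < ε ∧ ‖star s * h * t‖ < ε := by
  let φ : C →⋆ₙₐ[ℂ] P :=
    { toFun := E 0 0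
      map_smul' := fun c a => map_smul _ c a
      map_zero' := map_zero _
      map_add' := map_add _
      map_mul' := fun a b => by simp [hmul]
      map_star' := fun a => (hstar 0 0 a).symm }
  have iso : ∀ a, ‖E 0 0 a‖ = ‖a‖ := fun a => NonUnitalStarAlgHom.norm_map φ hinj a
  have nE : ∀ j b, ‖E j 0 b‖ = ‖b‖ := fun j b => by
    have h1 := CStarRing.norm_star_mul_self (x := E j 0 b)
    rw [hstar, hmul, if_pos rfl, iso, CStarRing.norm_star_mul_self] at h1
    exact (mul_self_inj_of_nonneg (norm_nonneg _) (norm_nonneg _)).1 h1.symm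
  obtain ⟨y, hy, hy'⟩ := hd.exists_mem_open
    (U := {y : P | ‖star y * E 0 0 h * y - (E 0 0 h + E 1 1 h)‖ < ε})
    (isOpen_lt (by fun_prop) continuous_const) ⟨x, hx⟩
  have ent : ∃ a : ℕ → C, ∀ j c b, E 0 0 c * y * E j 0 b = E 0 0 (c * a j * b) := by
    clear hy'
    induction hy using Submodule.span_induction with
    | mem z hz =>
      obtain ⟨i, k, a, rfl⟩ := hz
      refine ⟨fun j => if 0 = i ∧ k = j then a else 0, fun j c b => ?_⟩
      by_cases h1 : 0 = i <;> by_cases h2 : k = j <;> simp [hmul, h1, h2]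
    | zero => exact ⟨0, by simp⟩
    | add z w _ _ h1 h2 =>
      obtain ⟨a, ha⟩ := h1
      obtain ⟨a', ha'⟩ := h2
      exact ⟨a + a', fun j c b => by simp [mul_add, add_mul, ha, ha']⟩
    | smul r z _ h1 =>
      obtain ⟨a, ha⟩ := h1
      exact ⟨r • a, fun j c b => by simp [mul_smul_comm, smul_mul_assoc, ha]⟩
  obtain ⟨a, ha⟩ := ent
  obtain ⟨r, rfl⟩ := CStarAlgebra.nonneg_iff_eq_star_mul_self.1 h0
  set W := star y * E 0 0 (star r * r) * y - (E 0 0 (star r * r) + E 1 1 (star r * r)) with hW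
  have bd : ∀ (j k : ℕ) (z : C), (∀ b b', star (E j 0 b) * W * E k 0 b' = E 0 0 (star b * z * b')) →
      ‖z‖ < ε := fun j k z hz => by
    refine lt_of_le_of_lt ?_ hy'
    have h1 := congrArg norm (hz z (star z * z))
    have h2 : ‖star z * z * (star z * z)‖ = ‖z‖ * ‖z‖ * (‖z‖ * ‖z‖) := by
      nth_rw 1 [← (IsSelfAdjoint.star_mul_self z).star_eq]
      rw [CStarRing.norm_star_mul_self, CStarRing.norm_star_mul_self]
    have h3 : ‖star (E j 0 z) * W * E k 0 (star z * z)‖ ≤ ‖z‖ * ‖W‖ * (‖z‖ * ‖z‖) := by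
      refine (norm_mul_le _ _).trans ?_
      rw [nE, CStarRing.norm_star_mul_self]
      refine mul_le_mul_of_nonneg_right ((norm_mul_le _ _).trans ?_) (by positivity)
      rw [norm_star, nE]
    rw [h1, iso, h2] at h3
    rcases (norm_nonneg z).eq_or_lt with h4 | h4
    · rw [← h4]; exact norm_nonneg _
    · have h5 : 0 < ‖z‖ * (‖z‖ * ‖z‖) := by positivity
      exact le_of_mul_le_mul_right (by linarith) h5
  have main : ∀ (j k : ℕ) (b b' : C), star (E j 0 b) * (star y * E 0 0 (star r * r) * y) * E k 0 b' =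
      E 0 0 (star b * (star (a j) * (star r * r) * a k) * b') := fun j k b b' => by
    have e : E 0 0 (star r * r) = star (E 0 0 r) * E 0 0 r := by rw [hstar, hmul, if_pos rfl]
    have e2 : star (E j 0 b) * (star y * (star (E 0 0 r) * E 0 0 r) * y) * E k 0 b' =
        star (E 0 0 r * y * E j 0 b) * (E 0 0 r * y * E k 0 b') := by
      simp only [star_mul, mul_assoc]
    rw [e, e2, ha, ha, hstar, hmul, if_pos rfl]
    simp only [star_mul, mul_assoc]
  refine ⟨a 0, a 1, bd 0 0 _ fun b b' => ?_, bd 1 1 _ fun b b' => ?_, bd 0 1 _ fun b b' => ?_⟩ <;>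
    rw [hW, mul_sub, sub_mul, main, hstar] <;> simp [mul_add, add_mul, hmul, mul_sub, sub_mul]

end Vale.Agent.P133
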